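import Vale.Agent.P290Z.Defs

/-! An odd entire function close to the imaginary part on horizontal lines. -/

open Set Filter Metric
open scoped Manifold ContDiff Topology

noncomputable section

namespace Vale.Agent.P290

theorem aodd_L : ∃ L h : ℂ → ℂ, (∀ u, HasDerivAt L (h u) u) ∧
    ∀ u, u * h u = 1 - Complex.exp (-u) := by
  have h1 : Differentiable ℂ (dslope (fun u : ℂ => -Complex.exp (-u)) 0) := by
    rw [← differentiableOn_univ, Complex.differentiableOn_dslope univ_mem]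
    fun_prop
  obtain ⟨L, hL⟩ := h1.isExactOn_univ
  refine ⟨L, _, fun u => hL u trivial, fun u => ?_⟩
  have h2 := sub_smul_dslope (fun u : ℂ => -Complex.exp (-u)) 0 u
  simp only [sub_zero, smul_eq_mul, neg_zero, Complex.exp_zero] at h2
  rw [h2]
  ring

theorem aodd_bd {L h : ℂ → ℂ} (hL : ∀ u, HasDerivAt L (h u) u)
    (hh : ∀ u, u * h u = 1 - Complex.exp (-u)) {y : ℝ} (hy : 0 ≤ y) :
    ‖L (Complex.exp y) - L (Complex.exp (-y)) - y‖ ≤ 1 := by
  have hd : ∀ z : ℂ, HasDerivAt (fun z : ℂ => L (Complex.exp z) - L (Complex.exp (-z)) - z)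
      (1 - Complex.exp (-Complex.exp z) - Complex.exp (-Complex.exp (-z))) z := fun z => by
    have h1 := (hL _).comp z (Complex.hasDerivAt_exp z)
    have h2 := (hL _).comp z (hasDerivAt_neg' z).cexp
    refine ((h1.sub h2).sub (hasDerivAt_id z)).congr_deriv ?_
    linear_combination hh (Complex.exp z) + hh (Complex.exp (-z))
  have hr := fun x : ℝ => (hd x).comp_ofReal
  have hB : ∀ x : ℝ, HasDerivAt (fun x : ℝ => 1 - Real.exp (-x)) (Real.exp (-x)) x := fun x =>
    ((hasDerivAt_neg' x).exp.const_sub 1).congr_deriv (by ring)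
  have key := image_norm_le_of_norm_deriv_right_le_deriv_boundary (a := 0) (b := y)
    (fun x _ => (hr x).continuousAt.continuousWithinAt) (fun x _ => (hr x).hasDerivWithinAt)
    (by simp) hB (fun x _ => ?_) ⟨hy, le_rfl⟩
  · exact key.trans (by linarith [Real.exp_pos (-y)])
  have e : (1 - Complex.exp (-Complex.exp x) - Complex.exp (-Complex.exp (-x)) : ℂ) =
      ((1 - Real.exp (-Real.exp x) - Real.exp (-Real.exp (-x)) : ℝ) : ℂ) := by
    push_cast
    rfl
  rw [e, Complex.norm_real, Real.norm_eq_abs, abs_le]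
  have a1 : Real.exp (-Real.exp x) ≤ Real.exp (-x) :=
    Real.exp_le_exp.2 (by linarith [Real.add_one_le_exp x])
  have a2 := Real.add_one_le_exp (-Real.exp (-x))
  have a3 : Real.exp (-Real.exp (-x)) ≤ 1 :=
    Real.exp_le_one_iff.2 (by linarith [Real.exp_pos (-x)])
  have a4 := Real.exp_pos (-Real.exp x)
  constructor <;> linarith

theorem exists_a {ε : ℝ} (hε : 0 < ε) : ∃ a : ℂ → ℂ, Differentiable ℂ a ∧ (∀ ζ, a (-ζ) = -a ζ) ∧
    ∀ (ζ : ℂ) (k : ℤ), 2 * ζ.im = k → ‖a ζ - ζ.im‖ ≤ ε := by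
  obtain ⟨L, h, hL, hh⟩ := aodd_L
  have hd : Differentiable ℂ L := fun u => (hL u).differentiableAt
  have hb : ∀ y : ℝ, ‖L (Complex.exp y) - L (Complex.exp (-y)) - y‖ ≤ 1 := fun y => by
    rcases le_total 0 y with hy | hy
    · exact aodd_bd hL hh hy
    · have h1 := aodd_bd hL hh (neg_nonneg.2 hy)
      rw [← norm_neg] at h1
      refine le_trans (le_of_eq (congrArg _ ?_)) h1
      push_cast
      rw [neg_neg]
      ring
  obtain ⟨N, hN⟩ := exists_nat_gt (1 / ε)
  have hN0 : (0 : ℝ) < N := lt_trans (by positivity) hN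
  set c : ℝ := 4 * Real.pi * N with hc
  have hc1 : (N : ℝ) ≤ c := by nlinarith [Real.pi_gt_three]
  have hc0 : 0 < c := hN0.trans_le hc1
  have hc' : (c : ℂ) ≠ 0 := Complex.ofReal_ne_zero.2 hc0.ne'
  refine ⟨fun z => -Complex.I * z + Complex.I / c *
    (L (Complex.exp (c * z)) - L (Complex.exp (-(c * z)))), by fun_prop, fun ζ => ?_,
    fun ζ k hk => ?_⟩
  · simp only [mul_neg, neg_neg]
    ring
  have e0 : (ζ.im : ℂ) = k / 2 := by
    have : ζ.im = k / 2 := by linarith
    rw [this]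
    push_cast
    rfl
  have e1 : (c : ℂ) * ζ = ((c * ζ.re : ℝ) : ℂ) + ((N * k : ℤ) : ℂ) * (2 * Real.pi * Complex.I) := by
    conv_lhs => rw [← Complex.re_add_im ζ, e0]
    rw [hc]
    push_cast
    ring
  have e2 : Complex.exp (c * ζ) = Complex.exp ((c * ζ.re : ℝ) : ℂ) := by
    rw [e1, Complex.exp_add, Complex.exp_int_mul_two_pi_mul_I, mul_one]
  have e3 : Complex.exp (-(c * ζ)) = Complex.exp (-((c * ζ.re : ℝ) : ℂ)) := by
    rw [Complex.exp_neg, Complex.exp_neg, e2]
  have e4 : -Complex.I * ζ + Complex.I / c * (L (Complex.exp (c * ζ)) - L (Complex.exp (-(c * ζ)))) -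
      ζ.im = Complex.I / c * (L (Complex.exp ((c * ζ.re : ℝ) : ℂ)) -
        L (Complex.exp (-((c * ζ.re : ℝ) : ℂ))) - ((c * ζ.re : ℝ) : ℂ)) := by
    have e5 : Complex.I / c * ((c * ζ.re : ℝ) : ℂ) = Complex.I * ζ.re := by
      push_cast
      field_simp
    rw [e2, e3, mul_sub (Complex.I / c) _ ((c * ζ.re : ℝ) : ℂ), e5]
    linear_combination Complex.I * Complex.re_add_im ζ - (ζ.im : ℂ) * Complex.I_mul_I
  show ‖_ - _‖ ≤ ε
  rw [e4, norm_mul, norm_div, Complex.norm_I, Complex.norm_real, Real.norm_of_nonneg hc0.le]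
  refine (mul_le_mul_of_nonneg_left (hb _) (by positivity)).trans ?_
  rw [mul_one, div_le_iff₀ hc0]
  rw [div_lt_iff₀ hε] at hN
  nlinarith

end Vale.Agent.P290
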