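import Vale.Agent.P290Z.Defs

/-! Extension with bounds. -/

open Set Filter Metric
open scoped Manifold ContDiff Topology

noncomputable section

namespace Vale.Agent.P290

variable {E : Type} [NormedAddCommGroup E] [NormedSpace ℂ E] [FiniteDimensional ℂ E]

namespace BExt

open BoundedContinuousFunction

variable {W V : Type} [NormedAddCommGroup W] [NormedSpace ℂ W] [NormedAddCommGroup V]
  [NormedSpace ℂ V]

open Classical in
/-- Extension by zero. -/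
def ex (U : Set W) (f : U →ᵇ V) : W → V := fun z => if h : z ∈ U then f ⟨z, h⟩ else 0

omit [NormedSpace ℂ W] [NormedSpace ℂ V] in
theorem ex_apply {U : Set W} (f : U →ᵇ V) {z : W} (h : z ∈ U) : ex U f z = f ⟨z, h⟩ := dif_pos h

/-- Bounded holomorphic maps. -/
def A (V : Type) [NormedAddCommGroup V] [NormedSpace ℂ V] (U : Set W) : Submodule ℂ (U →ᵇ V) where
  carrier := {f | DifferentiableOn ℂ (ex U f) U}
  add_mem' {f g} hf hg := (DifferentiableOn.add hf hg).congr fun z hz => by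
    rw [Pi.add_apply, ex_apply _ hz, ex_apply _ hz, ex_apply _ hz]
    rfl
  zero_mem' := (differentiableOn_const (0 : V)).congr fun z hz => by
    rw [ex_apply _ hz]
    rfl
  smul_mem' c f hf := (DifferentiableOn.const_smul hf c).congr fun z hz => by
    rw [Pi.smul_apply, ex_apply _ hz, ex_apply _ hz]
    rfl

theorem A_closed [CompleteSpace V] {U : Set W} (hU : IsOpen U) :
    IsClosed (A V U : Set (U →ᵇ V)) := by
  refine IsSeqClosed.isClosed fun f g hf hg z hz => ?_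
  obtain ⟨R, hR, hb⟩ := Metric.isOpen_iff.1 hU z hz
  refine (P278F.differentiableAt_of_unif (f := fun n => ex U (f n)) hR
    (fun n => DifferentiableOn.mono (hf n) hb)
    (tendsto_iff_norm_sub_tendsto_zero.1 hg) fun n w hw => ?_).differentiableWithinAt
  rw [ex_apply _ (hb hw), ex_apply _ (hb hw)]
  exact (f n - g).norm_coe_le_norm ⟨w, hb hw⟩

theorem res {U : Set W} {c : W → V} (hc : DifferentiableOn ℂ c U) {M : ℝ} (h0 : 0 ≤ M)
    (hM : ∀ z ∈ U, ‖c z‖ ≤ M) : ∃ f : A V U, ‖f‖ ≤ M ∧ ∀ z : U, f.1 z = c z :=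
  ⟨⟨ofNormedAddCommGroup (U.domRestrict c) hc.continuousOn.domRestrict M fun z => hM z z.2,
    hc.congr fun _ hz => ex_apply _ hz⟩,
    norm_ofNormedAddCommGroup_le hc.continuousOn.domRestrict h0 fun z => hM z z.2, fun _ => rfl⟩

/-- Compatible pairs. -/
def Z {E : Type} [NormedAddCommGroup E] [NormedSpace ℂ E] (V : Type) [NormedAddCommGroup V]
    [NormedSpace ℂ V] (ι : E → W) (U₁ : Set E) (U₂ : Set W) :
    Submodule ℂ (A V U₁ × A V U₂) where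
  carrier := {p | ∀ z (h₁ : z ∈ U₁) (h₂ : ι z ∈ U₂), p.2.1 ⟨ι z, h₂⟩ = p.1.1 ⟨z, h₁⟩}
  add_mem' hp hq z h₁ h₂ := congrArg₂ (· + ·) (hp z h₁ h₂) (hq z h₁ h₂)
  zero_mem' _ _ _ := rfl
  smul_mem' c _ hp z h₁ h₂ := congrArg (c • ·) (hp z h₁ h₂)

theorem Z_closed {E : Type} [NormedAddCommGroup E] [NormedSpace ℂ E] (ι : E → W) (U₁ : Set E)
    (U₂ : Set W) : IsClosed (Z V ι U₁ U₂ : Set (A V U₁ × A V U₂)) := by
  have e : (Z V ι U₁ U₂ : Set (A V U₁ × A V U₂)) = ⋂ z, ⋂ h₁ : z ∈ U₁, ⋂ h₂ : ι z ∈ U₂,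
      {p | p.2.1 ⟨ι z, h₂⟩ = p.1.1 ⟨z, h₁⟩} := by
    ext p
    simp only [mem_iInter]
    rfl
  rw [e]
  refine isClosed_iInter fun z => isClosed_iInter fun h₁ => isClosed_iInter fun h₂ =>
    isClosed_eq ?_ ?_
  · exact (continuous_eval_const _).comp (continuous_subtype_val.comp continuous_snd)
  · exact (continuous_eval_const _).comp (continuous_subtype_val.comp continuous_fst)

theorem om {X Y : Type} [NormedAddCommGroup X] [NormedSpace ℂ X] [CompleteSpace X]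
    [NormedAddCommGroup Y] [NormedSpace ℂ Y] [CompleteSpace Y] (S : Submodule ℂ (X × Y))
    (hS : IsClosed (S : Set (X × Y))) (h : ∀ x, ∃ y, (x, y) ∈ S) :
    ∃ C > (0 : ℝ), ∀ x, ∃ y, (x, y) ∈ S ∧ ‖y‖ ≤ C * ‖x‖ := by
  have i : CompleteSpace S := hS.completeSpace_coe
  obtain ⟨C, hC, hp⟩ := ((ContinuousLinearMap.fst ℂ X Y).comp S.subtypeL).exists_preimage_norm_le
    fun x => (h x).elim fun y hy => ⟨⟨(x, y), hy⟩, rfl⟩
  refine ⟨C, hC, fun x => ?_⟩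
  obtain ⟨⟨⟨x', y⟩, hy⟩, rfl, h2⟩ := hp x
  exact ⟨y, hy, (norm_snd_le (x', y)).trans h2⟩

theorem main {E : Type} [NormedAddCommGroup E] [NormedSpace ℂ E] [CompleteSpace V] (ι : E → W)
    {U₁ : Set E} {U₂ : Set W} (h₁ : IsOpen U₁) (h₂ : IsOpen U₂)
    (h : ∀ c : E → V, DifferentiableOn ℂ c U₁ → ∃ (c' : W → V) (M : ℝ), DifferentiableOn ℂ c' U₂ ∧
      (∀ y ∈ U₂, ‖c' y‖ ≤ M) ∧ ∀ z ∈ U₁, ι z ∈ U₂ → c' (ι z) = c z) :
    ∃ C > (0 : ℝ), ∀ (c : E → V) (M : ℝ), 0 ≤ M → DifferentiableOn ℂ c U₁ →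
      (∀ z ∈ U₁, ‖c z‖ ≤ M) → ∃ c' : W → V, DifferentiableOn ℂ c' U₂ ∧
        (∀ y ∈ U₂, ‖c' y‖ ≤ C * M) ∧ ∀ z ∈ U₁, ι z ∈ U₂ → c' (ι z) = c z := by
  have i1 : CompleteSpace (A V U₁) := (A_closed h₁).completeSpace_coe
  have i2 : CompleteSpace (A V U₂) := (A_closed h₂).completeSpace_coe
  obtain ⟨C, hC, hp⟩ := om (Z V ι U₁ U₂) (Z_closed ι U₁ U₂) fun f => by
    obtain ⟨c', M, k1, k2, k3⟩ := h (ex U₁ f.1) f.2
    obtain ⟨g, -, hg⟩ := res k1 (le_max_right M 0) fun y hy => (k2 y hy).trans (le_max_left M 0)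
    exact ⟨g, fun z j1 j2 => (hg ⟨ι z, j2⟩).trans ((k3 z j1 j2).trans (ex_apply _ j1))⟩
  refine ⟨C, hC, fun c M h0 hc hM => ?_⟩
  obtain ⟨f, hf, hf'⟩ := res hc h0 hM
  obtain ⟨g, hp1, hp2⟩ := hp f
  refine ⟨ex U₂ g.1, g.2, fun y hy => ?_, fun z j1 j2 => ?_⟩
  · rw [ex_apply _ hy]
    exact (g.1.norm_coe_le_norm _).trans (hp2.trans (mul_le_mul_of_nonneg_left hf hC.le))
  · rw [ex_apply _ j2]
    exact (hp1 z j1 j2).trans (hf' ⟨z, j1⟩)

variable {J : Type} [Fintype J]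

/-- Open boxes. -/
def OB (a b : J × Bool → ℝ) (r : ℝ) : Set (J → ℂ) := {y | ∀ k, co y k ∈ Ioo (a k - r) (b k + r)}

theorem OB_open (a b : J × Bool → ℝ) (r : ℝ) : IsOpen (OB a b r) := by
  rw [OB, Set.ofPred_forall]
  refine isOpen_iInter_of_finite fun k => isOpen_Ioo.preimage ?_
  unfold co
  split_ifs <;> fun_prop

omit [Fintype J] in
theorem OB_sub (a b : J × Bool → ℝ) (r : ℝ) :
    OB a b r ⊆ Box (fun i => a i - r) fun i => b i + r :=
  fun _ h => ⟨fun k => (h k).1.le, fun k => (h k).2.le⟩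

omit [Fintype J] in
theorem sub_OB (a b : J × Bool → ℝ) {r r' : ℝ} (h : r < r') :
    (Box (fun i => a i - r) fun i => b i + r) ⊆ OB a b r' :=
  fun _ hy k => ⟨by linarith [hy.1 k], by linarith [hy.2 k]⟩

omit [Fintype J] in
theorem sub_OB0 (a b : J × Bool → ℝ) {r : ℝ} (h : 0 < r) : Box a b ⊆ OB a b r :=
  fun _ hy k => ⟨by linarith [hy.1 k], by linarith [hy.2 k]⟩

end BExt

theorem bext {J V : Type} [Fintype J] [DecidableEq J] [NormedAddCommGroup V] [NormedSpace ℂ V]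
    [FiniteDimensional ℂ V] {ι : E →L[ℂ] (J → ℂ)} (hι : Function.Injective ι)
    (a b : J × Bool → ℝ) {ρ : ℝ} (hρ : 0 < ρ) : ∃ C > (0 : ℝ), ∀ (c : E → V) (M : ℝ), 0 ≤ M →
      AnalyticOnNhd ℂ c (ι ⁻¹' Box (fun i => a i - ρ) fun i => b i + ρ) →
      (∀ z ∈ ι ⁻¹' Box (fun i => a i - ρ) fun i => b i + ρ, ‖c z‖ ≤ M) →
      ∃ c' : (J → ℂ) → V, AnalyticOnNhd ℂ c' (Box a b) ∧ (∀ y ∈ Box a b, ‖c' y‖ ≤ C * M) ∧
        ∀ z ∈ ι ⁻¹' Box a b, c' (ι z) = c z := by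
  have := FiniteDimensional.complete ℂ V
  have h₁ : IsOpen (ι ⁻¹' BExt.OB a b ρ) := (BExt.OB_open a b ρ).preimage ι.continuous
  obtain ⟨C, hC, h⟩ := BExt.main (V := V) ι h₁ (BExt.OB_open a b (ρ / 2)) fun c hc => by
    obtain ⟨c', k1, k2⟩ := ext_vec hι (fun i => a i - ρ / 2) (fun i => b i + ρ / 2)
      ((P278F.analyticOnNhd_of_differentiableOn h₁ hc).mono
        (preimage_mono (BExt.sub_OB a b (half_lt_self hρ))))
    obtain ⟨M, hM⟩ := (isCompact_box _ _).exists_bound_of_continuousOn k1.continuousOn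
    exact ⟨c', M, k1.differentiableOn.mono (BExt.OB_sub a b _),
      fun y hy => hM y (BExt.OB_sub a b _ hy),
      fun z _ hz => k2.self_of_nhdsSet z (BExt.OB_sub a b _ hz)⟩
  refine ⟨C, hC, fun c M h0 hc hM => ?_⟩
  obtain ⟨c', k1, k2, k3⟩ := h c M h0 (hc.differentiableOn.mono (preimage_mono (BExt.OB_sub a b ρ)))
    fun z hz => hM z (BExt.OB_sub a b ρ hz)
  have hs := BExt.sub_OB0 a b (half_pos hρ)
  exact ⟨c', (P278F.analyticOnNhd_of_differentiableOn (BExt.OB_open a b _) k1).mono hs,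
    fun y hy => k2 y (hs hy), fun z hz => k3 z (BExt.sub_OB0 a b hρ hz) (hs hz)⟩

end Vale.Agent.P290
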