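import Vale.Agent.P290Z.AOdd

/-! An odd entire function close to a sign on horizontal lines. -/

open Set Filter Metric
open scoped Manifold ContDiff Topology

noncomputable section

namespace Vale.Agent.P290

namespace BOdd

/-- An entire odd function. -/
def th (c z : ℂ) : ℂ := Complex.exp (-Complex.exp (-(c * z))) - Complex.exp (-Complex.exp (c * z))

theorem th_neg (c z : ℂ) : th c (-z) = -th c z := by simp [th]

theorem th_diff (c : ℂ) : Differentiable ℂ (th c) := by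
  unfold th
  fun_prop

theorem exp_neg_le {y : ℝ} (hy : 0 < y) : Real.exp (-y) ≤ y⁻¹ := by
  rw [Real.exp_neg]
  exact inv_anti₀ hy (by linarith [Real.add_one_le_exp y])

theorem far {ε : ℝ} (hε : 0 < ε) : ∃ N : ℝ, 16 ≤ N ∧ ∀ u : ℂ, 1 / 16 ≤ u.re → |u.im| ≤ N⁻¹ →
    ‖th N u - 1‖ ≤ ε := by
  obtain ⟨N, hN, h4⟩ : ∃ N : ℝ, 16 ≤ N ∧ 4 / ε ≤ N / 16 :=
    ⟨max 16 (16 * (4 / ε)), le_max_left _ _, by linarith [le_max_right 16 (16 * (4 / ε))]⟩
  refine ⟨N, hN, fun u h1 h2 => ?_⟩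
  obtain ⟨T, hT⟩ : ∃ T, T = Real.exp (N * u.re) := ⟨_, rfl⟩
  have t1 : N / 16 + 1 ≤ T := by
    rw [hT]
    nlinarith [Real.add_one_le_exp (N * u.re)]
  have t0 : 0 < T := by linarith
  have t2 : 4 * T⁻¹ ≤ ε := by
    rw [← div_eq_mul_inv, div_le_comm₀ t0 hε]
    linarith
  have a1 : ‖-Complex.exp (-(N * u))‖ = T⁻¹ := by
    rw [norm_neg, Complex.norm_exp, hT, ← Real.exp_neg]
    simp
  have a2 := Complex.norm_exp_sub_one_le (a1.trans_le (inv_le_one_of_one_le₀ (by linarith)))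
  have a3 : ‖Complex.exp (-Complex.exp (N * u))‖ ≤ 2 * T⁻¹ := by
    have b1 : (N * u.im) ^ 2 ≤ 1 := by
      rw [sq_le_one_iff_abs_le_one, abs_mul, abs_of_pos (by linarith)]
      exact (mul_le_mul_of_nonneg_left h2 (by linarith)).trans_eq (mul_inv_cancel₀ (by linarith))
    have b2 := Real.one_sub_sq_div_two_le_cos (x := N * u.im)
    rw [Complex.norm_exp, Complex.neg_re, Complex.exp_re, Complex.re_ofReal_mul,
      Complex.im_ofReal_mul, ← hT]
    refine (Real.exp_le_exp.2 (by nlinarith : _ ≤ -(T / 2))).trans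
      ((exp_neg_le (half_pos t0)).trans_eq (by rw [inv_div, div_eq_mul_inv]))
  rw [th, sub_right_comm]
  refine (norm_sub_le _ _).trans ?_
  rw [a1] at a2
  linarith

theorem line {z : ℂ} {k : ℤ} (h : 2 * z.im = k) : ∃ r : ℝ, th (4 * Real.pi) z = r ∧ -1 ≤ r ∧
    (1 ≤ z.re → 1 / 2 ≤ r) := by
  obtain ⟨y, hy⟩ : ∃ y, y = 4 * Real.pi * z.re := ⟨_, rfl⟩
  have e : Complex.exp (4 * Real.pi * z) = Real.exp y := by
    have e1 : (k : ℂ) = 2 * z.im := by exact_mod_cast h.symm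
    rw [Complex.ofReal_exp, Complex.exp_eq_exp_iff_exists_int]
    refine ⟨k, ?_⟩
    rw [e1, hy]
    conv_lhs => rw [← Complex.re_add_im z]
    push_cast
    ring
  refine ⟨Real.exp (-Real.exp (-y)) - Real.exp (-Real.exp y), ?_, ?_, fun h1 => ?_⟩
  · rw [th, Complex.exp_neg (_ * z), e]
    simp [Complex.exp_neg y]
  · linarith [Real.exp_pos (-Real.exp (-y)), Real.exp_le_one_iff.2 (neg_nonpos.2 (Real.exp_pos y).le)]
  · have h2 : 4 ≤ y := by nlinarith [Real.pi_gt_three]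
    have h3 := (exp_neg_le (by linarith : 0 < y)).trans (inv_anti₀ four_pos h2)
    have h4 : Real.exp (-Real.exp y) ≤ Real.exp (-y) :=
      Real.exp_le_exp.2 (by linarith [Real.add_one_le_exp y])
    linarith [Real.add_one_le_exp (-Real.exp (-y))]

end BOdd

open BOdd in
theorem exists_b {ε : ℝ} (hε : 0 < ε) : ∃ (b : ℂ → ℂ) (M : ℝ), Differentiable ℂ b ∧
    (∀ ζ, b (-ζ) = -b ζ) ∧ ∀ (ζ : ℂ) (k : ℤ), 2 * ζ.im = k → (k ≠ 0 ∨ M ≤ |ζ.re|) →
      ‖b ζ - 1‖ ≤ ε ∨ ‖b ζ + 1‖ ≤ ε := by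
  obtain ⟨N, hN, h⟩ := far hε
  obtain ⟨a, a1, a2, a3⟩ := exists_a (inv_pos.2 (by linarith : 0 < N))
  have hN' : N⁻¹ ≤ 16⁻¹ := inv_anti₀ (by norm_num) hN
  have odd : ∀ ζ, th N (a (-ζ) + th (4 * Real.pi) (-ζ) / 4) =
      -th N (a ζ + th (4 * Real.pi) ζ / 4) := fun ζ => by
    rw [a2, th_neg, neg_div, ← neg_add, th_neg]
  have key : ∀ (ζ : ℂ) (k : ℤ), 2 * ζ.im = k → (0 < k ∨ k = 0 ∧ 1 ≤ ζ.re) →
      ‖th N (a ζ + th (4 * Real.pi) ζ / 4) - 1‖ ≤ ε := fun ζ k hk h1 => by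
    obtain ⟨r, r1, r2, r3⟩ := line hk
    have b1 := abs_le.1 ((Complex.abs_re_le_norm _).trans (a3 ζ k hk))
    have b2 := (Complex.abs_im_le_norm _).trans (a3 ζ k hk)
    rw [r1]
    refine h _ ?_ (by simpa using b2)
    simp only [Complex.sub_re, Complex.ofReal_re, Complex.add_re, Complex.div_ofNat_re] at b1 ⊢
    rcases h1 with h1 | ⟨rfl, h1⟩
    · have : (1 : ℝ) ≤ k := by exact_mod_cast h1
      linarith [b1.1]
    · rw [Int.cast_zero] at hk
      linarith [b1.1, r3 h1]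
  refine ⟨fun ζ => th N (a ζ + th (4 * Real.pi) ζ / 4), 1,
    (th_diff _).comp (a1.add ((th_diff _).div_const _)), odd, fun ζ k hk h1 => ?_⟩
  by_cases h2 : 0 < k ∨ k = 0 ∧ 1 ≤ ζ.re
  · exact Or.inl (key ζ k hk h2)
  · have h3 := key (-ζ) (-k) (by rw [Complex.neg_im, Int.cast_neg, ← hk, mul_neg]) (by
      rcases lt_trichotomy k 0 with h3 | h3 | h3
      · exact Or.inl (neg_pos.2 h3)
      · refine Or.inr ⟨neg_eq_zero.2 h3, ?_⟩
        exact (le_abs.1 (h1.resolve_left (not_not.2 h3))).resolve_left fun h4 =>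
          h2 (Or.inr ⟨h3, h4⟩)
      · exact absurd (Or.inl h3) h2)
    rw [odd, ← neg_add', norm_neg] at h3
    exact Or.inr h3

end Vale.Agent.P290
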