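import Vale.Agent.P290Z.Defs

/-! Basic algebra of the data. -/

open Set Filter Metric
open scoped Manifold ContDiff Topology

noncomputable section

namespace Vale.Agent.P290

variable {t : Tk}

theorem bs_zero (t : Tk) : bs t 0 = t := by
  simp [bs]

theorem sum_bs (t : Tk) (s : ℂ) (m : Fin 4 → ℤ) :
    ∑ j, m j • bs t s j = ∑ j, m j • t j + (0, m 3 * s) := by
  simp only [Fin.sum_univ_four, bs]
  rw [Function.update_self, Function.update_of_ne (by decide), Function.update_of_ne (by decide),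
    Function.update_of_ne (by decide), smul_add, ← add_assoc]
  simp

theorem hv_bs (t : Tk) (s : ℂ) (n : Fin 4 → ℤ) :
    hv n (bs t s) = hv n t + (0, n 3 * s / 2) := by
  rw [hv, sum_bs, smul_add, hv, Prod.smul_mk _ (0 : ℂ), smul_zero, smul_eq_mul, ← div_eq_inv_mul]

theorem hv_two (n : Fin 4 → ℤ) (t : Tk) : hv n t + hv n t = ∑ j, n j • t j := by
  rw [hv, ← add_smul]
  norm_num

theorem hv_mem (n : Fin 4 → ℤ) (t : Tk) : hv n t + hv n t ∈ Lat t :=
  mem_lat.2 ⟨n, (hv_two n t).symm⟩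

theorem hv_surj {x : ℂ × ℂ} (h : x + x ∈ Lat t) : ∃ n, hv n t = x := by
  obtain ⟨n, hn⟩ := mem_lat.1 h
  exact ⟨n, by rw [hv, hn, ← two_smul ℂ x, inv_smul_smul₀ two_ne_zero]⟩

theorem Nm.li (h : Nm t) (s : ℂ) : LinearIndependent ℝ (bs t s) := by
  refine Fintype.linearIndependent_iff.2 fun g hg => ?_
  simp only [Fin.sum_univ_four, bs] at hg
  rw [Function.update_self, Function.update_of_ne (by decide), Function.update_of_ne (by decide),
    Function.update_of_ne (by decide)] at hg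
  have h3 : g 3 = 0 := by
    have := congrArg (fun x : ℂ × ℂ => x.1.im) hg
    simpa [h.2.1 0 (by decide), h.2.1 1 (by decide), h.2.1 2 (by decide), h.2.2] using this
  refine Fintype.linearIndependent_iff.1 h.1 g ?_
  rw [h3, zero_smul] at hg
  rw [Fin.sum_univ_four, h3, zero_smul, hg]

theorem Nm.im (h : Nm t) (s : ℂ) (n : Fin 4 → ℤ) : 2 * (hv n (bs t s)).1.im = n 3 := by
  have := congrArg (fun x : ℂ × ℂ => x.1.im) (hv_two n (bs t s))
  rw [sum_bs] at this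
  rw [two_mul]
  simpa [Fin.sum_univ_four, h.2.1 0 (by decide), h.2.1 1 (by decide), h.2.1 2 (by decide), h.2.2]
    using this

theorem Nm.hv_eq (h : Nm t) {s : ℂ} {n : Fin 4 → ℤ} (e : hv n (bs t s) = 0) : n = 0 := by
  have h1 := hv_two n (bs t s)
  rw [e, add_zero] at h1
  funext j
  have := Fintype.linearIndependent_iff.1 (h.li s) (fun j => (n j : ℝ))
    (by simp only [Int.cast_smul_eq_zsmul, ← h1]) j
  exact_mod_cast this

theorem cont_bs (t : Tk) : Continuous (bs t) :=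
  continuous_const.update 3 (continuous_const.add (continuous_const.prodMk continuous_id))

theorem pv_sh (H : ℂ × ℂ) (s₀ c : ℂ) (d : Dt) (s : ℂ) :
    pv (sh H s₀ c d) s = pv d s + H + (0, (s - s₀) * c) := by
  refine Prod.ext (by simp [pv, sh]) ?_
  simp only [pv, sh, Prod.snd_add, Prod.snd_sub]
  ring

theorem pv_sc (g : ℂ) (d : Dt) (s : ℂ) : pv (sc g d) s = g • pv d s := by
  refine Prod.ext (by simp [pv, sc]) ?_
  simp only [pv, sc, Prod.snd_add, Prod.smul_snd, smul_eq_mul]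
  ring

theorem sh_sh (H H' : ℂ × ℂ) (s₀ c c' : ℂ) (d : Dt) :
    sh H s₀ c (sh H' s₀ c' d) = sh (H + H') s₀ (c + c') d := by
  refine Prod.ext rfl (Prod.ext (Prod.ext ?_ ?_) ?_) <;>
    simp only [sh, Prod.fst_add, Prod.fst_sub, Prod.snd_add, Prod.snd_sub] <;> ring

theorem sh_zero (s₀ : ℂ) (d : Dt) : sh 0 s₀ 0 d = d := by
  simp [sh, Prod.mk_zero_zero]

theorem gd_sc {Λ : Submodule ℤ (ℂ × ℂ)} {g u : ℂ} {P : ℂ × ℂ} (hg : g ≠ 0) :
    Gd Λ (g ^ 2 * u) P ↔ Gd Λ u (g • P) := by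
  refine ⟨fun h => ⟨smul_ne_zero hg h.1, fun w hw hm => ?_⟩,
    fun h => ⟨fun e => h.1 (by rw [e, smul_zero]), fun w hw hm => ?_⟩⟩
  · rw [smul_smul] at hm
    exact (mul_eq_zero.1 (h.2 (w * g) (by rw [← hw]; ring) hm)).resolve_right hg
  · refine (div_eq_zero_iff.1 (h.2 (w / g) ?_ ?_)).resolve_right hg
    · rw [div_pow, hw, mul_div_cancel_left₀ _ (pow_ne_zero 2 hg)]
    · rwa [smul_smul, div_mul_cancel₀ _ hg]

theorem Rel.refl (t : Tk) (u : ℂ) (d : Dt) : Rel t u d d :=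
  ⟨fun _ => rfl, fun _ _ => ⟨0, fun s => by simp⟩⟩

theorem Rel.symm {u : ℂ} {d d' : Dt} (h : Rel t u d d') : Rel t u d' d := by
  refine ⟨fun e => (h.1 e).symm, fun w hw => ?_⟩
  obtain ⟨m, hm⟩ := h.2 w hw
  refine ⟨-m, fun s => ?_⟩
  simp only [hm s, Pi.neg_apply, neg_smul, Finset.sum_neg_distrib, add_neg_cancel_right]

theorem Rel.trans {u : ℂ} {d d' d'' : Dt} (h : Rel t u d d') (h' : Rel t u d' d'') :
    Rel t u d d'' := by
  refine ⟨fun e => (h.1 e).trans (h'.1 e), fun w hw => ?_⟩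
  obtain ⟨m, hm⟩ := h.2 w hw
  obtain ⟨m', hm'⟩ := h'.2 w hw
  refine ⟨m' + m, fun s => ?_⟩
  simp only [hm s, hm' s, Pi.add_apply, add_smul, Finset.sum_add_distrib, add_assoc]

theorem Rel.sc {u g : ℂ} {d d' : Dt} (h : Rel t (g ^ 2 * u) d d') :
    Rel t u (sc g d) (sc g d') := by
  refine ⟨fun e => ?_, fun w hw => ?_⟩
  · simp only [P290.sc, h.1 (by rw [e, mul_zero])]
  · obtain ⟨m, hm⟩ := h.2 (w * g) (by rw [← hw]; ring)
    refine ⟨m, fun s => ?_⟩
    rw [pv_sc, pv_sc, smul_smul, smul_smul]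
    exact hm s

theorem Rel.sh {u : ℂ} {d d' : Dt} (h : Rel t u d d') (H : ℂ × ℂ) (s₀ c : ℂ) :
    Rel t u (sh H s₀ c d) (sh H s₀ c d') := by
  refine ⟨fun e => ?_, fun w hw => ?_⟩
  · simp only [P290.sh, h.1 e]
  · obtain ⟨m, hm⟩ := h.2 w hw
    refine ⟨m, fun s => ?_⟩
    rw [pv_sh, pv_sh]
    change hv d.1 _ + _ = hv d'.1 _ + _ + _
    linear_combination (norm := module) hm s

theorem bas_gd {u : ℂ} {d d' : Dt} (h : Rel t u d d') (s : ℂ) (H : ℂ × ℂ)
    (k : Gd (Lat (bs t s)) u (pv d s + H)) : Gd (Lat (bs t s)) u (pv d' s + H) := by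
  have k2 : ∀ w : ℂ, w ^ 2 = u → w • (pv d' s + H) + w • (pv d' s + H) ∈ Lat (bs t s) → w = 0 :=
    fun w hw hm => by
      obtain ⟨m, e⟩ := h.2 w hw
      have h1 : ∑ j, m j • bs t s j ∈ Lat (bs t s) := mem_lat.2 ⟨m, rfl⟩
      have h2 := sub_mem (add_mem (add_mem hm (hv_mem d'.1 _)) (add_mem h1 h1)) (hv_mem d.1 _)
      refine k.2 w hw (Eq.subst (motive := fun x => x ∈ Lat (bs t s)) ?_ h2)
      linear_combination (norm := module) (-2 : ℂ) • e s
  refine ⟨fun e => ?_, k2⟩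
  obtain ⟨w, hw⟩ := IsAlgClosed.exists_pow_nat_eq u two_pos
  have h0 : w = 0 := k2 w hw (by rw [e, smul_zero, add_zero]; exact zero_mem _)
  have h1 := h.1 (by rw [← hw, h0, zero_pow two_ne_zero])
  exact k.1 (by rw [← e, pv, pv, h1])

theorem Rel.gd {u : ℂ} {d d' : Dt} (h : Rel t u d d') (s : ℂ) (H : ℂ × ℂ) :
    Gd (Lat (bs t s)) u (pv d s + H) ↔ Gd (Lat (bs t s)) u (pv d' s + H) :=
  ⟨bas_gd h s H, bas_gd h.symm s H⟩

theorem isOpen_MO (h : Nm t) : IsOpen (MO t) := by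
  refine isOpen_iff_mem_nhds.2 fun x hx => ?_
  have e1 : ∀ᶠ y : (ℂ × ℂ) × ℂ × ℂ in 𝓝 x, y.2 ≠ 0 :=
    continuous_snd.continuousAt.eventually_ne hx.1
  have cb := cont_bs t
  by_cases h0 : x.1.1 = 0
  · obtain ⟨δ, δ0, hδ⟩ := lat_small (h.li x.1.2)
    have c1 : Continuous fun y : (ℂ × ℂ) × ℂ × ℂ => bs t y.1.2 := by fun_prop
    have c2 : Continuous fun y : (ℂ × ℂ) × ℂ × ℂ => 4 * ‖y.1.1‖ * ‖y.2‖ ^ 2 := by fun_prop
    filter_upwards [e1, c1.continuousAt.eventually hδ, c2.continuousAt.eventually_lt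
      (continuousAt_const (y := δ ^ 2)) (by simpa [h0] using pow_pos δ0 2)] with y k1 k2 k3
    refine ⟨k1, fun w hw hm => ?_⟩
    have k4 := k2 _ hm (by
      refine lt_of_pow_lt_pow_left₀ 2 δ0.le (Eq.trans_lt ?_ k3)
      rw [← add_smul, ← two_mul, norm_smul, norm_mul, ← hw, norm_pow, Complex.norm_ofNat]
      ring)
    rw [← add_smul, ← two_mul, smul_eq_zero, mul_eq_zero] at k4
    exact (k4.resolve_right k1).resolve_left two_ne_zero
  · obtain ⟨w₀, hw₀⟩ := IsAlgClosed.exists_pow_nat_eq x.1.1 two_pos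
    have n1 : w₀ • x.2 + w₀ • x.2 ∉ Lat (bs t x.1.2) := fun k =>
      h0 (by rw [← hw₀, hx.2 w₀ hw₀ k, zero_pow two_ne_zero])
    have c1 : Continuous fun v : ((ℂ × ℂ) × ℂ × ℂ) × ℂ =>
        (v.2 • v.1.2 + v.2 • v.1.2, bs t v.1.1.2) := by fun_prop
    have e2 := (c1.continuousAt (x := (x, w₀))).eventually (lat_not (h.li x.1.2) n1)
    rw [nhds_prod_eq] at e2
    obtain ⟨pa, ha, pb, hb, hab⟩ := eventually_prod_iff.1 e2
    obtain ⟨ε, ε0, hε⟩ := Metric.eventually_nhds_iff.1 hb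
    have c2 : Continuous fun y : (ℂ × ℂ) × ℂ × ℂ => ‖y.1.1 - x.1.1‖ := by fun_prop
    filter_upwards [e1, ha, c2.continuousAt.eventually_lt
      (continuousAt_const (y := ε * ε)) (by simpa using mul_pos ε0 ε0)] with y k1 k2 k3
    refine ⟨k1, fun w hw hm => ?_⟩
    have k4 : ‖w - w₀‖ * ‖-w - w₀‖ < ε * ε := by
      rw [← norm_mul, show (w - w₀) * (-w - w₀) = -(y.1.1 - x.1.1) by rw [← hw, ← hw₀]; ring,
        norm_neg]
      exact k3
    by_cases k5 : ‖w - w₀‖ < ε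
    · exact (hab k2 (hε (by rwa [dist_eq_norm])) hm).elim
    · have k6 : ‖-w - w₀‖ < ε := by
        by_contra k6
        exact k4.not_ge (mul_le_mul (not_lt.1 k5) (not_lt.1 k6) ε0.le (norm_nonneg _))
      refine (hab k2 (hε (by rwa [dist_eq_norm])) ?_).elim
      rw [neg_smul, ← neg_add]
      exact neg_mem hm

end Vale.Agent.P290
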