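import Vale.Agent.P290Z.Defs
import Vale.Agent.P290.Solve

/-! Solving along a dominating family. -/

open Set Filter Metric
open scoped Manifold ContDiff Topology

noncomputable section

namespace Vale.Agent.P290

namespace SolveV

/-- The determinant form. -/
def B : C2 →ₗ[ℂ] C2 →ₗ[ℂ] ℂ :=
  LinearMap.mk₂ ℂ (fun u v => u 0 * v 1 - u 1 * v 0)
    (fun _ _ _ => by simp only [PiLp.add_apply]; ring)
    (fun _ _ _ => by simp only [PiLp.smul_apply, smul_eq_mul]; ring)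
    (fun _ _ _ => by simp only [PiLp.add_apply]; ring)
    (fun _ _ _ => by simp only [PiLp.smul_apply, smul_eq_mul]; ring)

theorem B_one : B (KFam.c (1, 0)) (KFam.c (0, 1)) ≠ 0 := by
  show (1 : ℂ) * 1 - 0 * 0 ≠ 0
  simp

theorem sympl : IsSympl (X := C2) fun _ => B := by
  refine ⟨fun _ u => ?_, fun _ h => B_one ?_, fun x₀ u v q _ => ?_⟩
  · exact sub_eq_zero.2 (mul_comm _ _)
  · exact (congrArg (fun L : C2 →ₗ[ℂ] C2 →ₗ[ℂ] ℂ => L (KFam.c (1, 0)) (KFam.c (0, 1))) h)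
  · refine (analyticAt_const (v := B u v)).congr (.of_forall fun y => ?_)
    show B u v = B (mfderiv 𝓘(ℂ, C2) 𝓘(ℂ, C2) id y u) (mfderiv 𝓘(ℂ, C2) 𝓘(ℂ, C2) id y v)
    rw [mfderiv_id]
    rfl

end SolveV

variable {E : Type} [NormedAddCommGroup E] [NormedSpace ℂ E] [FiniteDimensional ℂ E]

theorem solveV {A : Type} [NormedAddCommGroup A] [NormedSpace ℂ A] [FiniteDimensional ℂ A]
    {P : Set E} (hP : IsCompact P) (hc : Convex ℝ P) {F : E × A → ℂ × ℂ}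
    (hF : ∀ z ∈ P, AnalyticAt ℂ F (z, 0))
    (hs : ∀ z ∈ P, Function.Surjective (fderiv ℂ (fun a => F (z, a)) 0)) {g : E × ℂ → ℂ × ℂ}
    (hg : ∀ z ∈ P, AnalyticAt ℂ g (z, 0)) (h0 : ∀ᶠ z in 𝓝ˢ P, F (z, 0) = g (z, 0)) :
    ∃ l : E × ℂ → A, AnalyticOnNhd ℂ l (P ×ˢ {0}) ∧ (∀ z ∈ P, l (z, 0) = 0) ∧
      ∀ᶠ w in 𝓝ˢ (P ×ˢ ({0} : Set ℂ)), F (w.1, l w) = g w := by
  refine (solve SolveV.sympl hP hc (F := fun w => KFam.c (F w))
    (fun z hz => Mfd.an ((KFam.an_c _).comp (hF z hz))) (fun z hz => ?_)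
    (g := fun w => KFam.c (g w)) (fun z hz => Mfd.an ((KFam.an_c _).comp (hg z hz)))
    (h0.mono fun z hz => congrArg _ hz)).imp fun l h =>
      ⟨h.1, h.2.1, h.2.2.mono fun w hw => KFam.c.injective hw⟩
  obtain ⟨u, hu⟩ := hs z hz (1, 0)
  obtain ⟨v, hv⟩ := hs z hz (0, 1)
  have e : ∀ a, dT (fun w => KFam.c (F w)) z a = KFam.c (fderiv ℂ (fun a => F (z, a)) 0 a) :=
    fun a => by
      rw [dT, dif, mfderiv_eq_fderiv]
      exact congrArg (fun L : A →L[ℂ] C2 => L a) (KFam.c.comp_fderiv (f := fun a => F (z, a)))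
  refine ⟨u, v, ?_⟩
  rw [e, e, hu, hv]
  exact SolveV.B_one

end Vale.Agent.P290
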