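import Vale.Agent.P290Z.FamZ
import Vale.Agent.P290Z.SolveV

/-! Paths preserve reachability. -/

open Set Filter Metric
open scoped Manifold ContDiff Topology

noncomputable section

namespace Vale.Agent.P290

variable {E : Type} [NormedAddCommGroup E] [NormedSpace ℂ E] [FiniteDimensional ℂ E]
  {Ω : Set (E × ℂ × ℂ)}

theorem pathR_loc {C : Set E} (hC : IsCompact C) (hc : Convex ℝ C) (hF : Flex Ω C)
    {R : (E → ℂ × ℂ) → Prop} (hR : FInv Ω C R) {g : E × ℂ → ℂ × ℂ}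
    (hg : ∀ y ∈ C, AnalyticAt ℂ g (y, 0) ∧ (y, g (y, 0)) ∈ Ω) :
    ∀ᶠ s in 𝓝 (0 : ℂ), (R fun z => g (z, 0)) ↔ R fun z => g (z, s) := by
  obtain ⟨A, _, _, _, F, hA⟩ := exists_famR hC hF hR (Q := fun z => g (z, 0)) fun y hy =>
    ⟨(hg y hy).1.comp (f := fun z : E => (z, (0 : ℂ))) (analyticAt_id.prod analyticAt_const),
      (hg y hy).2⟩
  obtain ⟨l, hl, hl0, hl1⟩ := solveV hC hc hA.an (fun z hz => hA.span z ⟨hz, hz⟩)
    (fun z hz => (hg z hz).1) hA.zero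
  obtain ⟨W, hW, e0⟩ := hA.eqv
  have h1 : ∀ᶠ s in 𝓝 (0 : ℂ), ∀ z ∈ C, AnalyticAt ℂ l (z, s) ∧ (z, l (z, s)) ∈ W ∧
      F (z, l (z, s)) = g (z, s) := by
    refine hC.eventually_forall_of_forall_eventually fun z hz => ?_
    have hz0 : ((z, 0) : E × ℂ) ∈ C ×ˢ ({0} : Set ℂ) := ⟨hz, rfl⟩
    have hcont : ContinuousAt (fun w : E × ℂ => (w.1, l w)) (z, 0) :=
      continuousAt_fst.prodMk (hl _ hz0).continuousAt
    have hW' : W ∈ 𝓝 ((fun w : E × ℂ => (w.1, l w)) (z, 0)) :=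
      mem_nhdsSet_iff_forall.1 hW _ ⟨hz, hl0 z hz⟩
    have h2 : ∀ᶠ w in 𝓝 ((z, 0) : E × ℂ), AnalyticAt ℂ l w ∧ (w.1, l w) ∈ W ∧
        F (w.1, l w) = g w :=
      (hl _ hz0).eventually_analyticAt.and ((hcont.eventually hW').and
        (eventually_nhdsSet_iff_forall.1 hl1 _ hz0))
    exact (continuous_swap.tendsto ((0, z) : ℂ × E)).eventually h2
  filter_upwards [h1] with s hs
  refine (e0 (fun z => l (z, s)) (fun z hz => (hs z hz).1.comp (f := fun z : E => (z, s))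
    (analyticAt_id.prod analyticAt_const)) fun z hz => (hs z hz).2.1).trans
    ⟨hR.congr _ _ fun z hz => (hs z hz).2.2, hR.congr _ _ fun z hz => (hs z hz).2.2.symm⟩

theorem path_inv {C : Set E} (hC : IsCompact C) (hc : Convex ℝ C) (hF : Flex Ω C)
    {R : (E → ℂ × ℂ) → Prop} (hR : FInv Ω C R) {g : E × ℂ → ℂ × ℂ} (hg : Pth Ω C g)
    (h0 : R fun y => g (y, 0)) : R fun y => g (y, 1) := by
  have key : ∀ t ∈ Icc (0 : ℝ) 1, ∀ᶠ t' : ℝ in 𝓝 t,
      ((R fun z => g (z, t)) ↔ R fun z => g (z, t')) := fun t ht => by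
    have h1 := pathR_loc hC hc hF hR (g := fun w => g (w.1, t + w.2)) fun y hy => by
      refine ⟨AnalyticAt.comp (g := g) (f := fun w : E × ℂ => (w.1, t + w.2)) ?_
        (analyticAt_fst.prod (analyticAt_const.add analyticAt_snd)), ?_⟩
      · simpa only [add_zero] using (hg y hy t ht).1
      · simpa only [add_zero] using (hg y hy t ht).2
    have h2 : Tendsto (fun t' : ℝ => (t' : ℂ) - t) (𝓝 t) (𝓝 0) := by
      have : Continuous fun t' : ℝ => (t' : ℂ) - t := by fun_prop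
      exact this.tendsto' t 0 (by simp)
    filter_upwards [h2.eventually h1] with t' ht'
    simpa only [add_zero, add_sub_cancel] using ht'
  have h := isPreconnected_Icc.induction₂
    (fun s t : ℝ => (R fun z => g (z, s)) ↔ R fun z => g (z, t))
    (fun t ht => (key t ht).filter_mono nhdsWithin_le_nhds) (fun _ _ _ _ _ _ h h' => h.trans h')
    (fun _ _ _ _ h => h.symm) (left_mem_Icc.2 zero_le_one) (right_mem_Icc.2 zero_le_one)
  simpa using h.1 (by simpa using h0)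

theorem Flex.mono {C C' : Set E} (h : Flex Ω C) (hs : C' ⊆ C) : Flex Ω C' :=
  fun Γ h1 h2 h3 => h Γ h1 h2 fun x hx => hs (h3 x hx)

omit [FiniteDimensional ℂ E] in
theorem pathR_flo {N : Set (E × ℂ × ℂ)} {S : (E × ℂ × ℂ) × ℂ → ℂ × ℂ} (h : Flo Ω N S) :
    Flo {x : (E × ℂ × ℂ) × ℂ × ℂ | (x.1.1, x.2) ∈ Ω} {x | (x.1.1, x.2) ∈ N}
      fun w => S ((w.1.1.1, w.1.2), w.2) := fun x hx =>
  ⟨(h _ hx).1, fun τ => ⟨AnalyticAt.comp (g := S)
    (f := fun w : ((E × ℂ × ℂ) × ℂ × ℂ) × ℂ => ((w.1.1.1, w.1.2), w.2)) ((h _ hx).2 τ).1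
    (((analyticAt_fst.comp (analyticAt_fst.comp analyticAt_fst)).prod
      (analyticAt_snd.comp analyticAt_fst)).prod analyticAt_snd), ((h _ hx).2 τ).2⟩⟩

theorem Flex.lift {C : Set E} (h : Flex Ω C) :
    Flex {x : (E × ℂ × ℂ) × ℂ × ℂ | (x.1.1, x.2) ∈ Ω} (C ×ˢ univ) := by
  intro Γ h1 h2 h3 x₀ hx₀
  have hp : Continuous fun x : (E × ℂ × ℂ) × ℂ × ℂ => (x.1.1, x.2) := by fun_prop
  obtain ⟨S₁, S₂, N, k1, k2, k3, k4, k5⟩ := h _ (image_subset_iff.2 h1) (h2.image hp)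
    (by
      rintro _ ⟨x, hx, rfl⟩
      exact (h3 x hx).1) _ (mem_image_of_mem _ hx₀)
  exact ⟨_, _, _, k1.preimage hp, image_subset_iff.1 k2, pathR_flo k3, pathR_flo k4, k5⟩

end Vale.Agent.P290
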