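import Vale.Agent.P290Z.Link
import Vale.Agent.P290Z.PathR

/-! Extension over a cap. -/

open Set Filter Metric
open scoped Manifold ContDiff Topology

noncomputable section

namespace Vale.Agent.P290

variable {E : Type} [NormedAddCommGroup E] [NormedSpace ℂ E] [FiniteDimensional ℂ E]
  {Ω : Set (E × ℂ × ℂ)}

omit [NormedSpace ℂ E] [FiniteDimensional ℂ E] in
theorem Cap.tube (hΩ : IsOpen Ω) {X : Type} [TopologicalSpace X] {K : Set X} (hK : IsCompact K)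
    {p : X → E} {f : X → ℂ × ℂ} (hp : ∀ x ∈ K, ContinuousAt p x ∧ ContinuousAt f x ∧ (p x, f x) ∈ Ω) :
    ∃ δ > (0 : ℝ), ∀ x ∈ K, ∀ v : ℂ × ℂ, ‖v‖ ≤ δ → (p x, f x + v) ∈ Ω := by
  have h := hK.image_of_continuousOn (f := fun x => (p x, f x))
    fun x hx => ((hp x hx).1.prodMk (hp x hx).2.1).continuousWithinAt
  obtain ⟨δ, h0, h1⟩ := h.exists_cthickening_subset_open hΩ (by
    rintro _ ⟨x, hx, rfl⟩
    exact (hp x hx).2.2)
  refine ⟨δ, h0, fun x hx v hv => h1 (mem_cthickening_of_dist_le _ (p x, f x) _ _ ⟨x, hx, rfl⟩ ?_)⟩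
  rw [Prod.dist_eq, dist_self, dist_eq_norm, add_sub_cancel_left]
  exact max_le h0.le hv

theorem cap (hΩ : IsOpen Ω) {Z A' : Set E} (hZ : IsCompact Z) (hc : Convex ℝ Z)
    (hA : IsCompact A') (hc' : Convex ℝ A') (ℓ : E →L[ℂ] ℂ) {a b : ℝ} (hab : a < b)
    (hs : ∀ y ∈ Z, (ℓ y).re ≤ b → y ∈ interior A') {H₀ : E → ℂ × ℂ} (hH : Sct Ω A' H₀)
    (hF : Flex Ω {y ∈ A' | a ≤ (ℓ y).re}) {g : E × ℂ → ℂ × ℂ}
    (hg : Pth Ω {y ∈ A' | a ≤ (ℓ y).re} g) (h0 : ∀ y, g (y, 0) = H₀ y)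
    (h1 : Sct Ω {y ∈ Z | a ≤ (ℓ y).re} fun y => g (y, 1)) {ε : ℝ} (hε : 0 < ε) :
    ∃ H, Sct Ω Z H ∧ ∀ y ∈ Z, (ℓ y).re ≤ a → ‖H y - H₀ y‖ ≤ ε := by
  have hre : Continuous fun y => (ℓ y).re := Complex.continuous_re.comp ℓ.continuous
  have cge : ∀ {S : Set E}, IsCompact S → ∀ t, IsCompact {y ∈ S | t ≤ (ℓ y).re} :=
    fun hS t => hS.inter_right (isClosed_le continuous_const hre)
  have cle : ∀ {S : Set E}, IsCompact S → ∀ t, IsCompact {y ∈ S | (ℓ y).re ≤ t} :=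
    fun hS t => hS.inter_right (isClosed_le hre continuous_const)
  obtain ⟨δ₀, p0, q0⟩ := Cap.tube hΩ hA (p := id) (f := H₀)
    fun y hy => ⟨continuousAt_id, (hH y hy).1.continuousAt, (hH y hy).2⟩
  obtain ⟨δ₁, p1, q1⟩ := Cap.tube hΩ ((cge hA a).prod (isCompact_Icc (a := (0 : ℝ)) (b := 1)))
    (p := Prod.fst) (f := fun x => g (x.1, x.2)) fun x hx => ⟨continuousAt_fst,
      ContinuousAt.comp (f := fun x : E × ℝ => (x.1, (x.2 : ℂ)))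
        (hg x.1 hx.1 x.2 hx.2).1.continuousAt (by fun_prop), (hg x.1 hx.1 x.2 hx.2).2⟩
  obtain ⟨δ₂, p2, q2⟩ := Cap.tube hΩ (cge hZ a) (p := id) (f := fun y => g (y, 1))
    fun y hy => ⟨continuousAt_id, (h1 y hy).1.continuousAt, (h1 y hy).2⟩
  obtain ⟨δ, d0, d1, d2, d3, d4⟩ : ∃ δ : ℝ, 0 < δ ∧ 8 * δ ≤ δ₀ ∧ 8 * δ ≤ δ₁ ∧ δ ≤ δ₂ ∧ δ ≤ ε / 2 := by
    refine ⟨min (min (δ₀ / 8) (δ₁ / 8)) (min δ₂ (ε / 2)), by positivity, ?_, ?_,
      (min_le_right _ _).trans (min_le_left _ _), (min_le_right _ _).trans (min_le_right _ _)⟩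
    · linarith [(min_le_left _ (min δ₂ (ε / 2))).trans (min_le_left (δ₀ / 8) (δ₁ / 8))]
    · linarith [(min_le_left _ (min δ₂ (ε / 2))).trans (min_le_right (δ₀ / 8) (δ₁ / 8))]
  have hΩ' : IsOpen {x : (E × ℂ × ℂ) × ℂ × ℂ | (x.1.1, x.2) ∈ Ω} := hΩ.preimage (by fun_prop)
  have kA : IsCompact (A' ×ˢ closedBall (0 : ℂ × ℂ) (8 * δ)) := hA.prod (isCompact_closedBall _ _)
  have vA : Convex ℝ (A' ×ˢ closedBall (0 : ℂ × ℂ) (8 * δ)) := hc'.prod (convex_closedBall _ _)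
  obtain ⟨l, hl⟩ : ∃ l : (E × ℂ × ℂ) →L[ℂ] ℂ, ∀ x, l x = ℓ x.1 :=
    ⟨ℓ.comp (ContinuousLinearMap.fst ℂ E (ℂ × ℂ)), fun _ => rfl⟩
  have lin : ∀ {F : Type} [NormedAddCommGroup F] [NormedSpace ℂ F] (m : F →L[ℂ] ℂ),
      IsLinearMap ℝ fun y => (m y).re := fun m =>
    ⟨fun x y => by simp, fun r x => by simp [ContinuousLinearMap.map_smul_of_tower]⟩
  have r0 := rch_base hΩ' l (H₀ := fun x => H₀ x.1 + x.2)
    (A' := A' ×ˢ closedBall (0 : ℂ × ℂ) (8 * δ)) a fun x hx =>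
      ⟨((hH x.1 hx.1).1.comp analyticAt_fst).add analyticAt_snd,
        q0 x.1 hx.1 x.2 ((mem_closedBall_zero_iff.1 hx.2).trans d1)⟩
  have r1 : Rch _ l (fun x => H₀ x.1 + x.2) (A' ×ˢ closedBall (0 : ℂ × ℂ) (8 * δ)) a
      fun x => g (x.1, 1) + x.2 :=
    path_inv (kA.inter_right (isClosed_le continuous_const
        (Complex.continuous_re.comp l.continuous))) (vA.inter (convex_halfSpace_ge (lin l) a))
      (hF.lift.mono fun x hx => ⟨⟨hx.1.1, show a ≤ (ℓ x.1).re from hl x ▸ hx.2⟩, mem_univ _⟩)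
      (rch_inv hΩ' l _ kA vA a) (g := fun x => g (x.1.1, x.2) + x.1.2)
      (fun x hx θ hθ => by
        have hx' : x.1 ∈ {y ∈ A' | a ≤ (ℓ y).re} := ⟨hx.1.1, show a ≤ (ℓ x.1).re from hl x ▸ hx.2⟩
        exact ⟨(AnalyticAt.comp (f := fun w : (E × ℂ × ℂ) × ℂ => (w.1.1, w.2)) (hg x.1 hx' θ hθ).1
          ((analyticAt_fst.comp analyticAt_fst).prod analyticAt_snd)).add
            (analyticAt_snd.comp analyticAt_fst),
          q1 (x.1, θ) ⟨hx', hθ⟩ x.2 ((mem_closedBall_zero_iff.1 hx.1.2).trans d2)⟩)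
      (by simpa only [h0] using r0)
  obtain ⟨A₁, k1, v1, s1, n1⟩ := thicken (cle hZ b) (hc.inter (convex_halfSpace_le (lin ℓ) b))
    (isOpen_interior.mem_nhdsSet.2 fun y hy => hs y hy.1 hy.2)
  have n2 := subset_interior_iff_mem_nhdsSet.2 n1
  obtain ⟨c, c1, c2⟩ := exists_between hab
  obtain ⟨α, a1, a2⟩ := exists_between c2
  obtain ⟨β, b1, b2⟩ := exists_between a2
  obtain ⟨η, e0, e1⟩ := glue_q hZ hc ℓ b1 (U := interior A₁ ∩ {y | c < (ℓ y).re})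
    (isOpen_interior.inter (isOpen_lt continuous_const hre))
    fun z hz h h' => ⟨n2 ⟨hz, h'.trans b2.le⟩, a1.trans_le h⟩
  obtain ⟨F, f1, f2, f3⟩ := r1 (A₁ ×ˢ closedBall (0 : ℂ × ℂ) (7 * δ)) c
    (k1.prod (isCompact_closedBall _ _)) (v1.prod (convex_closedBall _ _))
    (by
      rw [interior_prod_eq]
      exact prod_mono s1 ((closedBall_subset_ball (by linarith)).trans
        ball_subset_interior_closedBall)) c1 (min (δ * η) (ε / 2)) (by positivity)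
  have nδ : ∀ v : ℂ × ℂ, ‖(δ : ℂ) • v‖ = δ * ‖v‖ := fun v => by
    rw [norm_smul, Complex.norm_real, Real.norm_of_nonneg d0.le]
  have mδ : ∀ y ∈ A₁, ∀ v : ℂ × ℂ, ‖v‖ ≤ 6 →
      (y, (δ : ℂ) • v) ∈ A₁ ×ˢ closedBall (0 : ℂ × ℂ) (7 * δ) := fun y hy v hv =>
    ⟨hy, mem_closedBall_zero_iff.2 (by
      rw [nδ]
      nlinarith)⟩
  have δ0 : (δ : ℂ) ≠ 0 := Complex.ofReal_ne_zero.2 d0.ne'
  obtain ⟨a₁, a₂, g1, g2, g3⟩ := e1
    (fun w => (δ : ℂ)⁻¹ • (F (w.1, (δ : ℂ) • w.2) - (g (w.1, 1) + (δ : ℂ) • w.2)))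
    (fun w hw => by
      have hy := interior_subset hw.1.1
      have t1 := (f1 _ (mδ _ hy w.2 (mem_ball_zero_iff.1 hw.2).le)).1
      have t2 := (hg w.1 ⟨interior_subset (s1 hy), (c1.trans hw.1.2).le⟩ 1 (by simp)).1
      rw [Complex.ofReal_one] at t2
      have t3 : AnalyticAt ℂ (fun w : E × ℂ × ℂ => (δ : ℂ) • w.2) w :=
        analyticAt_snd.const_smul (c := (δ : ℂ))
      exact ((AnalyticAt.comp (f := fun w : E × ℂ × ℂ => (w.1, (δ : ℂ) • w.2)) t1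
        (analyticAt_fst.prod t3)).sub ((AnalyticAt.comp (f := fun w : E × ℂ × ℂ => (w.1, (1 : ℂ)))
          t2 (analyticAt_fst.prod analyticAt_const)).add t3)).const_smul (c := (δ : ℂ)⁻¹))
    fun w hw => by
      have t := (f3 _ (mδ _ (interior_subset hw.1.1) w.2 (mem_ball_zero_iff.1 hw.2).le)
        (by rw [hl]; exact hw.1.2.le)).trans (min_le_left _ _)
      rw [norm_smul, norm_inv, Complex.norm_real, Real.norm_of_nonneg d0.le, inv_mul_le_iff₀ d0]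
      exact t
  obtain ⟨H, i1, i2⟩ := glue2 (cle hZ β).isClosed (cge hZ α).isClosed
    (f₁ := fun y => F (y, (δ : ℂ) • a₁ y)) (f₂ := fun y => g (y, 1) + (δ : ℂ) • a₂ y)
    (eventually_nhdsSet_iff_forall.2 fun z hz => (g3 z hz.1.1 hz.2.2 hz.1.2).mono fun y hy => by
      rw [← hy, smul_add, smul_inv_smul₀ δ0]
      abel)
  have j1 := eventually_nhdsSet_iff_forall.1 i1
  have j2 := eventually_nhdsSet_iff_forall.1 i2
  have m1 : ∀ y ∈ Z, (ℓ y).re ≤ β → (y, (δ : ℂ) • a₁ y) ∈ A₁ ×ˢ closedBall (0 : ℂ × ℂ) (7 * δ) :=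
    fun y hy h => mδ y (interior_subset (n2 ⟨hy, h.trans b2.le⟩)) _ ((g1 y hy h).2.trans (by norm_num))
  refine ⟨H, fun y hy => ?_, fun y hy h => ?_⟩
  · rcases le_total (ℓ y).re β with h | h
    · have e := j1 y ⟨hy, h⟩
      have t := f1 _ (m1 y hy h)
      refine ⟨AnalyticAt.congr (AnalyticAt.comp (f := fun y => (y, (δ : ℂ) • a₁ y)) t.1
        (analyticAt_id.prod ((g1 y hy h).1.const_smul (c := (δ : ℂ)))))
        (e.mono fun _ h => h.symm), ?_⟩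
      rw [e.self_of_nhds]
      exact t.2
    · have h' := b1.le.trans h
      have ha : y ∈ {y ∈ Z | a ≤ (ℓ y).re} := ⟨hy, by linarith⟩
      have e := j2 y ⟨hy, h'⟩
      refine ⟨AnalyticAt.congr ((h1 y ha).1.add ((g2 y hy h').1.const_smul (c := (δ : ℂ))))
        (e.mono fun _ h => h.symm), ?_⟩
      rw [e.self_of_nhds]
      refine q2 y ha _ ?_
      rw [nδ]
      nlinarith [(g2 y hy h').2]
  · have h' : (ℓ y).re ≤ β := by linarith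
    have t := (f2 _ (m1 y hy h') (by rw [hl]; exact h)).trans (min_le_right _ _)
    have u := norm_add_le (F (y, (δ : ℂ) • a₁ y) - (H₀ y + (δ : ℂ) • a₁ y)) ((δ : ℂ) • a₁ y)
    rw [sub_add_eq_sub_sub, sub_add_cancel, ← sub_add_eq_sub_sub, nδ] at u
    rw [(j1 y ⟨hy, h'⟩).self_of_nhds]
    nlinarith [(g1 y hy h').2]

end Vale.Agent.P290
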