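import Vale.Agent.P290Z.Defs

/-! A cut-off function. -/

open Set Filter Metric
open scoped Manifold ContDiff Topology

noncomputable section

namespace Vale.Agent.P290

/-- Runge approximation on star-shaped sets. -/
theorem chi_runge {K K' : Set ℂ} (hK : IsCompact K) (hK' : IsCompact K') {a : ℂ} (ha : a ∈ K')
    (hc : ∀ z ∈ K, ∀ v ∈ Icc (0 : ℝ) 1, a + v • (z - a) ∈ K') {f : ℂ → ℂ}
    (hf : AnalyticOnNhd ℂ f K') {ε : ℝ} (hε : 0 < ε) :
    ∃ g : ℂ → ℂ, AnalyticOnNhd ℂ g univ ∧ ∀ z ∈ K, ‖g z - f z‖ < ε := by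
  have : CompactSpace K := isCompact_iff_compactSpace.1 hK
  obtain ⟨δ, hδ, hδU⟩ := hK'.exists_cthickening_subset_open (isOpen_analyticAt ℂ f) hf
  obtain ⟨M, hM⟩ := (hK'.cthickening (r := δ)).exists_bound_of_continuousOn (f := f)
    fun z hz => (hδU hz).continuousAt.continuousWithinAt
  have hM0 : 0 ≤ M := (norm_nonneg _).trans (hM a (self_subset_cthickening _ ha))
  obtain ⟨D, hD, hDK⟩ := hK.isBounded.subset_closedBall_lt 0 a
  have hDK' : ∀ z ∈ K, ‖z - a‖ ≤ D := fun z hz => mem_closedBall_iff_norm.1 (hDK hz)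
  set S : Set ℂ := segment ℝ 0 1 with hS
  set W : Set ℂ := thickening (δ / D) S with hW
  have hWK : ∀ t ∈ W, ∀ z ∈ K, a + t • (z - a) ∈ cthickening δ K' := by
    intro t ht z hz
    obtain ⟨s, ⟨u, v, hu, hv, huv, rfl⟩, hs⟩ := mem_thickening_iff.1 ht
    refine mem_cthickening_of_dist_le _ _ _ _ (hc z hz v ⟨hv, by linarith⟩) ?_
    have e : a + t • (z - a) - (a + v • (z - a)) =
        (t - (u • (0 : ℂ) + v • (1 : ℂ))) • (z - a) := by
      simp only [smul_eq_mul, Complex.real_smul]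
      ring
    rw [dist_eq_norm, lt_div_iff₀ hD] at hs
    rw [dist_eq_norm, e, norm_smul]
    exact ((mul_le_mul_of_nonneg_left (hDK' z hz) (norm_nonneg _)).trans hs.le)
  have hSW : S ⊆ W := self_subset_thickening (div_pos hδ hD) S
  have h0 : (0 : ℂ) ∈ W := hSW (left_mem_segment ℝ 0 1)
  have h1 : (1 : ℂ) ∈ W := hSW (right_mem_segment ℝ 0 1)
  have hd := Runge.Phi_diff (K := K) (f := f) (a := a) isOpen_thickening hM0
    fun t ht z hz => ⟨hδU (hWK t ht z hz), hM _ (hWK t ht z hz)⟩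
  set N := (Runge.ent K ℂ).topologicalClosure with hN
  have : IsClosed (N : Set C(K, ℂ)) := (Runge.ent K ℂ).isClosed_topologicalClosure
  have ha2 : AnalyticOnNhd ℂ (fun t => N.mkQL (Runge.Phi K f a t)) W :=
    N.mkQL.comp_analyticOnNhd (hd.analyticOnNhd isOpen_thickening)
  have hz := ha2.eqOn_zero_of_preconnected_of_eventuallyEq_zero
    ((convex_segment (0 : ℂ) 1).thickening _).isPreconnected h0 (by
      filter_upwards [Runge.Phi_small (K := K) (hf a ha) hD hDK',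
        isOpen_thickening.mem_nhds h0] with t ht htW
      exact (Submodule.Quotient.mk_eq_zero N).2 (ht fun z hz => hδU (hWK t htW z hz)))
  have h2 : Runge.Phi K f a 1 ∈ N := (Submodule.Quotient.mk_eq_zero N).1 (hz h1)
  obtain ⟨b, ⟨g, hg, hb⟩, hbd⟩ := Metric.mem_closure_iff.1 h2 ε hε
  refine ⟨g, hg, fun z hz => ?_⟩
  have h3 := (ContinuousMap.dist_apply_le_dist (f := Runge.Phi K f a 1) (g := b) ⟨z, hz⟩).trans_lt
    hbd
  rw [Runge.Phi_apply (fun w hw => hδU (hWK 1 h1 w hw)), hb, one_smul, add_sub_cancel,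
    dist_comm, dist_eq_norm] at h3
  exact h3

theorem chi_slit {u : ℂ} (h : u.re ≠ 0) : u ^ 2 ∈ Complex.slitPlane := by
  by_cases h1 : u.im = 0
  · refine Or.inl ?_
    rw [sq, Complex.mul_re, h1, mul_zero, sub_zero]
    exact mul_self_pos.2 h
  · refine Or.inr ?_
    rw [sq, Complex.mul_im, mul_comm u.im, ← two_mul]
    exact mul_ne_zero two_ne_zero (mul_ne_zero h h1)

/-- Approximation of the inverse square root. -/
theorem chi_root (R : ℝ) {d ε : ℝ} (hd : 0 < d) (hε : 0 < ε) : ∃ g : ℂ → ℂ, Differentiable ℂ g ∧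
    ∀ u : ℂ, ‖u‖ ≤ R → d ≤ |u.re| → ‖g (u ^ 2) - ((u ^ 2) ^ (2⁻¹ : ℂ))⁻¹‖ < ε := by
  have h0 : IsCompact (closedBall (0 : ℂ) R ∩ {u | d ≤ |u.re|}) :=
    (isCompact_closedBall _ _).inter_right (isClosed_le continuous_const (by fun_prop))
  have hK := h0.image (continuous_pow 2)
  have hK' := ((isCompact_Icc (a := (0 : ℝ)) (b := 1)).prod hK).image
    (f := fun p : ℝ × ℂ => 1 + p.1 • (p.2 - 1)) (by fun_prop)
  obtain ⟨g, h1, h2⟩ := chi_runge hK (hK'.insert 1) (mem_insert _ _)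
    (fun z hz v hv => mem_insert_of_mem _ ⟨(v, z), ⟨hv, hz⟩, rfl⟩)
    (f := fun w => (w ^ (2⁻¹ : ℂ))⁻¹) (fun w hw => by
      have hs : w ∈ Complex.slitPlane := by
        rcases hw with rfl | ⟨⟨v, _⟩, ⟨hv, u, hu, rfl⟩, rfl⟩
        · exact Complex.one_mem_slitPlane
        · exact Complex.starConvex_one_slitPlane.add_smul_sub_mem
            (chi_slit (abs_pos.1 (hd.trans_le hu.2))) hv.1 hv.2
      exact (analyticAt_id.cpow analyticAt_const hs).inv
        (Complex.cpow_ne_zero_iff.2 (Or.inl (Complex.slitPlane_ne_zero hs)))) hε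
  exact ⟨g, fun z => (h1 z trivial).differentiableAt,
    fun u hu hu' => h2 _ ⟨u, ⟨mem_closedBall_zero_iff.2 hu, hu'⟩, rfl⟩⟩

theorem exists_chi (R : ℝ) {β γ ε : ℝ} (h : β < γ) (hε : 0 < ε) : ∃ χ : ℂ → ℂ,
    Differentiable ℂ χ ∧ ∀ ζ : ℂ, ‖ζ‖ ≤ R → (ζ.re ≤ β → ‖χ ζ‖ ≤ ε) ∧
      (γ ≤ ζ.re → ‖χ ζ - 1‖ ≤ ε) := by
  obtain ⟨m, hm⟩ : ∃ m, m = (β + γ) / 2 := ⟨_, rfl⟩
  have hA : 0 < |R| + |m| + 1 := by positivity
  obtain ⟨g, h1, h2⟩ := chi_root (|R| + |m| + 1) (half_pos (sub_pos.2 h)) (div_pos hε hA)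
  refine ⟨fun ζ => (1 + (ζ - m) * g ((ζ - m) ^ 2)) / 2, by fun_prop, fun ζ hζ => ?_⟩
  have hu : ‖ζ - m‖ ≤ |R| + |m| + 1 := by
    have := norm_sub_le ζ m
    rw [Complex.norm_real, Real.norm_eq_abs] at this
    linarith [le_abs_self R]
  have hre : (ζ - m).re = ζ.re - m := by simp
  have key : (γ - β) / 2 ≤ |(ζ - m).re| → ‖(ζ - m) *
      (g ((ζ - m) ^ 2) - (((ζ - m) ^ 2) ^ (2⁻¹ : ℂ))⁻¹) / 2‖ ≤ ε := fun h3 => by
    have h4 := mul_le_mul hu (h2 _ hu h3).le (norm_nonneg _) hA.le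
    rw [mul_div_cancel₀ _ hA.ne'] at h4
    rw [norm_div, norm_mul, Complex.norm_two]
    linarith
  beta_reduce
  generalize ζ - m = u at hre key ⊢
  constructor
  · intro h3
    have h4 : 0 < (-u).re := by
      rw [Complex.neg_re]
      linarith
    have h5 : u ≠ 0 := fun e => by simp [e] at h4
    have h6 := Complex.sq_cpow_two_inv h4
    rw [neg_sq] at h6
    refine le_of_eq_of_le (congrArg _ ?_) (key (le_abs.2 (Or.inr (by linarith))))
    rw [h6, mul_sub, inv_neg, mul_neg, mul_inv_cancel₀ h5]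
    ring
  · intro h3
    have h4 : 0 < u.re := by linarith
    have h5 : u ≠ 0 := fun e => by simp [e] at h4
    refine le_of_eq_of_le (congrArg _ ?_) (key (le_abs.2 (Or.inl (by linarith))))
    rw [Complex.sq_cpow_two_inv h4, mul_sub, mul_inv_cancel₀ h5]
    ring

end Vale.Agent.P290
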