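import Vale.Agent.P290Z.Cuts

/-! The core theorem. -/

open Set Filter Metric
open scoped Manifold ContDiff Topology

noncomputable section

namespace Vale.Agent.P290

variable {E : Type} [NormedAddCommGroup E] [NormedSpace ℂ E] [FiniteDimensional ℂ E]
  {Ω : Set ((E × ℂ) × ℂ × ℂ)}

theorem core_ext (hΩ : IsOpen Ω) {φ : E → ℝ} (hφ : SConv φ) {Λ R : ℝ} (hΛ : 2 ≤ Λ) (hR : 1 ≤ R)
    (hR' : R ≤ 3 / 2)
    (hl : ∀ y, φ y ≤ Λ → ∃ N ∈ 𝓝 y, Flex Ω (N ×ˢ closedBall 0 2) ∧ Trs Ω N)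
    (h0 : ∀ x : E × ℂ, φ x.1 ≤ Λ → ‖x.2‖ ≤ R → (φ x.1 ≤ 2 ∨ ‖x.2‖ ≤ 1 - 1 / (8 * Λ)) →
      (x, 0) ∈ Ω) {ε : ℝ} (hε : 0 < ε) :
    ∃ H, (∀ y, φ y ≤ Λ - 1 → Sct Ω {(y, 1)} H) ∧ ∀ y, φ y ≤ 1 → ‖H (y, 1)‖ ≤ ε := by
  obtain ⟨η, hη, hc⟩ := cuts hΩ hφ hΛ (zero_le_one.trans hR) hR' hl
  have key : ∀ (n : ℕ) (ε : ℝ), 0 < ε → ∃ H, Sct Ω (Wr φ Λ R (2 * Λ + 3 / 2 + n * η)) H ∧
      ∀ x ∈ Wr φ Λ R (2 * Λ + 1), ‖H x‖ ≤ ε := by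
    intro n
    induction n with
    | zero =>
      refine fun ε hε => ⟨fun _ => 0, fun x hx => ⟨analyticAt_const, ?_⟩,
        fun x _ => norm_zero.trans_le hε.le⟩
      obtain ⟨h1, h2, h3⟩ := hx
      refine h0 x (by linarith [norm_nonneg x.2]) h2 ?_
      refine (le_total ‖x.2‖ (1 - 1 / (8 * Λ))).symm.imp (fun h => ?_) id
      obtain ⟨u, hu⟩ : ∃ u, u = 1 / (8 * Λ) := ⟨_, rfl⟩
      have hu1 : Λ * u = 1 / 8 := by rw [hu]; field_simp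
      have hu2 : 0 < u := by rw [hu]; positivity
      rw [← hu] at h
      have hu3 : u ≤ 1 := by nlinarith
      have h4 : (1 - u) ^ 2 ≤ ‖x.2‖ ^ 2 := pow_le_pow_left₀ (sub_nonneg.2 hu3) h 2
      have h5 : 2 * Λ * (1 - u) ^ 2 ≤ 2 * Λ * ‖x.2‖ ^ 2 :=
        mul_le_mul_of_nonneg_left h4 (by linarith)
      have h6 : 0 ≤ Λ * u ^ 2 := by positivity
      rw [Nat.cast_zero, zero_mul, add_zero] at h3
      nlinarith
    | succ n ih =>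
      intro ε hε
      obtain ⟨H₀, a1, a2⟩ := ih (ε / 2) (half_pos hε)
      obtain ⟨H, b1, b2⟩ := hc _ (le_add_of_nonneg_right (by positivity)) H₀ a1 (ε / 2)
        (half_pos hε)
      refine ⟨H, ?_, fun x hx => ?_⟩
      · rwa [Nat.cast_succ, add_mul, one_mul, ← add_assoc]
      · linarith [norm_le_norm_add_norm_sub' (H x) (H₀ x), a2 x hx, b2 x hx]
  obtain ⟨n, hn⟩ := exists_nat_ge (Λ / η)
  rw [div_le_iff₀ hη] at hn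
  obtain ⟨H, a1, a2⟩ := key n ε hε
  refine ⟨H, fun y hy x hx => a1 x ?_, fun y hy => a2 _ ?_⟩
  · rw [mem_singleton_iff.1 hx]
    refine ⟨?_, ?_, ?_⟩ <;> simp only [norm_one, one_pow, mul_one] <;> linarith
  · refine ⟨?_, ?_, ?_⟩ <;> simp only [norm_one, one_pow, mul_one] <;> linarith

end Vale.Agent.P290
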