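import Vale.Agent.P290Z.Cap

/-! One cut. -/

open Set Filter Metric
open scoped Manifold ContDiff Topology

noncomputable section

namespace Vale.Agent.P290

variable {E : Type} [NormedAddCommGroup E] [NormedSpace ℂ E] [FiniteDimensional ℂ E]
  {Ω : Set ((E × ℂ) × ℂ × ℂ)}

theorem cut_one (hΩ : IsOpen Ω) {Z : Set (E × ℂ)} (hZ : IsCompact Z) (hc : Convex ℝ Z)
    (hξ : ∀ x ∈ Z, ‖x.2‖ ≤ 3 / 2) (ℓ : E × ℂ →L[ℂ] ℂ) {a b : ℝ} (hab : a < b) {N : Set E}
    (hN : IsCompact N) (hF : Flex Ω (N ×ˢ closedBall 0 2)) (hT : Trs Ω N)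
    (h1 : ∀ x ∈ Z, a ≤ (ℓ x).re → x.1 ∈ interior N)
    (h2 : ∀ x ∈ Z, (x.1, 0) ∈ Z ∧ (ℓ (x.1, 0)).re ≤ b)
    (h3 : ∀ y ∈ N, (y, 0) ∈ Z ∧ (ℓ (y, 0)).re ≤ b) {H₀ : E × ℂ → ℂ × ℂ}
    (hH : Sct Ω {x ∈ Z | (ℓ x).re ≤ b} H₀) {ε : ℝ} (hε : 0 < ε) :
    ∃ H, Sct Ω Z H ∧ ∀ x ∈ Z, (ℓ x).re ≤ a → ‖H x - H₀ x‖ ≤ ε := by
  have : ProperSpace (E × ℂ) := FiniteDimensional.proper ℂ _
  have hl : Continuous fun x : E × ℂ => (ℓ x).re := Complex.continuous_re.comp ℓ.continuous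
  set A : Set (E × ℂ) := {x ∈ Z | (ℓ x).re ≤ b} with hAd
  have hA : IsCompact A := hZ.inter_right (isClosed_le hl continuous_const)
  have hAc : Convex ℝ A := hc.inter (convex_halfSpace_le
    (Complex.reLm.comp ((ℓ.restrictScalars ℝ).toLinearMap)).isLinear b)
  let S : Set (E × ℂ) := {x | (AnalyticAt ℂ H₀ x ∧ (x, H₀ x) ∈ Ω) ∧
    ((ℓ x).re < a ∨ x.1 ∈ interior N) ∧ ‖x.2‖ < 2}
  have hS : A ⊆ interior S := fun x hx => by
    obtain ⟨a1, a2⟩ := hH x hx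
    refine mem_interior_iff_mem_nhds.2 ((a1.eventually_analyticAt.and
      ((continuousAt_id.prodMk a1.continuousAt).eventually (hΩ.mem_nhds a2))).and
        (Eventually.and (IsOpen.mem_nhds ((isOpen_lt hl continuous_const).union
          (isOpen_interior.preimage continuous_fst)) ?_)
          ((isOpen_lt continuous_snd.norm continuous_const).mem_nhds ?_)))
    · exact (lt_or_ge (ℓ x).re a).imp id (h1 x hx.1)
    · exact (hξ x hx.1).trans_lt (by norm_num)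
  obtain ⟨ρ, hρ, hρS⟩ := hA.exists_cthickening_subset_open isOpen_interior hS
  have hS' : ∀ x ∈ cthickening ρ A, x ∈ S := fun x hx => interior_subset (hρS hx)
  have hθ : ∀ x ∈ cthickening ρ A, ∀ θ ∈ Icc (0 : ℝ) 1,
      (x.1, θ * x.2) ∈ cthickening ρ A := fun x hx θ hθ => by
    rw [hA.cthickening_eq_biUnion_closedBall hρ.le] at hx
    obtain ⟨y, hy, hxy⟩ := mem_iUnion₂.1 hx
    have e : (1 - θ) • ((y.1, 0) : E × ℂ) + θ • y = (y.1, θ * y.2) := by
      refine Prod.ext ?_ ?_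
      · simp only [Prod.fst_add, Prod.smul_fst, ← add_smul, sub_add_cancel, one_smul]
      · simp only [Prod.snd_add, Prod.smul_snd, smul_zero, zero_add, Complex.real_smul]
    have hm : (y.1, θ * y.2) ∈ A := e ▸ hAc (h2 y hy.1) hy (sub_nonneg.2 hθ.2) hθ.1 (by ring)
    refine mem_cthickening_of_dist_le _ _ _ _ hm (le_trans ?_ (mem_closedBall.1 hxy))
    rw [Prod.dist_eq, Prod.dist_eq]
    refine max_le_max le_rfl ?_
    rw [dist_eq_norm, dist_eq_norm, ← mul_sub, norm_mul, Complex.norm_real,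
      Real.norm_of_nonneg hθ.1]
    exact mul_le_of_le_one_left (norm_nonneg _) hθ.2
  have hC : {y ∈ cthickening ρ A | a ≤ (ℓ y).re} ⊆ N ×ˢ closedBall 0 2 := fun x hx =>
    ⟨interior_subset ((hS' x hx.1).2.1.resolve_left (not_lt.2 hx.2)),
      mem_closedBall_zero_iff.2 (hS' x hx.1).2.2.le⟩
  obtain ⟨g, g1, g2, g3⟩ := hT _ N H₀
    (hA.cthickening.inter_right (isClosed_le continuous_const hl)) hN Subset.rfl hC
    (fun x hx θ h y hy => by
      rw [mem_singleton_iff.1 hy]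
      exact (hS' _ (hθ x hx.1 θ h)).1)
    (fun x hx => hH x (by
      have e : x = (x.1, 0) := Prod.ext rfl hx.2
      rw [e]
      exact h3 _ hx.1))
  exact cap hΩ hZ hc hA.cthickening (hAc.cthickening ρ) ℓ hab
    (fun y hy hb => thickening_subset_interior_cthickening ρ A
      (self_subset_thickening hρ A ⟨hy, hb⟩))
    (fun x hx => (hS' x hx).1) (fun Γ a1 a2 a3 => hF Γ a1 a2 fun x hx => hC (a3 x hx)) g1 g2
    (fun x hx => g3 x ⟨interior_subset (h1 x hx.1 hx.2),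
      mem_closedBall_zero_iff.2 ((hξ x hx.1).trans (by norm_num))⟩) hε

end Vale.Agent.P290
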