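import Vale.Agent.P290Z.CutOne

/-! One step of the exhaustion. -/

open Set Filter Metric
open scoped Manifold ContDiff Topology

noncomputable section

namespace Vale.Agent.P290

variable {E : Type} [NormedAddCommGroup E] [NormedSpace ℂ E] [FiniteDimensional ℂ E]
  {Ω : Set ((E × ℂ) × ℂ × ℂ)}

namespace Cuts

omit [FiniteDimensional ℂ E] in
theorem compact {φ : E → ℝ} (hφ : SConv φ) (Λ R r : ℝ) : IsCompact (Wr φ Λ R r) := by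
  have h1 : Continuous fun x : E × ℂ => φ x.1 := hφ.cont.comp continuous_fst
  have h2 : Continuous fun x : E × ℂ => ‖x.2‖ := continuous_snd.norm
  refine ((hφ.cpt Λ).prod (isCompact_closedBall (0 : ℂ) R)).of_isClosed_subset
    ((isClosed_le (h1.add h2) continuous_const).inter ((isClosed_le h2 continuous_const).inter
      (isClosed_le (h1.add (continuous_const.mul (h2.pow 2))) continuous_const))) fun x hx => ?_
  exact ⟨le_trans (le_add_of_nonneg_right (norm_nonneg _)) hx.1, mem_closedBall_zero_iff.2 hx.2.1⟩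

omit [FiniteDimensional ℂ E] in
theorem sq_le (ξ ξ' : ℂ) {a b : ℝ} (ha : 0 ≤ a) (hb : 0 ≤ b) (hab : a + b = 1) :
    ‖a • ξ + b • ξ'‖ ≤ a * ‖ξ‖ + b * ‖ξ'‖ ∧
      ‖a • ξ + b • ξ'‖ ^ 2 ≤ a * ‖ξ‖ ^ 2 + b * ‖ξ'‖ ^ 2 := by
  have h1 : ‖a • ξ + b • ξ'‖ ≤ a * ‖ξ‖ + b * ‖ξ'‖ := by
    refine (norm_add_le _ _).trans_eq ?_
    rw [norm_smul, norm_smul, Real.norm_of_nonneg ha, Real.norm_of_nonneg hb]
  refine ⟨h1, (pow_le_pow_left₀ (norm_nonneg _) h1 2).trans ?_⟩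
  obtain rfl : b = 1 - a := by linarith
  nlinarith [mul_nonneg (mul_nonneg ha hb) (sq_nonneg (‖ξ‖ - ‖ξ'‖))]

omit [FiniteDimensional ℂ E] in
theorem convex {φ : E → ℝ} (hφ : SConv φ) {Λ : ℝ} (hΛ : 0 ≤ Λ) (R r : ℝ) :
    Convex ℝ (Wr φ Λ R r) := by
  intro x hx y hy a b ha hb hab
  have h1 : φ (a • x.1 + b • y.1) ≤ a * φ x.1 + b * φ y.1 :=
    hφ.conv.2 (mem_univ _) (mem_univ _) ha hb hab
  obtain ⟨h2, h3⟩ := sq_le x.2 y.2 ha hb hab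
  have h4 := mul_le_mul_of_nonneg_left h3 (mul_nonneg zero_le_two hΛ)
  have e : ∀ v : ℝ, a * v + b * v = v := fun v => by rw [← add_mul, hab, one_mul]
  refine ⟨?_, ?_, ?_⟩
  · show φ (a • x.1 + b • y.1) + ‖a • x.2 + b • y.2‖ ≤ Λ
    nlinarith [mul_le_mul_of_nonneg_left hx.1 ha, mul_le_mul_of_nonneg_left hy.1 hb, e Λ]
  · show ‖a • x.2 + b • y.2‖ ≤ R
    nlinarith [mul_le_mul_of_nonneg_left hx.2.1 ha, mul_le_mul_of_nonneg_left hy.2.1 hb, e R]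
  · show φ (a • x.1 + b • y.1) + 2 * Λ * ‖a • x.2 + b • y.2‖ ^ 2 ≤ r
    nlinarith [mul_le_mul_of_nonneg_left hx.2.2 ha, mul_le_mul_of_nonneg_left hy.2.2 hb, e r]

theorem balls {φ : E → ℝ} (hφ : SConv φ) {Λ : ℝ}
    (hl : ∀ y, φ y ≤ Λ → ∃ N ∈ 𝓝 y, Flex Ω (N ×ˢ closedBall 0 2) ∧ Trs Ω N) :
    ∃ δ > (0 : ℝ), ∀ y, φ y ≤ Λ - 1 / 2 → IsCompact (closedBall y δ) ∧
      Flex Ω (closedBall y δ ×ˢ closedBall 0 2) ∧ Trs Ω (closedBall y δ) ∧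
      ∀ z ∈ closedBall y δ, φ z ≤ Λ := by
  have : ProperSpace E := FiniteDimensional.proper ℂ E
  have h1 : ∀ y : {y | φ y ≤ Λ - 1 / 2}, ∃ N, y.1 ∈ interior N ∧
      Flex Ω (N ×ˢ closedBall 0 2) ∧ Trs Ω N ∧ ∀ z ∈ N, φ z ≤ Λ := fun y => by
    have hy : φ y.1 ≤ Λ - 1 / 2 := y.2
    obtain ⟨N, hN, h2, h3⟩ := hl y.1 (by linarith)
    refine ⟨N ∩ {z | φ z < Λ}, mem_interior_iff_mem_nhds.2 (inter_mem hN
      ((isOpen_lt hφ.cont continuous_const).mem_nhds (show φ y.1 < Λ by linarith))),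
      fun Γ g1 g2 g3 => h2 Γ g1 g2 fun x hx => ⟨(g3 x hx).1.1, (g3 x hx).2⟩,
      fun C B H g1 g2 g3 => h3 C B H g1 g2 (g3.trans inter_subset_left), fun z hz => hz.2.le⟩
  choose N h1 h2 h3 h4 using h1
  obtain ⟨δ, hδ, h5⟩ := lebesgue_number_lemma_of_metric (c := fun y => interior (N y))
    (hφ.cpt (Λ - 1 / 2)) (fun _ => isOpen_interior) fun y hy => mem_iUnion.2 ⟨⟨y, hy⟩, h1 _⟩
  refine ⟨δ / 2, half_pos hδ, fun y hy => ?_⟩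
  obtain ⟨i, hi⟩ := h5 y hy
  have h6 : closedBall y (δ / 2) ⊆ N i :=
    (closedBall_subset_ball (half_lt_self hδ)).trans (hi.trans interior_subset)
  exact ⟨isCompact_closedBall _ _,
    fun Γ g1 g2 g3 => h2 i Γ g1 g2 fun x hx => ⟨h6 (g3 x hx).1, (g3 x hx).2⟩,
    fun C B H g1 g2 g3 => h3 i C B H g1 g2 (g3.trans h6), fun z hz => h4 i z (h6 hz)⟩

omit [FiniteDimensional ℂ E] in
theorem half (ℓ : E × ℂ →L[ℂ] ℂ) (b : ℝ) :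
    IsClosed {x | (ℓ x).re ≤ b} ∧ Convex ℝ {x | (ℓ x).re ≤ b} := by
  refine ⟨isClosed_le (Complex.continuous_re.comp ℓ.continuous) continuous_const, ?_⟩
  intro x hx y hy s t hs ht hst
  show (ℓ (s • x + t • y)).re ≤ b
  rw [map_add, ℓ.map_smul_of_tower, ℓ.map_smul_of_tower, Complex.add_re, Complex.smul_re,
    Complex.smul_re, smul_eq_mul, smul_eq_mul]
  have e : s * b + t * b = b := by rw [← add_mul, hst, one_mul]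
  linarith [mul_le_mul_of_nonneg_left (show (ℓ x).re ≤ b from hx) hs,
    mul_le_mul_of_nonneg_left (show (ℓ y).re ≤ b from hy) ht]

/-- Removing one cut. -/
theorem one (hΩ : IsOpen Ω) {φ : E → ℝ} {Λ R : ℝ} (hΛ : 2 ≤ Λ) (hR : 0 ≤ R)
    (hR' : R ≤ 3 / 2) {c δ η r : ℝ} (hc : 0 < c) (hδ : 0 < δ) (hη : η ≤ 1 / 2)
    (hη' : 2 * η ≤ c * δ ^ 2) (hr : 2 * Λ + 3 / 2 ≤ r)
    (hm : ∀ y y', φ ((2⁻¹ : ℝ) • (y + y')) ≤ (φ y + φ y') / 2 - c * ‖y - y'‖ ^ 2)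
    (hb : ∀ y, φ y ≤ Λ - 1 / 2 → IsCompact (closedBall y δ) ∧
      Flex Ω (closedBall y δ ×ˢ closedBall 0 2) ∧ Trs Ω (closedBall y δ) ∧
      ∀ z ∈ closedBall y δ, φ z ≤ Λ)
    {Z : Set (E × ℂ)} (hZ : IsCompact Z) (hZc : Convex ℝ Z) (h1 : Wr φ Λ R (r - η) ⊆ Z)
    (h2 : Z ⊆ Wr φ Λ R (r + η)) (ℓ : E × ℂ →L[ℂ] ℂ) {a b : ℝ} (hab : a < b)
    (h3 : ∀ x ∈ Wr φ Λ R (r - η), (ℓ x).re < a) {H₀ : E × ℂ → ℂ × ℂ}
    (hH : Sct Ω {x ∈ Z | (ℓ x).re ≤ b} H₀) {ε : ℝ} (hε : 0 < ε) :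
    ∃ H, Sct Ω Z H ∧ ∀ x ∈ Wr φ Λ R (r - η), ‖H x - H₀ x‖ ≤ ε := by
  by_cases hx : ∃ x₀ ∈ Z, a ≤ (ℓ x₀).re
  swap
  · refine ⟨H₀, fun x hxZ => hH x ⟨hxZ, ?_⟩, fun x _ => by simpa using hε.le⟩
    exact ((not_le.1 fun h => hx ⟨x, hxZ, h⟩).trans hab).le
  obtain ⟨x₀, hx₀, ha₀⟩ := hx
  have hρ : ∀ x ∈ Z, a ≤ (ℓ x).re → r - η < φ x.1 + 2 * Λ * ‖x.2‖ ^ 2 := fun x hxZ ha =>
    not_le.1 fun h => absurd (h3 x ⟨(h2 hxZ).1, (h2 hxZ).2.1, h⟩) (not_lt.2 ha)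
  have h0 : ∀ y, φ y ≤ Λ → (y, (0 : ℂ)) ∈ Wr φ Λ R (r - η) := fun y hy =>
    ⟨by simpa using hy, by simpa using hR, by simp only [norm_zero]; nlinarith⟩
  have hK : φ x₀.1 ≤ Λ - 1 / 2 := by
    have g1 := hρ x₀ hx₀ ha₀
    have g2 := (h2 hx₀).1
    by_contra g3
    have g4 : ‖x₀.2‖ ≤ 1 / 2 := by linarith [not_le.1 g3]
    have g5 : ‖x₀.2‖ ^ 2 ≤ (1 / 2) ^ 2 := pow_le_pow_left₀ (norm_nonneg _) g4 2
    have g6 := mul_le_mul_of_nonneg_left g5 (show 0 ≤ 2 * Λ by linarith)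
    nlinarith [norm_nonneg x₀.2]
  obtain ⟨b1, b2, b3, b4⟩ := hb _ hK
  obtain ⟨H, g1, g2⟩ := cut_one hΩ hZ hZc (fun x hxZ => (h2 hxZ).2.1.trans hR') ℓ hab b1 b2 b3
    (fun x hxZ ha => by
      refine ball_subset_interior_closedBall (mem_ball_iff_norm.2 ?_)
      have k0 : (2⁻¹ : ℝ) + 2⁻¹ = 1 := by norm_num
      have k1 := hρ _ (hZc hxZ hx₀ (by norm_num) (by norm_num) k0) (by
        rw [map_add, ℓ.map_smul_of_tower, ℓ.map_smul_of_tower, Complex.add_re, Complex.smul_re,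
          Complex.smul_re, smul_eq_mul, smul_eq_mul]
        linarith)
      have k2 := hm x.1 x₀.1
      rw [smul_add] at k2
      have k3 := mul_le_mul_of_nonneg_left
        (sq_le x.2 x₀.2 (a := 2⁻¹) (b := 2⁻¹) (by norm_num) (by norm_num) k0).2
        (show 0 ≤ 2 * Λ by linarith)
      have k4 : r - η < φ ((2⁻¹ : ℝ) • x.1 + (2⁻¹ : ℝ) • x₀.1) +
        2 * Λ * ‖(2⁻¹ : ℝ) • x.2 + (2⁻¹ : ℝ) • x₀.2‖ ^ 2 := k1
      have k5 : c * ‖x.1 - x₀.1‖ ^ 2 < c * δ ^ 2 := by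
        nlinarith [(h2 hxZ).2.2, (h2 hx₀).2.2]
      exact lt_of_pow_lt_pow_left₀ 2 hδ.le (lt_of_mul_lt_mul_left k5 hc.le))
    (fun x hxZ => by
      have k := h0 x.1 (le_trans (le_add_of_nonneg_right (norm_nonneg _)) (h2 hxZ).1)
      exact ⟨h1 k, ((h3 _ k).trans hab).le⟩)
    (fun y hy => ⟨h1 (h0 y (b4 y hy)), ((h3 _ (h0 y (b4 y hy))).trans hab).le⟩) hH hε
  exact ⟨H, g1, fun x hx => g2 x (h1 hx) (h3 x hx).le⟩

end Cuts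

theorem cuts (hΩ : IsOpen Ω) {φ : E → ℝ} (hφ : SConv φ) {Λ R : ℝ} (hΛ : 2 ≤ Λ) (hR : 0 ≤ R)
    (hR' : R ≤ 3 / 2)
    (hl : ∀ y, φ y ≤ Λ → ∃ N ∈ 𝓝 y, Flex Ω (N ×ˢ closedBall 0 2) ∧ Trs Ω N) :
    ∃ η > (0 : ℝ), ∀ r, 2 * Λ + 3 / 2 ≤ r → ∀ H₀, Sct Ω (Wr φ Λ R r) H₀ → ∀ ε > (0 : ℝ),
      ∃ H, Sct Ω (Wr φ Λ R (r + η)) H ∧ ∀ x ∈ Wr φ Λ R (2 * Λ + 1), ‖H x - H₀ x‖ ≤ ε := by
  classical
  obtain ⟨c, hc, hm⟩ := hφ.mid
  obtain ⟨δ, hδ, hb⟩ := Cuts.balls hφ hl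
  have hη0 : 0 < min (1 / 2) (c * δ ^ 2 / 2) := lt_min (by norm_num) (by positivity)
  have hη1 : min (1 / 2) (c * δ ^ 2 / 2) ≤ 1 / 2 := min_le_left _ _
  have hη2 : 2 * min (1 / 2) (c * δ ^ 2 / 2) ≤ c * δ ^ 2 := by
    linarith [min_le_right (1 / 2) (c * δ ^ 2 / 2)]
  generalize min (1 / 2) (c * δ ^ 2 / 2) = η at hη0 hη1 hη2
  refine ⟨η, hη0, fun r hr H₀ hH ε hε => ?_⟩
  have hΛ0 : 0 ≤ Λ := by linarith
  have hIZ : Wr φ Λ R (r - η) ⊆ Wr φ Λ R (r + η) := fun x hx =>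
    ⟨hx.1, hx.2.1, hx.2.2.trans (by linarith)⟩
  have hD : IsCompact (Wr φ Λ R (r + η) ∩ {x | r ≤ φ x.1 + 2 * Λ * ‖x.2‖ ^ 2}) :=
    (Cuts.compact hφ Λ R _).inter_right (isClosed_le continuous_const
      ((hφ.cont.comp continuous_fst).add (continuous_const.mul (continuous_snd.norm.pow 2))))
  have hsep : ∀ x ∈ Wr φ Λ R (r + η) ∩ {x | r ≤ φ x.1 + 2 * Λ * ‖x.2‖ ^ 2},
      ∃ (f : E × ℂ →L[ℂ] ℂ) (a b : ℝ), (∀ z ∈ Wr φ Λ R (r - η), (f z).re < a) ∧ a < b ∧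
        b < (f x).re := fun x hx => by
    obtain ⟨f, u, h1, h2⟩ := RCLike.geometric_hahn_banach_closed_point (𝕜 := ℂ) (x := x)
      (Cuts.convex hφ hΛ0 R (r - η)) (Cuts.compact hφ Λ R _).isClosed fun h => by
        have h3 : r ≤ φ x.1 + 2 * Λ * ‖x.2‖ ^ 2 := hx.2
        linarith [h.2.2]
    have h3 : u < (f x).re := h2
    exact ⟨f, u, (u + (f x).re) / 2, h1, by linarith, by linarith⟩
  choose! f a b hf1 hf2 hf3 using hsep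
  obtain ⟨t, ht1, ht2⟩ := hD.elim_nhds_subcover (fun x => {y | b x < (f x y).re}) fun x hx =>
    (isOpen_lt continuous_const (Complex.continuous_re.comp (f x).continuous)).mem_nhds (hf3 x hx)
  have key : ∀ s : Finset (E × ℂ),
      (∀ i ∈ s, i ∈ Wr φ Λ R (r + η) ∩ {x | r ≤ φ x.1 + 2 * Λ * ‖x.2‖ ^ 2}) → ∀ H₁,
      Sct Ω (Wr φ Λ R (r + η) ∩ ⋂ i ∈ s, {x | (f i x).re ≤ b i}) H₁ → ∀ ε > (0 : ℝ),
      ∃ H, Sct Ω (Wr φ Λ R (r + η)) H ∧ ∀ x ∈ Wr φ Λ R (r - η), ‖H x - H₁ x‖ ≤ ε := by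
    intro s
    induction s using Finset.induction_on with
    | empty =>
      exact fun _ H₁ h1 ε hε => ⟨H₁, fun x hx => h1 x ⟨hx, by simp⟩,
        fun x _ => by simpa using hε.le⟩
    | insert i s _ ih =>
      intro hs H₁ h1 ε hε
      have hi := hs i (Finset.mem_insert_self i s)
      have hs' := fun j hj => hs j (Finset.mem_insert_of_mem hj)
      obtain ⟨H₂, g1, g2⟩ := Cuts.one hΩ hΛ hR hR' hc hδ hη1 hη2 hr hm hb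
        (Z := Wr φ Λ R (r + η) ∩ ⋂ j ∈ s, {x | (f j x).re ≤ b j})
        ((Cuts.compact hφ Λ R _).inter_right
          (isClosed_biInter fun j _ => (Cuts.half (f j) (b j)).1))
        ((Cuts.convex hφ hΛ0 R _).inter (convex_iInter₂ fun j _ => (Cuts.half (f j) (b j)).2))
        (fun x hx => ⟨hIZ hx, mem_iInter₂.2 fun j hj =>
          ((hf1 j (hs' j hj) x hx).trans (hf2 j (hs' j hj))).le⟩)
        inter_subset_left (f i) (hf2 i hi) (hf1 i hi) (H₀ := H₁)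
        (fun x hx => h1 x ⟨hx.1.1, mem_iInter₂.2 fun j hj => by
          rcases Finset.mem_insert.1 hj with rfl | hj
          · exact hx.2
          · exact mem_iInter₂.1 hx.1.2 j hj⟩) (half_pos hε)
      obtain ⟨H, g3, g4⟩ := ih hs' H₂ g1 _ (half_pos hε)
      refine ⟨H, g3, fun x hx => ?_⟩
      linarith [norm_sub_le_norm_sub_add_norm_sub (H x) (H₂ x) (H₁ x), g2 x hx, g4 x hx]
  obtain ⟨H, g1, g2⟩ := key t ht1 H₀ (fun x hx => hH x ⟨hx.1.1, hx.1.2.1, by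
    by_contra h
    obtain ⟨i, hi, h1⟩ := mem_iUnion₂.1 (ht2 ⟨hx.1, (not_le.1 h).le⟩)
    have h2 : (f i x).re ≤ b i := mem_iInter₂.1 hx.2 i hi
    exact absurd h2 (not_le.2 h1)⟩) ε hε
  exact ⟨H, g1, fun x hx => g2 x ⟨hx.1, hx.2.1, hx.2.2.trans (by linarith)⟩⟩

end Vale.Agent.P290
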