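import Vale.Agent.P290K.KMain

/-! All Kummer surfaces: internal definitions. -/

open Set Filter Metric
open scoped Manifold ContDiff Topology

noncomputable section

namespace Vale.Agent.P290

section Abs

variable {E : Type} [NormedAddCommGroup E] [NormedSpace ℂ E]

/-- A section of `Ω` near `A`. -/
def Sct (Ω : Set (E × ℂ × ℂ)) (A : Set E) (H : E → ℂ × ℂ) : Prop :=
  ∀ y ∈ A, AnalyticAt ℂ H y ∧ (y, H y) ∈ Ω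

/-- An entire fibrewise flow which maps `N` into `Ω`. -/
def Flo (Ω N : Set (E × ℂ × ℂ)) (S : (E × ℂ × ℂ) × ℂ → ℂ × ℂ) : Prop :=
  ∀ x ∈ N, S (x, 0) = x.2 ∧ ∀ τ, AnalyticAt ℂ S (x, τ) ∧ (x.1, S (x, τ)) ∈ Ω ∧
    S ((x.1, S (x, τ)), -τ) = x.2

/-- The generating vector. -/
def dS (S : (E × ℂ × ℂ) × ℂ → ℂ × ℂ) (x : E × ℂ × ℂ) : ℂ × ℂ := deriv (fun τ => S (x, τ)) 0

/-- There are enough flows over `C`. -/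
def Flex (Ω : Set (E × ℂ × ℂ)) (C : Set E) : Prop :=
  ∀ Γ ⊆ Ω, IsCompact Γ → (∀ x ∈ Γ, x.1 ∈ C) → ∀ x₀ ∈ Γ, ∃ S₁ S₂ N, IsOpen N ∧ Γ ⊆ N ∧
    Flo Ω N S₁ ∧ Flo Ω N S₂ ∧ (dS S₁ x₀).1 * (dS S₂ x₀).2 ≠ (dS S₁ x₀).2 * (dS S₂ x₀).1

/-- An analytic path of sections. -/
def Pth (Ω : Set (E × ℂ × ℂ)) (C : Set E) (g : E × ℂ → ℂ × ℂ) : Prop :=
  ∀ y ∈ C, ∀ θ ∈ Icc (0 : ℝ) 1, AnalyticAt ℂ g (y, θ) ∧ (y, g (y, θ)) ∈ Ω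

/-- There are sections close to `H₀` on the left and close to `Q` on the right. -/
def Rch (Ω : Set (E × ℂ × ℂ)) (ℓ : E →L[ℂ] ℂ) (H₀ : E → ℂ × ℂ) (A' : Set E) (a : ℝ)
    (Q : E → ℂ × ℂ) : Prop :=
  ∀ (A : Set E) (c : ℝ), IsCompact A → Convex ℝ A → A ⊆ interior A' → a < c → ∀ ε > (0 : ℝ),
    ∃ H, Sct Ω A H ∧ (∀ y ∈ A, (ℓ y).re ≤ a → ‖H y - H₀ y‖ ≤ ε) ∧
      ∀ y ∈ A, c ≤ (ℓ y).re → ‖H y - Q y‖ ≤ ε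

/-- A family of deformations of `Q` which preserve the property `R`. -/
structure FamR {A : Type} [NormedAddCommGroup A] [NormedSpace ℂ A] (R : (E → ℂ × ℂ) → Prop)
    (C : Set E) (Q : E → ℂ × ℂ) (F : E × A → ℂ × ℂ) (D : Set E) : Prop where
  an : ∀ z ∈ C, AnalyticAt ℂ F (z, 0)
  zero : ∀ᶠ z in 𝓝ˢ C, F (z, 0) = Q z
  eqv : ∃ W ∈ 𝓝ˢ (C ×ˢ ({0} : Set A)), ∀ l : E → A, AnalyticOnNhd ℂ l C →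
    (∀ z ∈ C, (z, l z) ∈ W) → (R Q ↔ R fun z => F (z, l z))
  span : ∀ z ∈ C ∩ D, Function.Surjective (fderiv ℂ (fun a => F (z, a)) 0)

/-- The property `R` is preserved by flows. -/
structure FInv (Ω : Set (E × ℂ × ℂ)) (C : Set E) (R : (E → ℂ × ℂ) → Prop) : Prop where
  congr : ∀ Q Q', EqOn Q Q' C → R Q → R Q'
  flow : ∀ S N (Q : E → ℂ × ℂ) (μ : E → ℂ), IsOpen N → Flo Ω N S →
    (∀ y ∈ C, AnalyticAt ℂ Q y ∧ AnalyticAt ℂ μ y ∧ (y, Q y) ∈ N) → R Q →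
    R fun y => S ((y, Q y), μ y)

/-- Sections can be transported from the slice `ξ = 0`. -/
def Trs (Ω : Set ((E × ℂ) × ℂ × ℂ)) (N : Set E) : Prop :=
  ∀ (C : Set (E × ℂ)) (B : Set E) (H : E × ℂ → ℂ × ℂ), IsCompact C → IsCompact B → B ⊆ N →
    C ⊆ B ×ˢ closedBall 0 2 → (∀ x ∈ C, ∀ θ ∈ Icc (0 : ℝ) 1, Sct Ω {(x.1, θ * x.2)} H) →
    Sct Ω (B ×ˢ {0}) H → ∃ g, Pth Ω C g ∧ (∀ x, g (x, 0) = H x) ∧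
      Sct Ω (B ×ˢ closedBall 0 2) fun x => g (x, 1)

/-- A strongly convex function. -/
structure SConv (φ : E → ℝ) : Prop where
  cont : Continuous φ
  nonneg : ∀ y, 0 ≤ φ y
  conv : ConvexOn ℝ univ φ
  mid : ∃ c > (0 : ℝ), ∀ y y', φ ((2⁻¹ : ℝ) • (y + y')) ≤ (φ y + φ y') / 2 - c * ‖y - y'‖ ^ 2
  cpt : ∀ r, IsCompact {y | φ y ≤ r}

/-- The exhausting sets. -/
def Wr (φ : E → ℝ) (Λ R r : ℝ) : Set (E × ℂ) :=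
  {x | φ x.1 + ‖x.2‖ ≤ Λ ∧ ‖x.2‖ ≤ R ∧ φ x.1 + 2 * Λ * ‖x.2‖ ^ 2 ≤ r}

end Abs

/-- The family of bases. -/
def bs (t : Tk) (s : ℂ) : Tk := Function.update t 3 (t 3 + (0, s))

/-- A normalised basis. -/
def Nm (t : Tk) : Prop :=
  LinearIndependent ℝ t ∧ (∀ i, i ≠ 3 → (t i).1.im = 0) ∧ (t 3).1.im = 1

/-- Small integral forms. -/
def DirH (t : Tk) : Prop :=
  ∀ δ > (0 : ℝ), ∃ κ V : ℂ, κ ≠ 0 ∧ ‖κ‖ ≤ δ ∧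
    ∀ i, i ≠ 3 → ∃ ν : ℤ, (κ * ((t i).2 - V * (t i).1)).im = ν

/-- The point `w P` with `w ^ 2 = u` is admissible. -/
def Gd (Λ : Submodule ℤ (ℂ × ℂ)) (u : ℂ) (P : ℂ × ℂ) : Prop :=
  P ≠ 0 ∧ ∀ w : ℂ, w ^ 2 = u → w • P + w • P ∈ Λ → w = 0

/-- The model: points `((u, s), P)`. -/
def MO (t : Tk) : Set ((ℂ × ℂ) × ℂ × ℂ) := {x | Gd (Lat (bs t x.1.2)) x.1.1 x.2}

/-- The shear. -/
def shr (a₁ : ℂ → ℂ) (u : ℂ) (P : ℂ × ℂ) (τ : ℂ) : ℂ × ℂ :=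
  (P.1, P.2 + τ * P.1 * a₁ (u * P.1 ^ 2))

/-- The new second coordinate. -/
def yc (γ : ℂ × ℂ → ℂ) (s u : ℂ) (P : ℂ × ℂ) : ℂ := P.2 + P.1 * γ (s, u * P.1 ^ 2)

/-- Only finitely many half periods have a small new second coordinate. -/
def Tm (t : Tk) (γ : ℂ × ℂ → ℂ) (F : Finset (Fin 4 → ℤ)) (C R : ℝ) : Prop :=
  ∀ s : ℂ, ‖s‖ ≤ R → ∀ n, n ≠ 0 → ‖yc γ s 1 (hv n (bs t s))‖ < C → n ∈ F

/-- A two-parameter family. -/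
def gam (γ₀ : ℂ × ℂ → ℂ) (a₁ : ℂ → ℂ) (β : ℂ) (r : ℝ × ℝ) (v : ℂ × ℂ) : ℂ :=
  γ₀ v + r.1 * β * a₁ v.2 + r.2 * β * (1 - Complex.I * a₁ v.2)

/-- The speed of the flow. -/
def spd (t : Tk) (γ : ℂ × ℂ → ℂ) (F : Finset (Fin 4 → ℤ)) (x : (ℂ × ℂ) × ℂ × ℂ) : ℂ :=
  yc γ x.1.2 x.1.1 x.2 * ∏ n ∈ F,
    (x.1.1 * yc γ x.1.2 x.1.1 x.2 ^ 2 - yc γ x.1.2 1 (hv n (bs t x.1.2)) ^ 2)

/-- The flow in the model. -/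
def Sm (t : Tk) (γ : ℂ × ℂ → ℂ) (F : Finset (Fin 4 → ℤ)) (v : ((ℂ × ℂ) × ℂ × ℂ) × ℂ) : ℂ × ℂ :=
  (v.1.2.1 + v.2 * spd t γ F v.1, yc γ v.1.1.2 v.1.1.1 v.1.2 - (v.1.2.1 + v.2 * spd t γ F v.1) *
    γ (v.1.1.2, v.1.1.1 * (v.1.2.1 + v.2 * spd t γ F v.1) ^ 2))

/-- The slope of the flow. -/
def slp (γ : ℂ × ℂ → ℂ) (x : (ℂ × ℂ) × ℂ × ℂ) : ℂ :=
  deriv (fun p => p * γ (x.1.2, x.1.1 * p ^ 2)) x.2.1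

/-- Point data. -/
abbrev Dt : Type := (Fin 4 → ℤ) × (ℂ × ℂ) × ℂ

/-- The vector at the parameter `s`. -/
def pv (d : Dt) (s : ℂ) : ℂ × ℂ := d.2.1 + (0, s * d.2.2)

/-- Equivalent point data. -/
def Rel (t : Tk) (u : ℂ) (d d' : Dt) : Prop :=
  (u = 0 → d.2 = d'.2) ∧ ∀ w : ℂ, w ^ 2 = u → ∃ m : Fin 4 → ℤ, ∀ s,
    hv d.1 (bs t s) + w • pv d s = hv d'.1 (bs t s) + w • pv d' s + ∑ j, m j • bs t s j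

/-- Scaling. -/
def sc (g : ℂ) (d : Dt) : Dt := (d.1, g • d.2.1, g * d.2.2)

/-- Shifting: `pv (sh H s₀ c d) s = pv d s + H + (0, (s - s₀) * c)`. -/
def sh (H : ℂ × ℂ) (s₀ c : ℂ) (d : Dt) : Dt := (d.1, d.2.1 + H - (0, s₀ * c), d.2.2 + c)

section

variable {E : Type} [NormedAddCommGroup E] [NormedSpace ℂ E] {X : Type}

/-- Locally analytic data. -/
def Pres (t : Tk) (ψ : E → ℂ) (d : E → Dt) (S : Set E) : Prop :=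
  ∀ z₀ ∈ S, AnalyticAt ℂ ψ z₀ ∧ ∃ (n : Fin 4 → ℤ) (h : E → ℂ × ℂ) (k : E → ℂ),
    AnalyticAt ℂ h z₀ ∧ AnalyticAt ℂ k z₀ ∧ ∀ᶠ z in 𝓝 z₀, Rel t (ψ z) (n, h z, k z) (d z)

/-- The admissible set. -/
def Om (t : Tk) (ψ : E → ℂ) (d : E → Dt) (σ : ℂ → ℂ) : Set ((E × ℂ) × ℂ × ℂ) :=
  {x | Pres t ψ d {x.1.1} ∧
    Gd (Lat (bs t (σ x.1.2))) (ψ x.1.1) (pv (d x.1.1) (σ x.1.2) + x.2)}

/-- Over `O` the set `Ω` is a pull-back of the model. -/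
def LocM (t : Tk) (Ω : Set ((E × ℂ) × ℂ × ℂ)) (ψ : E → ℂ) (σ : ℂ → ℂ) (O : Set E)
    (p : E × ℂ → ℂ × ℂ) : Prop :=
  IsOpen O ∧ AnalyticOnNhd ℂ ψ O ∧ AnalyticOnNhd ℂ p (O ×ˢ univ) ∧
    ∀ x : (E × ℂ) × ℂ × ℂ, x.1.1 ∈ O → (x ∈ Ω ↔ ((ψ x.1.1, σ x.1.2), p x.1 + x.2) ∈ MO t)

open Classical in
/-- The point of the Kummer surface. -/
def evp (q : ℂ × ℂ → X) (e : ℂ × ℂ → ℂ × ℂ × ℂ → X) (μ : ℂ × ℂ) (u : ℂ) (P : ℂ × ℂ) : X :=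
  if u = 0 then e μ (0, P) else q (μ + u ^ (2⁻¹ : ℂ) • P)

/-- The point given by data. -/
def evd (q : ℂ × ℂ → X) (e : ℂ × ℂ → ℂ × ℂ × ℂ → X) (t : Tk) (s u : ℂ) (d : Dt) : X :=
  evp q e (hv d.1 (bs t s)) u (pv d s)

/-- A presentation of `f` near `S`. -/
def IsP (q : ℂ × ℂ → X) (e : ℂ × ℂ → ℂ × ℂ × ℂ → X) (t : Tk) (s : ℂ) (f : E → X) (ψ : E → ℂ)
    (d : E → Dt) (S : Set E) : Prop :=
  Pres t ψ d S ∧ ∀ᶠ z in 𝓝ˢ S, Gd (Lat (bs t s)) (ψ z) (pv (d z) s) ∧ evd q e t s (ψ z) (d z) = f z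

/-- The data are admissible for `‖s‖ ≤ R` and give a point close to `x` at `s = 0`. -/
def Tg [MetricSpace X] (q : ℂ × ℂ → X) (e : ℂ × ℂ → ℂ × ℂ × ℂ → X) (t : Tk) (R ε : ℝ) (x : X)
    (u : ℂ) (d : Dt) : Prop :=
  (∀ s : ℂ, ‖s‖ ≤ R → Gd (Lat (bs t s)) u (pv d s)) ∧ dist (evd q e t 0 u d) x < ε

end

end Vale.Agent.P290
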