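import Vale.Agent.P290Z.Defs

/-! Small integral forms. -/

open Set Filter Metric
open scoped Manifold ContDiff Topology

noncomputable section

namespace Vale.Agent.P290

variable {t : Tk}

namespace Dir

theorem ell_of (h : LinearIndependent ℝ t) (n n' : Fin 4 → ℤ) (h1 : (∑ j, n j • t j).1 = 0)
    (h2 : (∑ j, n' j • t j).1 = 0)
    (hi : ∀ a b : ℝ, (∀ j, a * n j + b * n' j = 0) → a = 0 ∧ b = 0) : HasEll (Lat t) := by
  have key : ∀ a b : ℝ, (a : ℂ) * (∑ j, n j • t j).2 + b * (∑ j, n' j • t j).2 = 0 →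
      a = 0 ∧ b = 0 := fun a b e => by
    refine hi a b (Fintype.linearIndependent_iff.1 h _ ?_)
    have e1 : ∑ j, (a * n j + b * n' j) • t j = a • ∑ j, n j • t j + b • ∑ j, n' j • t j := by
      simp only [add_smul, mul_smul, Int.cast_smul_eq_zsmul, Finset.sum_add_distrib,
        Finset.smul_sum]
    rw [e1]
    exact Prod.ext (by simp only [Prod.fst_add, Prod.smul_fst, h1, h2, smul_zero, add_zero,
      Prod.fst_zero])
      (by simpa only [Prod.snd_add, Prod.smul_snd, Complex.real_smul, Prod.snd_zero] using e)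
  have hy : (∑ j, n j • t j).2 ≠ 0 := fun e => one_ne_zero (key 1 0 (by simp only [e]; simp)).1
  refine ⟨∑ j, n j • t j, (∑ j, n' j • t j).2 / (∑ j, n j • t j).2, fun e => hy (by rw [e]; rfl),
    fun e => ?_, mem_lat.2 ⟨n, rfl⟩, mem_lat.2 ⟨n', Prod.ext ?_ ?_⟩⟩
  · refine neg_ne_zero.2 one_ne_zero
      (key ((∑ j, n' j • t j).2 / (∑ j, n j • t j).2).re (-1) ?_).2
    rw [show ((((∑ j, n' j • t j).2 / (∑ j, n j • t j).2).re : ℝ) : ℂ) =
      (∑ j, n' j • t j).2 / (∑ j, n j • t j).2 from Complex.ext rfl e.symm, div_mul_cancel₀ _ hy]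
    push_cast
    ring
  · rw [Prod.smul_fst, h1, h2, smul_zero]
  · rw [Prod.smul_snd, smul_eq_mul, div_mul_cancel₀ _ hy]

theorem ell_rat (h : Nm t) (c : ℝ) (ν : Fin 3 → ℤ)
    (hν : ∀ i : Fin 3, (t i.castSucc).1.re = c * ν i) : HasEll (Lat t) := by
  have e : ∀ i : Fin 3, (t i.castSucc).1 = c * ν i := fun i =>
    Complex.ext (by simpa using hν i) (by simpa using h.2.1 _ (Fin.castSucc_lt_last i).ne)
  have e0 : (t 0).1 = c * ν 0 := e 0
  have e1 : (t 1).1 = c * ν 1 := e 1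
  have e2 : (t 2).1 = c * ν 2 := e 2
  by_cases h0 : ν 0 = 0
  · by_cases h1 : ν 1 = 0
    · refine ell_of h.1 ![1, 0, 0, 0] ![0, 1, 0, 0] (by simp [Fin.sum_univ_four, e0, h0])
        (by simp [Fin.sum_univ_four, e1, h1]) fun a b hab => ⟨?_, ?_⟩
      · simpa using hab 0
      · simpa using hab 1
    · refine ell_of h.1 ![1, 0, 0, 0] ![0, ν 2, -ν 1, 0] (by simp [Fin.sum_univ_four, e0, h0])
        (by simp [Fin.sum_univ_four, e1, e2]; ring) fun a b hab => ⟨?_, ?_⟩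
      · simpa using hab 0
      · simpa [h1] using hab 2
  · refine ell_of h.1 ![ν 1, -ν 0, 0, 0] ![ν 2, 0, -ν 0, 0]
      (by simp [Fin.sum_univ_four, e0, e1]; ring)
      (by simp [Fin.sum_univ_four, e0, e2]; ring) fun a b hab => ⟨?_, ?_⟩
    · simpa [h0] using hab 1
    · simpa [h0] using hab 2

/-- The forms on the first three vectors. -/
def T (t : Tk) : (ℂ × ℝ) →ₗ[ℝ] Fin 3 → ℝ where
  toFun p i := (p.1 * (t i.castSucc).2).im - p.2 * (t i.castSucc).1.re
  map_add' p q := by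
    ext i
    simp only [Prod.fst_add, Prod.snd_add, add_mul, Complex.add_im, Pi.add_apply]
    ring
  map_smul' a p := by
    ext i
    simp
    ring

theorem T_inj (h : Nm t) : Function.Injective (T t) := by
  refine (injective_iff_map_eq_zero _).2 fun p hp => ?_
  let φ : (ℂ × ℂ) →ₗ[ℝ] ℝ :=
    { toFun := fun x => (p.1 * x.2).im - p.2 * x.1.re -
        ((p.1 * (t 3).2).im - p.2 * (t 3).1.re) * x.1.im
      map_add' := fun x y => by simp; ring
      map_smul' := fun a x => by simp; ring }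
  have hφ : φ = 0 := by
    refine LinearMap.ext_on_range (h.1.span_eq_top_of_card_eq_finrank (by simp)) fun j => ?_
    show (p.1 * (t j).2).im - p.2 * (t j).1.re - _ * (t j).1.im = 0
    refine Fin.lastCases ?_ (fun i => ?_) j
    · rw [show Fin.last 3 = 3 from rfl, h.2.2, mul_one, sub_self]
    · rw [h.2.1 _ (Fin.castSucc_lt_last i).ne, mul_zero, sub_zero]
      exact congrFun hp i
  have a1 := LinearMap.congr_fun hφ (0, 1)
  have a2 := LinearMap.congr_fun hφ (0, Complex.I)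
  have a3 := LinearMap.congr_fun hφ (1, 0)
  simp [φ] at a1 a2 a3
  exact Prod.ext (Complex.ext a2 a1) a3

theorem approx (ξ : Fin 3 → ℝ) {ε : ℝ} (hε : 0 < ε) :
    ∃ (ρ : ℕ) (ν : Fin 3 → ℤ), 1 ≤ ρ ∧ ‖fun i => ν i + ρ * ξ i‖ < ε := by
  obtain ⟨a, -, φ, hφ, hl⟩ := (isCompact_Icc (a := (0 : Fin 3 → ℝ)) (b := 1)).tendsto_subseq
    (x := fun n : ℕ => fun i => Int.fract (n * ξ i))
    fun n => ⟨fun i => Int.fract_nonneg _, fun i => (Int.fract_lt_one _).le⟩
  obtain ⟨N, hN⟩ := Metric.cauchySeq_iff'.1 hl.cauchySeq ε hε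
  have h1 : φ N < φ (N + 1) := hφ (Nat.lt_succ_self N)
  refine ⟨φ (N + 1) - φ N, fun i => ⌊φ N * ξ i⌋ - ⌊φ (N + 1) * ξ i⌋, by omega, ?_⟩
  refine lt_of_eq_of_lt ?_ (hN (N + 1) (Nat.le_succ N))
  rw [dist_eq_norm]
  congr 1
  ext i
  simp only [Function.comp_apply, Pi.sub_apply, Int.fract, Nat.cast_sub h1.le]
  push_cast
  ring

end Dir

theorem dir_or (h : Nm t) : HasEll (Lat t) ∨ DirH t := by
  refine or_iff_not_imp_left.2 fun hn δ hδ => ?_
  have hs : Function.Surjective (Dir.T t) :=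
    (LinearMap.injective_iff_surjective_of_finrank_eq_finrank (by simp)).1 (Dir.T_inj h)
  obtain ⟨K, hK, hp⟩ := (LinearMap.toContinuousLinearMap (Dir.T t)).exists_preimage_norm_le hs
  have h0 : 0 < min δ (1 / 2) := lt_min hδ (by norm_num)
  obtain ⟨ρ, ν, h1, h2⟩ := Dir.approx (fun i => (t i.castSucc).1.re) (div_pos h0 hK)
  obtain ⟨⟨κ, r⟩, h3, h4⟩ := hp fun i => ν i + ρ * (t i.castSucc).1.re
  have h5 : ‖(κ, r)‖ ≤ min δ (1 / 2) := h4.trans ((lt_div_iff₀' hK).1 h2).le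
  have h6 : ∀ i : Fin 3, (κ * (t i.castSucc).2).im - (r + ρ) * (t i.castSucc).1.re = ν i :=
    fun i => by
      have := congrFun h3 i
      simp only [LinearMap.coe_toContinuousLinearMap', Dir.T, LinearMap.coe_mk, AddHom.coe_mk]
        at this
      linarith
  have hκ : κ ≠ 0 := by
    rintro rfl
    have h7 : |r| ≤ 1 / 2 := (norm_snd_le ((0 : ℂ), r)).trans (h5.trans (min_le_right _ _))
    have h8 : (1 : ℝ) ≤ ρ := by exact_mod_cast h1
    have h9 : r + ρ ≠ 0 := by linarith [(abs_le.1 h7).1] |> fun h : 0 < r + ρ => h.ne'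
    refine hn (Dir.ell_rat h (-(r + ρ)⁻¹) ν fun i => ?_)
    rw [← h6 i, zero_mul, Complex.zero_im]
    field_simp
    ring
  refine ⟨κ, (r + ρ : ℝ) * Complex.I / κ, hκ,
    (norm_fst_le (κ, r)).trans (h5.trans (min_le_left _ _)), fun i hi => ?_⟩
  obtain ⟨i, rfl⟩ := Fin.exists_castSucc_eq.2 hi
  refine ⟨ν i, ?_⟩
  rw [← h6 i, mul_sub, ← mul_assoc, mul_div_cancel₀ _ hκ]
  simp [h.2.1 _ hi]

end Vale.Agent.P290
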