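import Vale.Agent.P290Z.Bas

/-! Normalisation and nearby elliptic lattices. -/

open Set Filter Metric
open scoped Manifold ContDiff Topology

noncomputable section

namespace Vale.Agent.P290

variable {t : Tk}

lemma ellN_mem {x : ℂ × ℂ} : x ∈ Lat t ↔ ∃ n : Fin 4 → ℤ, ∑ j, n j • t j = x :=
  Submodule.mem_span_range_iff_exists_fun ℤ

lemma ellN_card : Fintype.card (Fin 4) = Module.finrank ℝ (ℂ × ℂ) := by
  simp [Module.finrank_prod, Complex.finrank_real_complex]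

lemma ellN_span (ht : LinearIndependent ℝ t) (x : ℂ × ℂ) :
    ∃ c : Fin 4 → ℝ, ∑ j, c j • t j = x := by
  have h := (basisOfLinearIndependentOfCardEqFinrank ht ellN_card).sum_repr x
  simp only [coe_basisOfLinearIndependentOfCardEqFinrank] at h
  exact ⟨_, h⟩

lemma ellN_im (h : Nm t) (c : Fin 4 → ℝ) : (∑ j, c j • t j).1.im = c 3 := by
  have h0 := h.2.1 0 (by decide)
  have h1 := h.2.1 1 (by decide)
  have h2 := h.2.1 2 (by decide)
  simp [Fin.sum_univ_four, h0, h1, h2, h.2.2]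

lemma ellN_ne (h : Nm t) : ∃ i, i ≠ 3 ∧ (t i).1 ≠ 0 := by
  by_contra hc
  push Not at hc
  obtain ⟨c, e⟩ := ellN_span h.1 (1, 0)
  have h3 : c 3 = 0 := by rw [← ellN_im h c, e]; simp
  have h4 := congrArg Prod.fst e
  simp [Fin.sum_univ_four, hc 0 (by decide), hc 1 (by decide), hc 2 (by decide), h3] at h4

theorem ell_near (h : Nm t) {δ : ℝ} (hδ : 0 < δ) : ∃ s : ℂ, ‖s‖ < δ ∧ HasEll (Lat (bs t s)) := by
  obtain ⟨i, hi, hξ⟩ := ellN_ne h
  obtain ⟨c, e⟩ := ellN_span h.1 ((Complex.I / (t i).1) • t i)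
  have h3 : c 3 = 1 := by
    rw [← ellN_im h c, e]
    simp [div_mul_cancel₀ _ hξ]
  obtain ⟨k, hk⟩ := exists_nat_gt ((∑ j, ‖t j‖) * (1 + ‖(t i).2 / (t i).1‖) / δ)
  have hM : 0 ≤ ∑ j, ‖t j‖ := Finset.sum_nonneg fun j _ => norm_nonneg _
  have hk0 : (0 : ℝ) < k := lt_of_le_of_lt (by positivity) hk
  have hkC : (k : ℂ) ≠ 0 := by exact_mod_cast hk0.ne'
  obtain ⟨r, hr⟩ : ∃ r, r = ∑ j, Int.fract (k * c j) • t j := ⟨_, rfl⟩
  have hrn : ‖r‖ ≤ ∑ j, ‖t j‖ := by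
    rw [hr]
    refine (norm_sum_le _ _).trans (Finset.sum_le_sum fun j _ => ?_)
    rw [norm_smul, Real.norm_eq_abs, abs_of_nonneg (Int.fract_nonneg _)]
    exact mul_le_of_le_one_left (norm_nonneg _) (Int.fract_lt_one _).le
  have hri : r.1.im = 0 := by
    rw [hr, ellN_im h, h3]
    simp
  have hs : ∑ j, ⌊k * c j⌋ • t j = (k : ℝ) • ((Complex.I / (t i).1) • t i) - r := by
    rw [← e, hr, Finset.smul_sum, ← Finset.sum_sub_distrib]
    refine Finset.sum_congr rfl fun j _ => ?_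
    rw [smul_smul, ← sub_smul, Int.self_sub_fract, Int.cast_smul_eq_zsmul]
  refine ⟨(r.2 - r.1 * ((t i).2 / (t i).1)) / k, ?_, t i, (k * Complex.I - r.1) / (t i).1,
    fun e0 => hξ (by rw [e0]; rfl), ?_, ?_, ?_⟩
  · rw [norm_div, Complex.norm_natCast, div_lt_iff₀ hk0]
    rw [div_lt_iff₀ hδ] at hk
    have h1 : ‖r.2 - r.1 * ((t i).2 / (t i).1)‖ ≤ ‖r‖ + ‖r‖ * ‖(t i).2 / (t i).1‖ := by
      refine (norm_sub_le _ _).trans (add_le_add (norm_snd_le r) ?_)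
      rw [norm_mul]
      exact mul_le_mul_of_nonneg_right (norm_fst_le r) (norm_nonneg _)
    have h2 := mul_le_mul_of_nonneg_right hrn (norm_nonneg ((t i).2 / (t i).1))
    nlinarith
  · intro e0
    have h1 : (k * Complex.I - r.1) / (t i).1 * (t i).1 = k * Complex.I - r.1 :=
      div_mul_cancel₀ _ hξ
    have h2 := congrArg Complex.im h1
    rw [Complex.mul_im, e0, h.2.1 i hi] at h2
    simp [hri] at h2
    exact hk0.ne' (by exact_mod_cast h2.symm)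
  · exact Submodule.subset_span ⟨i, Function.update_of_ne hi _ _⟩
  · refine ellN_mem.2 ⟨fun j => ⌊k * c j⌋, ?_⟩
    rw [sum_bs, hs, h3]
    ext
    · simp
      field_simp
    · simp
      field_simp
      ring

theorem exists_nm (ht : LinearIndependent ℝ t) :
    ∃ g : (ℂ × ℂ) ≃L[ℂ] ℂ × ℂ, Nm fun i => g (t i) := by
  classical
  obtain ⟨φ, hφ⟩ : ∃ φ : (ℂ × ℂ) →ₗ[ℝ] ℝ, ∀ i, φ (t i) = if i = 3 then 1 else 0 := by
    refine ⟨(basisOfLinearIndependentOfCardEqFinrank ht ellN_card).coord 3, fun i => ?_⟩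
    have h := (basisOfLinearIndependentOfCardEqFinrank ht ellN_card).repr_self_apply i 3
    simp only [coe_basisOfLinearIndependentOfCardEqFinrank] at h
    exact h
  obtain ⟨a, b, hab⟩ : ∃ a b : ℂ, ∀ x : ℂ × ℂ, (a * x.1 + b * x.2).im = φ x := by
    refine ⟨⟨φ (Complex.I, 0), φ (1, 0)⟩, ⟨φ (0, Complex.I), φ (0, 1)⟩, fun x => ?_⟩
    have e : x = x.1.re • ((1, 0) : ℂ × ℂ) + x.1.im • ((Complex.I, 0) : ℂ × ℂ) +
        x.2.re • ((0, 1) : ℂ × ℂ) + x.2.im • ((0, Complex.I) : ℂ × ℂ) := by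
      ext <;> simp
    conv_rhs => rw [e]
    simp only [map_add, map_smul, Complex.add_im, Complex.mul_im, smul_eq_mul]
    ring
  let f : (ℂ × ℂ) →ₗ[ℂ] ℂ × ℂ := (a • LinearMap.fst ℂ ℂ ℂ + b • LinearMap.snd ℂ ℂ ℂ).prod
    (if a = 0 then LinearMap.fst ℂ ℂ ℂ else LinearMap.snd ℂ ℂ ℂ)
  have hf1 : ∀ x, (f x).1 = a * x.1 + b * x.2 := fun x => by simp [f]
  have hf : Function.Injective f := by
    refine (injective_iff_map_eq_zero f).2 fun x hx => ?_
    have h1 := hf1 x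
    have h2 := congrArg Prod.snd hx
    rw [hx] at h1
    by_cases ha : a = 0
    · have hb : b ≠ 0 := fun hb => by
        have h3 := hab (t 3)
        simp [hφ, ha, hb] at h3
      have h3 : x.1 = 0 := by simpa [f, ha] using h2
      have h4 : x.2 = 0 := by simpa [ha, hb] using h1
      exact Prod.ext h3 h4
    · have h3 : x.2 = 0 := by simpa [f, ha] using h2
      have h4 : x.1 = 0 := by simpa [ha, h3] using h1
      exact Prod.ext h4 h3
  refine ⟨(LinearEquiv.ofInjectiveEndo f hf).toContinuousLinearEquiv, ?_, fun i hi => ?_, ?_⟩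
  · exact ht.map' (f.restrictScalars ℝ) (LinearMap.ker_eq_bot.2 hf)
  · change (f (t i)).1.im = 0
    rw [hf1, hab, hφ, if_neg hi]
  · change (f (t 3)).1.im = 1
    rw [hf1, hab, hφ, if_pos rfl]

lemma ellN_lat (g : (ℂ × ℂ) ≃L[ℂ] ℂ × ℂ) {x : ℂ × ℂ} :
    x ∈ Lat (fun i => g (t i)) ↔ g.symm x ∈ Lat t := by
  simp only [ellN_mem]
  refine exists_congr fun n => ?_
  rw [g.eq_symm_apply, map_sum]
  simp only [map_zsmul]

lemma ellN_cross (g : (ℂ × ℂ) ≃L[ℂ] ℂ × ℂ) {α β : ℂ × ℂ} (h : α.1 * β.2 = α.2 * β.1) :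
    (g α).1 * (g β).2 = (g α).2 * (g β).1 := by
  have e : ∀ x : ℂ × ℂ, g x = x.1 • g (1, 0) + x.2 • g (0, 1) := fun x => by
    rw [← map_smul, ← map_smul, ← map_add]
    congr 1
    ext <;> simp
  rw [e α, e β]
  simp only [Prod.fst_add, Prod.snd_add, Prod.smul_fst, Prod.smul_snd, smul_eq_mul]
  linear_combination ((g (1, 0)).1 * (g (0, 1)).2 - (g (1, 0)).2 * (g (0, 1)).1) * h

theorem Kum.lin {X : Type} [TopologicalSpace X] [ChartedSpace C2 X] [IsManifold 𝓘(ℂ, C2) ω X]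
    {q : ℂ × ℂ → X} {e : ℂ × ℂ → ℂ × ℂ × ℂ → X} (h : Kum (Lat t) q e)
    (g : (ℂ × ℂ) ≃L[ℂ] ℂ × ℂ) : Kum (Lat fun i => g (t i)) (fun x => q (g.symm x))
      fun μ v => e (g.symm μ) (v.1, g.symm v.2) := by
  have hne : ∀ {α : ℂ × ℂ}, α ≠ 0 → g.symm α ≠ 0 := fun hα => by simpa using hα
  refine ⟨fun x y hx hy => ?_, fun x hx => ?_, fun μ α hμ hα => ?_,
    fun μ μ' α α' hμ hμ' hα hα' => ?_, fun x μ α hx hμ hα => ?_, fun y => ?_⟩
  · simp only [ellN_lat, map_add, map_sub] at hx hy ⊢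
    exact h.qeq _ _ hx hy
  · simp only [ellN_lat, map_add] at hx
    obtain ⟨h1, h2⟩ := h.qhol _ hx
    refine ⟨h1.comp (g.symm.analyticAt x), fun u u' hu => ?_⟩
    rw [dif_comp h1 (g.symm.analyticAt x), dif_comp h1 (g.symm.analyticAt x), g.symm.fderiv] at hu
    exact g.symm.injective (h2 hu)
  · simp only [ellN_lat, map_add] at hμ
    obtain ⟨h1, h2, h3⟩ := h.ehol _ _ hμ (hne hα)
    let G : (ℂ × ℂ × ℂ) ≃L[ℂ] ℂ × ℂ × ℂ := (ContinuousLinearEquiv.refl ℂ ℂ).prodCongr g.symm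
    have h1' : Hol (e (g.symm μ)) (G (0, α)) := h1
    refine ⟨h1'.comp (G.analyticAt _), fun y => ?_, ?_⟩
    · obtain ⟨u, hu⟩ := h2 y
      refine ⟨G.symm u, ?_⟩
      have h4 := dif_comp h1' (G.analyticAt (0, α)) (G.symm u)
      rw [G.fderiv] at h4
      refine h4.trans ?_
      rw [ContinuousLinearEquiv.coe_coe, G.apply_symm_apply]
      exact hu
    · have h4 : Tendsto G (𝓝 (0, α)) (𝓝 (0, g.symm α)) := G.continuous.tendsto (0, α)
      filter_upwards [h4.eventually h3] with v hv hv0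
      rw [map_add, map_smul]
      exact hv hv0
  · simp only [ellN_lat, map_add, map_sub] at hμ hμ' ⊢
    rw [h.eeq _ _ _ _ hμ hμ' (hne hα) (hne hα')]
    refine and_congr_right fun _ => ⟨fun h1 => ?_, ellN_cross g.symm⟩
    simpa using ellN_cross g h1
  · simp only [ellN_lat, map_add] at hx hμ
    exact h.ene _ _ _ hx hμ (hne hα)
  · rcases h.cover y with ⟨x, h1, h2⟩ | ⟨μ, α, h1, h2, h3⟩
    · exact Or.inl ⟨g x, by simpa [ellN_lat] using h1, by simpa using h2⟩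
    · exact Or.inr ⟨g μ, g α, by simpa [ellN_lat] using h1, by simpa using h2, by simpa using h3⟩

end Vale.Agent.P290
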