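import Vale.Agent.P290Z.Bas

/-! Evaluation of data. -/

open Set Filter Metric
open scoped Manifold ContDiff Topology

noncomputable section

namespace Vale.Agent.P290

variable {E : Type} [NormedAddCommGroup E] [NormedSpace ℂ E] [FiniteDimensional ℂ E]
  {X : Type} [MetricSpace X] [ChartedSpace C2 X] [IsManifold 𝓘(ℂ, C2) ω X]
  {t : Tk} {q : ℂ × ℂ → X} {e : ℂ × ℂ → ℂ × ℂ × ℂ → X} {s : ℂ}

theorem Evp.sq (u : ℂ) : (u ^ (2⁻¹ : ℂ)) ^ 2 = u := Complex.cpow_ofNat_inv_pow u 2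

theorem Evp.nt {Λ : Submodule ℤ (ℂ × ℂ)} {μ : ℂ × ℂ} (hμ : μ + μ ∈ Λ) {u w : ℂ}
    {P : ℂ × ℂ} (hg : Gd Λ u P) (hw : w ^ 2 = u) (h0 : w ≠ 0) :
    (μ + w • P) + (μ + w • P) ∉ Λ := fun hm => h0 (hg.2 w hw (by
      have := Λ.sub_mem hm hμ
      rwa [show μ + w • P + (μ + w • P) - (μ + μ) = w • P + w • P by abel] at this))

theorem Evp.gd_of {Λ : Submodule ℤ (ℂ × ℂ)} {μ : ℂ × ℂ} (hμ : μ + μ ∈ Λ) {w : ℂ}
    {P : ℂ × ℂ} (hn : (μ + w • P) + (μ + w • P) ∉ Λ) : w ≠ 0 ∧ Gd Λ (w ^ 2) P := by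
  have k : w • P + w • P ∉ Λ := fun hm => hn (by
    have := Λ.add_mem hm hμ
    rwa [show w • P + w • P + (μ + μ) = μ + w • P + (μ + w • P) by abel] at this)
  refine ⟨?_, ?_, fun w' hw hm => (k ?_).elim⟩
  · rintro rfl
    exact k (by simp)
  · rintro rfl
    exact k (by simp)
  · rcases sq_eq_sq_iff_eq_or_eq_neg.1 hw with rfl | rfl
    · exact hm
    · have := Λ.neg_mem hm
      rwa [neg_smul, neg_add, neg_neg] at this

theorem evp_eq {Λ : Submodule ℤ (ℂ × ℂ)} (h : Kum Λ q e) {μ : ℂ × ℂ} (hμ : μ + μ ∈ Λ) {u w : ℂ}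
    {P : ℂ × ℂ} (hg : Gd Λ u P) (hw : w ^ 2 = u) (h0 : w ≠ 0) :
    (μ + w • P) + (μ + w • P) ∉ Λ ∧ evp q e μ u P = q (μ + w • P) := by
  have hu : u ≠ 0 := hw ▸ pow_ne_zero 2 h0
  have k := Evp.nt hμ hg hw h0
  refine ⟨k, ?_⟩
  rw [evp, if_neg hu]
  rcases sq_eq_sq_iff_eq_or_eq_neg.1 ((Evp.sq u).trans hw.symm) with e1 | e1
  · rw [e1]
  · rw [e1]
    refine (h.qeq _ _ (Evp.nt hμ hg (by rw [neg_sq, hw]) (neg_ne_zero.2 h0)) k).2 (Or.inr ?_)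
    rwa [neg_smul, show μ + -(w • P) + (μ + w • P) = μ + μ by abel]

theorem evp_hol {Λ : Submodule ℤ (ℂ × ℂ)} (h : Kum Λ q e) (hd : IsDisc Λ) {μ : ℂ × ℂ}
    (hμ : μ + μ ∈ Λ) {u : ℂ} {P : ℂ × ℂ} (hg : Gd Λ u P) :
    Hol (fun x : ℂ × ℂ × ℂ => evp q e μ x.1 x.2) (u, P) := by
  by_cases hu : u = 0
  · subst hu
    obtain ⟨h1, -, h2⟩ := h.ehol μ P hμ hg.1
    refine h1.congr (ev_sq (R := fun v : ℂ × ℂ × ℂ => evp q e μ v.1 v.2 = e μ v)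
      (Eventually.of_forall fun y => by simp [evp]) ?_)
    filter_upwards [h2, hd.ev_tors hμ hg.1] with v a1 a2 a3
    rw [a1 a3]
    exact (evp_eq h hμ (Evp.gd_of hμ (a2 a3)).2 rfl a3).2
  · set w := u ^ (2⁻¹ : ℂ) with hw
    have w2 : w ^ 2 = u := Evp.sq u
    have w0 : w ≠ 0 := fun k => hu (by rw [← w2, k]; simp)
    have hr : AnalyticAt ℂ (fun x : ℂ × ℂ × ℂ => w * (x.1 / u) ^ (2⁻¹ : ℂ)) (u, P) := by
      refine analyticAt_const.mul (AnalyticAt.cpow (analyticAt_fst.div_const) analyticAt_const ?_)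
      simp [div_self hu]
    have hG : AnalyticAt ℂ (fun x : ℂ × ℂ × ℂ => μ + (w * (x.1 / u) ^ (2⁻¹ : ℂ)) • x.2) (u, P) :=
      analyticAt_const.add (hr.smul analyticAt_snd)
    have hn : (μ + (w * (u / u) ^ (2⁻¹ : ℂ)) • P) + (μ + (w * (u / u) ^ (2⁻¹ : ℂ)) • P) ∉ Λ := by
      rw [div_self hu, Complex.one_cpow, mul_one]
      exact Evp.nt hμ hg w2 w0
    refine (Hol.comp (f := q) (z := (u, P))
      (g := fun x : ℂ × ℂ × ℂ => μ + (w * (x.1 / u) ^ (2⁻¹ : ℂ)) • x.2)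
      (h.qhol _ hn).1 hG).congr ?_
    filter_upwards [hG.continuousAt.eventually (hd.ev_nt hn)] with x hx
    obtain ⟨a1, a2⟩ := Evp.gd_of hμ hx
    have a3 : (w * (x.1 / u) ^ (2⁻¹ : ℂ)) ^ 2 = x.1 := by
      rw [mul_pow, w2, Evp.sq, mul_div_cancel₀ _ hu]
    exact (evp_eq h hμ (a3 ▸ a2) a3 a1).2

theorem evd_rel (h : Kum (Lat (bs t s)) q e) {u : ℂ} {d d' : Dt} (hr : Rel t u d d')
    (hg : Gd (Lat (bs t s)) u (pv d s)) : evd q e t s u d = evd q e t s u d' := by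
  have hg' : Gd (Lat (bs t s)) u (pv d' s) := by simpa using (hr.gd s 0).1 (by simpa using hg)
  obtain ⟨m, hm⟩ := hr.2 _ (Evp.sq u)
  have hm' : ∑ j, m j • bs t s j ∈ Lat (bs t s) := mem_lat.2 ⟨m, rfl⟩
  by_cases hu : u = 0
  · have hp : pv d s = pv d' s := by rw [pv, pv, hr.1 hu]
    rw [evd, evd, evp, evp, if_pos hu, if_pos hu]
    refine (h.eeq _ _ _ _ (hv_mem _ _) (hv_mem _ _) hg.1 hg'.1).2 ⟨?_, by rw [hp, mul_comm]⟩
    have := hm s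
    rw [hp, add_right_comm, add_left_inj] at this
    rwa [this, add_sub_cancel_left]
  · have w0 : u ^ (2⁻¹ : ℂ) ≠ 0 := fun k => hu (by rw [← Evp.sq u, k]; simp)
    rw [evd, evd, evp, evp, if_neg hu, if_neg hu]
    refine (h.qeq _ _ (Evp.nt (hv_mem _ _) hg (Evp.sq u) w0)
      (Evp.nt (hv_mem _ _) hg' (Evp.sq u) w0)).2 (Or.inl ?_)
    rwa [hm s, add_sub_cancel_left]

theorem evd_sc (h : Kum (Lat (bs t s)) q e) {u g : ℂ} {d : Dt} (h0 : g ≠ 0)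
    (hg : Gd (Lat (bs t s)) (g ^ 2 * u) (pv d s)) :
    evd q e t s (g ^ 2 * u) d = evd q e t s u (sc g d) := by
  have hg' := (gd_sc h0).1 hg
  rw [evd, evd, pv_sc]
  change _ = evp q e (hv d.1 (bs t s)) u _
  by_cases hu : u = 0
  · subst hu
    rw [mul_zero, evp, evp, if_pos rfl, if_pos rfl]
    refine (h.eeq _ _ _ _ (hv_mem _ _) (hv_mem _ _) hg.1 hg'.1).2 ⟨by simp, ?_⟩
    simp only [Prod.smul_fst, Prod.smul_snd, smul_eq_mul]
    ring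
  · have w0 : u ^ (2⁻¹ : ℂ) ≠ 0 := fun k => hu (by rw [← Evp.sq u, k]; simp)
    rw [(evp_eq h (hv_mem _ _) hg' (Evp.sq u) w0).2,
      (evp_eq h (hv_mem _ _) hg (w := u ^ (2⁻¹ : ℂ) * g) (by rw [mul_pow, Evp.sq, mul_comm])
        (mul_ne_zero w0 h0)).2, smul_smul]

theorem Pres.hol (hn : Nm t) (h : Kum (Lat (bs t s)) q e) {ψ : E → ℂ} {d : E → Dt} {z : E}
    (hP : Pres t ψ d {z}) (hg : Gd (Lat (bs t s)) (ψ z) (pv (d z) s)) :
    Hol (fun y => evd q e t s (ψ y) (d y)) z := by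
  obtain ⟨hψ, n, a, k, ha, hk, hr⟩ := hP z rfl
  have hp : AnalyticAt ℂ (fun y => pv (n, a y, k y) s) z :=
    ha.add (analyticAt_const.prod (analyticAt_const.mul hk))
  have hg' : Gd (Lat (bs t s)) (ψ z) (pv (n, a z, k z) s) := by
    simpa using (hr.self_of_nhds.gd s 0).2 (by simpa using hg)
  have h1 : Hol (fun y => evp q e (hv n (bs t s)) (ψ y) (pv (n, a y, k y) s)) z :=
    Hol.comp (f := fun x : ℂ × ℂ × ℂ => evp q e (hv n (bs t s)) x.1 x.2)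
      (g := fun y => (ψ y, pv (n, a y, k y) s))
      (evp_hol h (isDisc_lat (hn.li s)) (hv_mem _ _) hg') (hψ.prod hp)
  have h2 : ContinuousAt (fun y => ((ψ y, s), pv (n, a y, k y) s)) z :=
    (hψ.continuousAt.prodMk continuousAt_const).prodMk hp.continuousAt
  refine h1.congr ?_
  filter_upwards [hr, h2.eventually ((isOpen_MO hn).mem_nhds hg')] with y a1 a2
  exact (evd_rel h a1 a2).symm

theorem Pres.sh {ψ : E → ℂ} {d : E → Dt} {S : Set E} (hP : Pres t ψ d S) {H : E → ℂ × ℂ}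
    {c : E → ℂ} (hH : AnalyticOnNhd ℂ H S) (hc : AnalyticOnNhd ℂ c S) (s₀ : ℂ) :
    Pres t ψ (fun z => sh (H z) s₀ (c z) (d z)) S := by
  intro z hz
  obtain ⟨hψ, n, a, k, ha, hk, hr⟩ := hP z hz
  exact ⟨hψ, n, fun y => a y + H y - (0, s₀ * c y), fun y => k y + c y,
    (ha.add (hH z hz)).sub (analyticAt_const.prod (analyticAt_const.mul (hc z hz))),
    hk.add (hc z hz), hr.mono fun y hy => hy.sh (H y) s₀ (c y)⟩

theorem Pres.comp {A : Type} [NormedAddCommGroup A] [NormedSpace ℂ A] {ψ : E → ℂ} {d : E → Dt}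
    {j : A → E} {S : Set A} (hj : AnalyticOnNhd ℂ j S) (hP : ∀ z ∈ S, Pres t ψ d {j z}) :
    Pres t (fun z => ψ (j z)) (fun z => d (j z)) S := by
  intro z hz
  obtain ⟨hψ, n, a, k, ha, hk, hr⟩ := hP z hz _ rfl
  exact ⟨hψ.comp (hj z hz), n, fun y => a (j y), fun y => k (j y), ha.comp (hj z hz),
    hk.comp (hj z hz), (hj z hz).continuousAt.eventually hr⟩

theorem IsP.mod (h : Kum (Lat (bs t s)) q e) {f : E → X} {ψ : E → ℂ} {d : E → Dt} {S : Set E}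
    (hP : IsP q e t s f ψ d S) {g c : E → ℂ} (hg : AnalyticOnNhd ℂ g S)
    (hc : AnalyticOnNhd ℂ c S) (h0 : ∀ z ∈ S, g z ≠ 0) :
    IsP q e t s f (fun z => ψ z / g z ^ 2) (fun z => sh 0 s (c z) (sc (g z) (d z))) S := by
  have e1 : ∀ z, g z ≠ 0 → g z ^ 2 * (ψ z / g z ^ 2) = ψ z := fun z hz =>
    mul_div_cancel₀ _ (pow_ne_zero 2 hz)
  have e2 : ∀ z ∈ S, ∀ᶠ y in 𝓝 z, g y ≠ 0 := fun z hz =>
    (hg z hz).continuousAt.eventually_ne (h0 z hz)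
  have h1 : Pres t (fun z => ψ z / g z ^ 2) (fun z => sc (g z) (d z)) S := by
    intro z hz
    obtain ⟨hψ, n, a, k, ha, hk, hr⟩ := hP.1 z hz
    refine ⟨hψ.div ((hg z hz).pow 2) (pow_ne_zero 2 (h0 z hz)), n, fun y => g y • a y,
      fun y => g y * k y, (hg z hz).smul ha, (hg z hz).mul hk, ?_⟩
    filter_upwards [hr, e2 z hz] with y a1 a2
    rw [← e1 y a2] at a1
    exact a1.sc
  refine ⟨h1.sh (H := fun _ => 0) analyticOnNhd_const hc s, ?_⟩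
  filter_upwards [hP.2, eventually_nhdsSet_iff_forall.2 e2] with z a1 a2
  have e3 : pv (sh 0 s (c z) (sc (g z) (d z))) s = pv (sc (g z) (d z)) s := by
    rw [pv_sh]; simp
  rw [← e1 z a2] at a1
  refine ⟨?_, ?_⟩
  · rw [e3, pv_sc]
    exact (gd_sc a2).1 a1.1
  · rw [← a1.2, evd_sc h a2 a1.1, evd, evd, e3]
    rfl

theorem Tg.tr (h : Kum (Lat (bs t 0)) q e) {R ε : ℝ} (hR : 0 ≤ R) {x : X} {u u' g c s₀ : ℂ}
    {d d' : Dt} (h0 : g ≠ 0) (hu : u = g ^ 2 * u') (hr : Rel t u' (sh 0 s₀ c (sc g d)) d')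
    (hT : Tg q e t R ε x u d) : Tg q e t R ε x u' (sh 0 s₀ (-c) d') := by
  subst hu
  have h1 := hr.sh 0 s₀ (-c)
  rw [sh_sh, add_zero, neg_add_cancel, sh_zero] at h1
  have h2 : ∀ s : ℂ, ‖s‖ ≤ R → Gd (Lat (bs t s)) u' (pv (sc g d) s) := fun s hs => by
    rw [pv_sc]
    exact (gd_sc h0).1 (hT.1 s hs)
  refine ⟨fun s hs => by simpa using (h1.gd s 0).1 (by simpa using h2 s hs), ?_⟩
  rw [← evd_rel h h1 (h2 0 (by simpa using hR)), ← evd_sc h h0 (hT.1 0 (by simpa using hR))]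
  exact hT.2

end Vale.Agent.P290
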