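import Vale.Agent.P290Z.Defs

/-! Dominating families. -/

open Set Filter Metric
open scoped Manifold ContDiff Topology

noncomputable section

namespace Vale.Agent.P290

variable {E : Type} [NormedAddCommGroup E] [NormedSpace ℂ E] [FiniteDimensional ℂ E]
  {Ω : Set (E × ℂ × ℂ)}

namespace FamZ

variable {A : Type} [NormedAddCommGroup A] [NormedSpace ℂ A]

/-- The extended family. -/
def ext (S : (E × ℂ × ℂ) × ℂ → ℂ × ℂ) (F : E × A → ℂ × ℂ) (w : E × A × ℂ) : ℂ × ℂ :=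
  S ((w.1, F (w.1, w.2.1)), w.2.2)

omit [FiniteDimensional ℂ E] in
theorem an_pr (w : E × A × ℂ) : AnalyticAt ℂ (fun w : E × A × ℂ => (w.1, w.2.1)) w :=
  analyticAt_fst.prod (analyticAt_fst.comp analyticAt_snd)

omit [FiniteDimensional ℂ E] in
theorem an_ext {S : (E × ℂ × ℂ) × ℂ → ℂ × ℂ} {F : E × A → ℂ × ℂ} {N : Set (E × ℂ × ℂ)}
    (hS : Flo Ω N S) {w : E × A × ℂ} (hF : AnalyticAt ℂ F (w.1, w.2.1))
    (hN : (w.1, F (w.1, w.2.1)) ∈ N) : AnalyticAt ℂ (ext S F) w := by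
  have h1 : AnalyticAt ℂ (fun w : E × A × ℂ => F (w.1, w.2.1)) w :=
    AnalyticAt.comp (f := fun w : E × A × ℂ => (w.1, w.2.1)) hF (an_pr w)
  exact AnalyticAt.comp (g := S)
    (f := fun w : E × A × ℂ => ((w.1, F (w.1, w.2.1)), w.2.2)) ((hS _ hN).2 _).1
    ((analyticAt_fst.prod h1).prod (analyticAt_snd.comp analyticAt_snd))

omit [FiniteDimensional ℂ E] in
theorem rng {S : (E × ℂ × ℂ) × ℂ → ℂ × ℂ} {F : E × A → ℂ × ℂ} {N : Set (E × ℂ × ℂ)}
    (hN : IsOpen N) (hS : Flo Ω N S) {z : E} (hF : AnalyticAt ℂ F (z, 0))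
    (hz : (z, F (z, 0)) ∈ N) :
    (∀ u, fderiv ℂ (fun a => ext S F (z, a)) 0 (u, 0) = fderiv ℂ (fun a => F (z, a)) 0 u) ∧
      fderiv ℂ (fun a => ext S F (z, a)) 0 (0, 1) = dS S (z, F (z, 0)) := by
  have h0 : AnalyticAt ℂ (ext S F) (z, (0 : A × ℂ)) := an_ext hS hF hz
  have h1 : AnalyticAt ℂ (fun a : A × ℂ => ext S F (z, a)) 0 :=
    AnalyticAt.comp (f := fun a : A × ℂ => (z, a)) h0 (analyticAt_const.prod analyticAt_id)
  have hd := h1.differentiableAt.hasFDerivAt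
  constructor
  · intro u
    have h2 : HasFDerivAt (fun a : A => ext S F (z, (a, 0)))
        ((fderiv ℂ (fun a => ext S F (z, a)) 0).comp (ContinuousLinearMap.inl ℂ A ℂ)) 0 :=
      HasFDerivAt.comp (f := fun a : A => ((a, 0) : A × ℂ)) 0 hd
        (ContinuousLinearMap.inl ℂ A ℂ).hasFDerivAt
    have hc : ContinuousAt (fun a : A => (z, F (z, a))) 0 :=
      continuousAt_const.prodMk (ContinuousAt.comp (f := fun a : A => (z, a)) hF.continuousAt
        (continuousAt_const.prodMk continuousAt_id))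
    have h3 : (fun a : A => F (z, a)) =ᶠ[𝓝 0] fun a : A => ext S F (z, (a, 0)) := by
      filter_upwards [hc.eventually (hN.mem_nhds hz)] with a ha
      exact ((hS _ ha).1).symm
    rw [(h2.congr_of_eventuallyEq h3).fderiv]
    rfl
  · have h2 : HasDerivAt (fun τ : ℂ => ext S F (z, (0, τ)))
        (fderiv ℂ (fun a => ext S F (z, a)) 0 (0, 1)) 0 :=
      HasFDerivAt.comp_hasDerivAt (f := fun τ : ℂ => ((0, τ) : A × ℂ)) 0 hd
        ((hasDerivAt_const (0 : ℂ) (0 : A)).prodMk (hasDerivAt_id (0 : ℂ)))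
    exact h2.deriv.symm

omit [FiniteDimensional ℂ E] in
theorem step {C D : Set E} {R : (E → ℂ × ℂ) → Prop} (hR : FInv Ω C R) {Q : E → ℂ × ℂ}
    {F : E × A → ℂ × ℂ} (h : FamR R C Q F D) {S : (E × ℂ × ℂ) × ℂ → ℂ × ℂ}
    {N : Set (E × ℂ × ℂ)} (hN : IsOpen N) (hS : Flo Ω N S) (hQ : ∀ z ∈ C, (z, Q z) ∈ N) :
    FamR R C Q (ext S F) D := by
  have h0 : ∀ z ∈ C, F (z, 0) = Q z := fun z hz => h.zero.self_of_nhdsSet z hz
  have hN0 : ∀ z ∈ C, (z, F (z, 0)) ∈ N := fun z hz => by rw [h0 z hz]; exact hQ z hz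
  have han : ∀ z ∈ C, AnalyticAt ℂ (ext S F) (z, (0 : A × ℂ)) := fun z hz =>
    an_ext hS (h.an z hz) (hN0 z hz)
  refine ⟨han, ?_, ?_, ?_⟩
  · have h1 : ∀ᶠ z in 𝓝ˢ C, (z, F (z, 0)) ∈ N := by
      refine eventually_nhdsSet_iff_forall.2 fun z hz => ?_
      have hc : ContinuousAt (fun z : E => (z, F (z, 0))) z :=
        continuousAt_id.prodMk (ContinuousAt.comp (f := fun z : E => (z, (0 : A)))
          (h.an z hz).continuousAt (continuousAt_id.prodMk continuousAt_const))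
      exact hc.eventually (hN.mem_nhds (hN0 z hz))
    filter_upwards [h1, h.zero] with z hz hz'
    exact ((hS _ hz).1).trans hz'
  · obtain ⟨W, hW, e0⟩ := h.eqv
    refine ⟨{w | (w.1, w.2.1) ∈ W ∧ AnalyticAt ℂ F (w.1, w.2.1) ∧ (w.1, F (w.1, w.2.1)) ∈ N ∧
      (w.1, ext S F w) ∈ N}, ?_, ?_⟩
    · refine mem_nhdsSet_iff_forall.2 ?_
      rintro ⟨z, t⟩ ⟨hz, ht⟩
      obtain rfl : t = 0 := ht
      have hp : ContinuousAt (fun w : E × A × ℂ => (w.1, w.2.1)) (z, 0) := (an_pr _).continuousAt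
      have hW' : W ∈ 𝓝 ((z, 0) : E × A) := mem_nhdsSet_iff_forall.1 hW _ ⟨hz, rfl⟩
      have hc : ContinuousAt (fun w : E × A × ℂ => (w.1, F (w.1, w.2.1))) (z, 0) :=
        continuousAt_fst.prodMk (ContinuousAt.comp (f := fun w : E × A × ℂ => (w.1, w.2.1))
          (h.an z hz).continuousAt hp)
      have hc' : ContinuousAt (fun w : E × A × ℂ => (w.1, ext S F w)) (z, 0) :=
        continuousAt_fst.prodMk (han z hz).continuousAt
      have hN1 : (z, ext S F (z, 0)) ∈ N := by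
        have : ext S F (z, (0 : A × ℂ)) = F (z, 0) := (hS _ (hN0 z hz)).1
        rw [this]
        exact hN0 z hz
      filter_upwards [hp.eventually hW', hp.eventually (h.an z hz).eventually_analyticAt,
        hc.eventually (hN.mem_nhds (hN0 z hz)), hc'.eventually (hN.mem_nhds hN1)] with w a b c d
      exact ⟨a, b, c, d⟩
    · intro l hl hlW
      have hl1 : AnalyticOnNhd ℂ (fun z => (l z).1) C := fun z hz => analyticAt_fst.comp (hl z hz)
      have hl2 : ∀ z ∈ C, AnalyticAt ℂ (fun z => (l z).2) z := fun z hz =>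
        analyticAt_snd.comp (hl z hz)
      refine (e0 _ hl1 fun z hz => (hlW z hz).1).trans ⟨fun hq => ?_, fun hq => ?_⟩
      · exact hR.flow S N _ (fun z => (l z).2) hN hS (fun z hz => ⟨AnalyticAt.comp
          (f := fun z => (z, (l z).1)) (hlW z hz).2.1 (analyticAt_id.prod (hl1 z hz)),
          hl2 z hz, (hlW z hz).2.2.1⟩) hq
      · refine hR.congr _ _ ?_ (hR.flow S N _ (fun z => -(l z).2) hN hS (fun z hz =>
          ⟨AnalyticAt.comp (f := fun z => (z, l z))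
            (an_ext hS (hlW z hz).2.1 (hlW z hz).2.2.1) (analyticAt_id.prod (hl z hz)),
          (hl2 z hz).neg, (hlW z hz).2.2.2⟩) hq)
        intro z hz
        exact ((hS _ (hlW z hz).2.2.1).2 (l z).2).2.2
  · intro z hz v
    obtain ⟨u, hu⟩ := h.span z hz v
    exact ⟨(u, 0), ((rng hN hS (h.an z hz.1) (hN0 z hz.1)).1 u).trans hu⟩

omit [FiniteDimensional ℂ E] in
theorem cont_dS {S : (E × ℂ × ℂ) × ℂ → ℂ × ℂ} {N : Set (E × ℂ × ℂ)} (hN : IsOpen N)
    (hS : Flo Ω N S) {x : E × ℂ × ℂ} (hx : x ∈ N) : ContinuousAt (dS S) x := by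
  have h1 : ContinuousAt (fun x => fderiv ℂ S (x, 0) (0, 1)) x :=
    (ContinuousAt.comp (f := fun x : E × ℂ × ℂ => (x, (0 : ℂ)))
      ((hS x hx).2 0).1.fderiv.continuousAt
      (continuousAt_id.prodMk continuousAt_const)).clm_apply continuousAt_const
  refine h1.congr ?_
  filter_upwards [hN.mem_nhds hx] with y hy
  have h2 : HasDerivAt (fun τ : ℂ => S (y, τ)) (fderiv ℂ S (y, 0) (0, 1)) 0 :=
    HasFDerivAt.comp_hasDerivAt (f := fun τ : ℂ => (y, τ)) 0
      ((hS y hy).2 0).1.differentiableAt.hasFDerivAt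
      ((hasDerivAt_const (0 : ℂ) y).prodMk (hasDerivAt_id (0 : ℂ)))
  exact h2.deriv.symm

theorem surj_of {L : A →L[ℂ] ℂ × ℂ} {a b : A} (h : (L a).1 * (L b).2 ≠ (L a).2 * (L b).1) :
    Function.Surjective L := by
  intro v
  have hd := sub_ne_zero.2 h
  refine ⟨((v.1 * (L b).2 - v.2 * (L b).1) / ((L a).1 * (L b).2 - (L a).2 * (L b).1)) • a +
    (((L a).1 * v.2 - (L a).2 * v.1) / ((L a).1 * (L b).2 - (L a).2 * (L b).1)) • b, ?_⟩
  rw [map_add, map_smul, map_smul]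
  refine Prod.ext ?_ ?_
  · simp only [Prod.fst_add, Prod.smul_fst, smul_eq_mul]
    rw [div_mul_eq_mul_div, div_mul_eq_mul_div, ← add_div, div_eq_iff hd]
    ring
  · simp only [Prod.snd_add, Prod.smul_snd, smul_eq_mul]
    rw [div_mul_eq_mul_div, div_mul_eq_mul_div, ← add_div, div_eq_iff hd]
    ring

/-- There is a family which spans over `D`. -/
def Ex (R : (E → ℂ × ℂ) → Prop) (C : Set E) (Q : E → ℂ × ℂ) (D : Set E) : Prop :=
  ∃ (A : Type) (_ : NormedAddCommGroup A) (_ : NormedSpace ℂ A) (_ : FiniteDimensional ℂ A)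
    (F : E × A → ℂ × ℂ), FamR R C Q F D

omit [FiniteDimensional ℂ E] in
theorem Ex.mono {R : (E → ℂ × ℂ) → Prop} {C D D' : Set E} {Q : E → ℂ × ℂ} (h : Ex R C Q D)
    (hD : D' ⊆ D) : Ex R C Q D' := by
  obtain ⟨A, i1, i2, i3, F, h⟩ := h
  exact ⟨A, i1, i2, i3, F, h.an, h.zero, h.eqv, fun z hz => h.span z ⟨hz.1, hD hz.2⟩⟩

end FamZ

open FamZ in
theorem exists_famR {C : Set E} (hC : IsCompact C) (hF : Flex Ω C) {R : (E → ℂ × ℂ) → Prop}
    (hR : FInv Ω C R) {Q : E → ℂ × ℂ} (hQ : Sct Ω C Q) :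
    ∃ (A : Type) (_ : NormedAddCommGroup A) (_ : NormedSpace ℂ A) (_ : FiniteDimensional ℂ A)
      (F : E × A → ℂ × ℂ), FamR R C Q F C := by
  have hgr : ∀ z ∈ C, ContinuousAt (fun z => (z, Q z)) z := fun z hz =>
    continuousAt_id.prodMk (hQ z hz).1.continuousAt
  have hΓ : IsCompact ((fun z => (z, Q z)) '' C) :=
    hC.image_of_continuousOn fun z hz => (hgr z hz).continuousWithinAt
  have key : ∀ D, Ex R C Q D → Ex R C Q (D ∪ C) := by
    refine hC.induction_on (p := fun D' => ∀ D, Ex R C Q D → Ex R C Q (D ∪ D')) ?_ ?_ ?_ ?_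
    · exact fun D h => h.mono (by simp)
    · exact fun s t hst ht D h => (ht D h).mono (union_subset_union_right _ hst)
    · exact fun s t hs ht D h => (ht _ (hs D h)).mono (by rw [union_assoc])
    · intro z₀ hz₀
      obtain ⟨S₁, S₂, N, hN, hΓN, h1, h2, hne⟩ := hF _ (by
        rintro _ ⟨z, hz, rfl⟩
        exact (hQ z hz).2) hΓ (by
        rintro _ ⟨z, hz, rfl⟩
        exact hz) (z₀, Q z₀) ⟨z₀, hz₀, rfl⟩
      have hQN : ∀ z ∈ C, (z, Q z) ∈ N := fun z hz => hΓN ⟨z, hz, rfl⟩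
      have c1 := ContinuousAt.comp (f := fun z => (z, Q z)) (cont_dS hN h1 (hQN z₀ hz₀))
        (hgr z₀ hz₀)
      have c2 := ContinuousAt.comp (f := fun z => (z, Q z)) (cont_dS hN h2 (hQN z₀ hz₀))
        (hgr z₀ hz₀)
      have hev : ∀ᶠ z in 𝓝 z₀, (dS S₁ (z, Q z)).1 * (dS S₂ (z, Q z)).2 ≠
          (dS S₁ (z, Q z)).2 * (dS S₂ (z, Q z)).1 := by
        have c3 := (c1.fst.mul c2.snd).sub (c1.snd.mul c2.fst)
        filter_upwards [c3.eventually_ne (sub_ne_zero.2 hne)] with z hz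
        exact sub_ne_zero.1 hz
      refine ⟨_, mem_nhdsWithin_of_mem_nhds hev, ?_⟩
      rintro D ⟨A, i1, i2, i3, F, h⟩
      have h' := step hR h hN h1 hQN
      have h'' := step hR h' hN h2 hQN
      refine ⟨(A × ℂ) × ℂ, inferInstance, inferInstance, inferInstance, ext S₂ (ext S₁ F),
        h''.an, h''.zero, h''.eqv, ?_⟩
      rintro z ⟨hz, hD | hD⟩
      · exact h''.span z ⟨hz, hD⟩
      · have e1 : F (z, 0) = Q z := h.zero.self_of_nhdsSet z hz
        have e2 : ext S₁ F (z, 0) = Q z := h'.zero.self_of_nhdsSet z hz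
        have r1 := rng hN h1 (h.an z hz) (by rw [e1]; exact hQN z hz)
        have r2 := rng hN h2 (h'.an z hz) (by rw [e2]; exact hQN z hz)
        refine surj_of (a := ((0, 1), 0)) (b := (0, 1)) ?_
        rw [r2.1, r1.2, r2.2, e1, e2]
        exact hD
  have h0 : Ex R C Q ∅ := by
    refine ⟨ℂ, inferInstance, inferInstance, inferInstance, fun w => Q w.1, fun z hz =>
      AnalyticAt.comp (f := Prod.fst) (hQ z hz).1 analyticAt_fst, Eventually.of_forall fun _ => rfl,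
      ⟨univ, univ_mem, fun _ _ _ => Iff.rfl⟩, fun z hz => hz.2.elim⟩
  exact (key _ h0).mono subset_union_right

end Vale.Agent.P290
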