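import Vale.Agent.P290Z.BExt

/-! Quantitative gluing. -/

open Set Filter Metric
open scoped Manifold ContDiff Topology

noncomputable section

namespace Vale.Agent.P290

variable {E : Type} [NormedAddCommGroup E] [NormedSpace ℂ E] [FiniteDimensional ℂ E]

namespace GLq

/-- The coordinates. -/
def lam (J : Type) : (ℂ × (J → ℂ)) × ℂ × ℂ →L[ℂ] (J ⊕ Option Bool → ℂ) :=
  ContinuousLinearMap.pi fun k => match k with
    | .inl j => (ContinuousLinearMap.proj j).comp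
        ((ContinuousLinearMap.snd ℂ ℂ (J → ℂ)).comp (ContinuousLinearMap.fst ℂ _ _))
    | .inr none => (ContinuousLinearMap.fst ℂ ℂ (J → ℂ)).comp (ContinuousLinearMap.fst ℂ _ _)
    | .inr (some true) => (ContinuousLinearMap.fst ℂ ℂ ℂ).comp (ContinuousLinearMap.snd ℂ _ _)
    | .inr (some false) => (ContinuousLinearMap.snd ℂ ℂ ℂ).comp (ContinuousLinearMap.snd ℂ _ _)

/-- The bounds. -/
def bd {J : Type} (a : J × Bool → ℝ) (x y r : ℝ) : (J ⊕ Option Bool) × Bool → ℝ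
  | (.inl j, t) => a (j, t)
  | (.inr none, true) => x
  | (.inr none, false) => y
  | (.inr (some _), _) => r

theorem mem_lam {J : Type} {a b : J × Bool → ℝ} {x₀ x₁ y₀ y₁ r₀ r₁ : ℝ}
    {p : (ℂ × (J → ℂ)) × ℂ × ℂ} :
    lam J p ∈ Box (bd a x₀ y₀ r₀) (bd b x₁ y₁ r₁) ↔ p.1.1 ∈ Rc x₀ x₁ y₀ y₁ ∧ p.1.2 ∈ Box a b ∧
      p.2.1 ∈ Rc r₀ r₁ r₀ r₁ ∧ p.2.2 ∈ Rc r₀ r₁ r₀ r₁ := by
  constructor
  · intro h
    exact ⟨⟨⟨h.1 (.inr none, true), h.2 (.inr none, true)⟩,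
      ⟨h.1 (.inr none, false), h.2 (.inr none, false)⟩⟩,
      ⟨fun k => h.1 (.inl k.1, k.2), fun k => h.2 (.inl k.1, k.2)⟩,
      ⟨⟨h.1 (.inr (some true), true), h.2 (.inr (some true), true)⟩,
      ⟨h.1 (.inr (some true), false), h.2 (.inr (some true), false)⟩⟩,
      ⟨⟨h.1 (.inr (some false), true), h.2 (.inr (some false), true)⟩,
      ⟨h.1 (.inr (some false), false), h.2 (.inr (some false), false)⟩⟩⟩
  · rintro ⟨h1, h2, h3, h4⟩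
    refine ⟨?_, ?_⟩ <;> rintro ⟨j | _ | _ | _, _ | _⟩
    exacts [h2.1 (j, false), h2.1 (j, true), h1.2.1, h1.1.1, h4.2.1, h4.1.1, h3.2.1, h3.1.1,
      h2.2 (j, false), h2.2 (j, true), h1.2.2, h1.1.2, h4.2.2, h4.1.2, h3.2.2, h3.1.2]

theorem bd_sub {J : Type} (a : J × Bool → ℝ) (x y r δ : ℝ) :
    (fun i => bd a x y r i - δ) = bd (fun i => a i - δ) (x - δ) (y - δ) (r - δ) := by
  funext i
  rcases i with ⟨j | _ | _ | _, _ | _⟩ <;> rfl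

theorem bd_add {J : Type} (a : J × Bool → ℝ) (x y r δ : ℝ) :
    (fun i => bd a x y r i + δ) = bd (fun i => a i + δ) (x + δ) (y + δ) (r + δ) := by
  funext i
  rcases i with ⟨j | _ | _ | _, _ | _⟩ <;> rfl

theorem bd_le {J : Type} {a b : J × Bool → ℝ} (hab : a ≤ b) {x y r x' y' r' : ℝ} (h1 : x ≤ x')
    (h2 : y ≤ y') (h3 : r ≤ r') : bd a x y r ≤ bd b x' y' r' := by
  rintro ⟨j | _ | _ | _, _ | _⟩
  exacts [hab _, hab _, h2, h1, h3, h3, h3, h3]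

theorem lt6 {z : ℂ} (h : z ∈ Rc (-3) 3 (-3) 3) : ‖z‖ < 6 := by
  obtain ⟨⟨h1, h2⟩, h3, h4⟩ := h
  refine lt_of_pow_lt_pow_left₀ 2 (by norm_num) ?_
  rw [Complex.sq_norm, Complex.normSq_apply]
  nlinarith

theorem rc_of {z : ℂ} {r s : ℝ} (h : ‖z‖ ≤ 3) (hr : r ≤ -3) (hs : 3 ≤ s) : z ∈ Rc r s r s := by
  have h1 := abs_le.1 ((Complex.abs_re_le_norm z).trans h)
  have h2 := abs_le.1 ((Complex.abs_im_le_norm z).trans h)
  exact ⟨⟨by linarith [h1.1], by linarith [h1.2]⟩, ⟨by linarith [h2.1], by linarith [h2.2]⟩⟩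

theorem intr {W : Type} [NormedAddCommGroup W] {R : Set ℂ} {Ω : Set W} {ζ : ℂ} {y : W}
    (h1 : ζ ∈ interior R) (h2 : y ∈ interior Ω) :
    (ζ, y, (0 : ℂ × ℂ)) ∈ interior (R ×ˢ Ω ×ˢ closedBall (0 : ℂ × ℂ) 1) := by
  rw [interior_prod_eq, interior_prod_eq]
  exact ⟨h1, h2, mem_interior_iff_mem_nhds.2 (closedBall_mem_nhds _ one_pos)⟩

end GLq

theorem glue_q {Z : Set E} (hZ : IsCompact Z) (hc : Convex ℝ Z) (ℓ : E →L[ℂ] ℂ) {α β : ℝ}
    (h : α < β) {U : Set E} (hU : IsOpen U)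
    (hs : ∀ z ∈ Z, α ≤ (ℓ z).re → (ℓ z).re ≤ β → z ∈ U) :
    ∃ η > (0 : ℝ), ∀ c : E × ℂ × ℂ → ℂ × ℂ, AnalyticOnNhd ℂ c (U ×ˢ ball 0 6) →
      (∀ w ∈ U ×ˢ ball (0 : ℂ × ℂ) 6, ‖c w‖ ≤ η) → ∃ a₁ a₂ : E → ℂ × ℂ,
        (∀ z ∈ Z, (ℓ z).re ≤ β → AnalyticAt ℂ a₁ z ∧ ‖a₁ z‖ ≤ 1) ∧
        (∀ z ∈ Z, α ≤ (ℓ z).re → AnalyticAt ℂ a₂ z ∧ ‖a₂ z‖ ≤ 1) ∧
        ∀ z ∈ Z, α ≤ (ℓ z).re → (ℓ z).re ≤ β → ∀ᶠ y in 𝓝 z, a₁ y + c (y, a₁ y) = a₂ y := by
  rcases Z.eq_empty_or_nonempty with rfl | ⟨z₀, hz₀⟩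
  · exact ⟨1, one_pos, fun c _ _ => ⟨0, 0, by simp, by simp, by simp⟩⟩
  have hre : Continuous fun z => (ℓ z).re := Complex.continuous_re.comp ℓ.continuous
  have hO : IsOpen (U ∪ {z | (ℓ z).re < α} ∪ {z | β < (ℓ z).re}) :=
    (hU.union (isOpen_lt hre continuous_const)).union (isOpen_lt continuous_const hre)
  obtain ⟨n, ι, a, b, hι, hZ1, hZ2⟩ := sandwich hZ hc (hO.mem_nhdsSet.2 fun z hz => by
    by_cases h1 : (ℓ z).re < α
    · exact Or.inl (Or.inr h1)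
    by_cases h2 : β < (ℓ z).re
    · exact Or.inr h2
    exact Or.inl (Or.inl (hs z hz (not_lt.1 h1) (not_lt.1 h2))))
  have hab : a ≤ b := (hZ1 hz₀).1.trans (hZ1 hz₀).2
  obtain ⟨T₀, hT₀⟩ := hZ.exists_bound_of_continuousOn ℓ.continuous.continuousOn
  obtain ⟨T, hT, hTα, hTβ, hT0⟩ : ∃ T, T₀ ≤ T ∧ -T ≤ α ∧ β ≤ T ∧ 0 ≤ T :=
    ⟨|T₀| + |α| + |β|, by linarith [le_abs_self T₀, abs_nonneg α, abs_nonneg β],
      by linarith [neg_abs_le α, abs_nonneg T₀, abs_nonneg β],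
      by linarith [le_abs_self β, abs_nonneg T₀, abs_nonneg α], by positivity⟩
  let ι' : E × ℂ × ℂ →L[ℂ] (Fin n ⊕ Option Bool → ℂ) :=
    (GLq.lam (Fin n)).comp ((ℓ.prod ι).prodMap (ContinuousLinearMap.id ℂ _))
  have hι' : Function.Injective ι' := fun p q e =>
    Prod.ext (hι (funext fun j => congrFun e (.inl j)))
      (Prod.ext (congrFun e (.inr (some true))) (congrFun e (.inr (some false))))
  have hemb : Topology.IsClosedEmbedding ι' :=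
    LinearMap.isClosedEmbedding_of_injective (f := ι'.toLinearMap) (LinearMap.ker_eq_bot.2 hι')
  have hcl : IsClosed (ι' '' (U ×ˢ ball (0 : ℂ × ℂ) 6)ᶜ) :=
    hemb.isClosedMap _ (hU.prod isOpen_ball).isClosed_compl
  obtain ⟨δ, hδ, hth⟩ := thick_box (a := GLq.bd a α (-T) (-3)) (b := GLq.bd b β T 3)
    (hcl.isOpen_compl.mem_nhdsSet.2 (by
      rintro _ hw ⟨w, hw', rfl⟩
      obtain ⟨h1, h2, h3, h4⟩ := (GLq.mem_lam (p := ((ℓ w.1, ι w.1), w.2))).1 hw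
      refine hw' ⟨?_, ?_⟩
      · rcases hZ2 h2 with (h5 | h5) | h5
        · exact h5
        · exact absurd h1.1.1 (not_le.2 h5)
        · exact absurd h1.1.2 (not_le.2 h5)
      · rw [mem_ball_zero_iff, Prod.norm_def]
        exact max_lt (GLq.lt6 h3) (GLq.lt6 h4)))
    (GLq.bd_le hab h.le (by linarith) (by norm_num))
  have hd : 0 < δ / 2 := half_pos hδ
  obtain ⟨C, hC, hext⟩ := bext (V := ℂ × ℂ) hι' (fun i => GLq.bd a α (-T) (-3) i - δ / 2)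
    (fun i => GLq.bd b β T 3 i + δ / 2) hd
  have hsub : ι' ⁻¹' Box (fun i => GLq.bd a α (-T) (-3) i - δ / 2 - δ / 2)
      (fun i => GLq.bd b β T 3 i + δ / 2 + δ / 2) ⊆ U ×ˢ ball (0 : ℂ × ℂ) 6 := by
    intro w hw
    by_contra hn
    refine hth (a := ι' w) ⟨fun i => ?_, fun i => ?_⟩ ⟨w, hn, rfl⟩
    · have := hw.1 i
      simp only at this ⊢
      linarith
    · have := hw.2 i
      simp only at this ⊢
      linarith
  obtain ⟨η, hη, hfix⟩ := fixpt (x₁ := -T - δ / 2) (α := α - δ / 2) (β := β + δ / 2)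
    (x₂ := T + δ / 2) (y₀ := -T - δ / 2) (y₁ := T + δ / 2) (by linarith) (by linarith)
    (by linarith) (by linarith)
  refine ⟨η / C, by positivity, fun c hc1 hc2 => ?_⟩
  obtain ⟨c', h1, h2, h3⟩ := hext c (η / C) (by positivity) (hc1.mono hsub)
    fun w hw => hc2 w (hsub hw)
  rw [GLq.bd_sub, GLq.bd_add] at h1 h2 h3
  have hin : ∀ w ∈ (Rc (α - δ / 2) (β + δ / 2) (-T - δ / 2) (T + δ / 2) ×ˢ
      Box (fun i => a i - δ / 2) fun i => b i + δ / 2) ×ˢ closedBall (0 : ℂ × ℂ) 3,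
      GLq.lam (Fin n) w ∈ Box (GLq.bd (fun i => a i - δ / 2) (α - δ / 2) (-T - δ / 2) (-3 - δ / 2))
        (GLq.bd (fun i => b i + δ / 2) (β + δ / 2) (T + δ / 2) (3 + δ / 2)) := fun w hw => by
    have h4 := mem_closedBall_zero_iff.1 hw.2
    exact GLq.mem_lam.2 ⟨hw.1.1, hw.1.2,
      GLq.rc_of ((norm_fst_le _).trans h4) (by linarith) (by linarith),
      GLq.rc_of ((norm_snd_le _).trans h4) (by linarith) (by linarith)⟩
  obtain ⟨a₁, a₂, hA1, hA2, hn1, hn2, heq, -⟩ := hfix (Fin n → ℂ) (ℂ × ℂ)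
    (Box (fun i => a i - δ / 2) fun i => b i + δ / 2) (fun w => c' (GLq.lam (Fin n) w))
    (isCompact_box _ _) (fun w hw => (h1 _ (hin w hw)).comp ((GLq.lam (Fin n)).analyticAt w))
    fun w hw => (h2 _ (hin w hw)).trans_eq (by field_simp)
  let m : E →L[ℂ] ℂ × (Fin n → ℂ) × ℂ × ℂ := ℓ.prod (ι.prod 0)
  have hint : ∀ z ∈ Z, ∀ x x', x ≤ (ℓ z).re → (ℓ z).re ≤ x' →
      m z ∈ interior (Rc (x - δ / 2) (x' + δ / 2) (-T - δ / 2) (T + δ / 2) ×ˢ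
        (Box (fun i => a i - δ / 2) fun i => b i + δ / 2) ×ˢ closedBall (0 : ℂ × ℂ) 1) :=
    fun z hz x x' e1 e2 => by
      have h4 := abs_le.1 (((Complex.abs_im_le_norm _).trans (hT₀ z hz)).trans hT)
      exact GLq.intr (ns2_sub (a := x) (b := x') (c := -T) (d := T) (by linarith) (by linarith)
        (by linarith) (by linarith) ⟨⟨e1, e2⟩, h4⟩) (NS3.sub_int a b hd (hZ1 hz))
  have hb : ∀ z ∈ Z, -T ≤ (ℓ z).re ∧ (ℓ z).re ≤ T := fun z hz =>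
    abs_le.1 (((Complex.abs_re_le_norm _).trans (hT₀ z hz)).trans hT)
  refine ⟨fun z => a₁ (m z), fun z => a₂ (m z), fun z hz e => ?_, fun z hz e => ?_,
    fun z hz e1 e2 => ?_⟩
  · have h4 := hint z hz _ _ (hb z hz).1 e
    exact ⟨(P278F.analyticOnNhd_of_differentiableOn isOpen_interior hA1.2 _ h4).comp
      (m.analyticAt z), (hn1 _ (interior_subset h4)).trans (by norm_num)⟩
  · have h4 := hint z hz _ _ e (hb z hz).2
    exact ⟨(P278F.analyticOnNhd_of_differentiableOn isOpen_interior hA2.2 _ h4).comp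
      (m.analyticAt z), (hn2 _ (interior_subset h4)).trans (by norm_num)⟩
  · filter_upwards [m.continuous.continuousAt.eventually
      (mem_interior_iff_mem_nhds.1 (hint z hz _ _ e1 e2))] with y hy
    have h4 := heq _ hy
    have h5 : ‖a₁ (m y)‖ ≤ 1 / 4 :=
      hn1 _ ⟨⟨⟨le_trans (by linarith) hy.1.1.1, hy.1.1.2⟩, hy.1.2⟩, hy.2⟩
    have h6 := h3 (y, a₁ (m y)) (hin ((ℓ y, ι y), a₁ (m y))
      ⟨⟨hy.1, hy.2.1⟩, mem_closedBall_zero_iff.2 (h5.trans (by norm_num))⟩)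
    have h7 : a₁ (m y) + c' (GLq.lam (Fin n) ((ℓ y, ι y), 0 + a₁ (m y))) = a₂ (m y) := h4
    rw [zero_add] at h7
    rw [← h6]
    exact h7

end Vale.Agent.P290
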