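import Vale.Agent.P290Z.Defs

/-! Inversion along a spray. -/

open Set Filter Metric
open scoped Manifold ContDiff Topology

noncomputable section

namespace Vale.Agent.P290

namespace IftQ

theorem inv {A : Type} [NormedAddCommGroup A] [NormedSpace ℂ A] [FiniteDimensional ℂ A]
    {u : A → A} {a : A} (hu : AnalyticAt ℂ u a) (hi : Function.Injective (fderiv ℂ u a)) :
    ∃ ρ : A → A, AnalyticAt ℂ ρ (u a) ∧ ρ (u a) = a ∧ (∀ᶠ b in 𝓝 (u a), u (ρ b) = b) ∧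
      ∀ᶠ b in 𝓝 a, ρ (u b) = b := by
  have := FiniteDimensional.complete ℂ A
  have hb : Function.Bijective (fderiv ℂ u a) :=
    ⟨hi, LinearMap.injective_iff_surjective (f := (fderiv ℂ u a : A →ₗ[ℂ] A)).1 hi⟩
  set L : A ≃L[ℂ] A := ContinuousLinearEquiv.ofBijective (fderiv ℂ u a)
    (LinearMap.ker_eq_bot.2 hb.1) (LinearMap.range_eq_top.2 hb.2) with hL
  have hd : HasFDerivAt u (L : A →L[ℂ] A) a := hu.differentiableAt.hasFDerivAt
  have hc : ContDiffAt ℂ ω u a := hu.contDiffAt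
  exact ⟨hc.localInverse hd Mfd.ne0, (hc.to_localInverse hd Mfd.ne0).analyticAt,
    hc.localInverse_apply_image hd Mfd.ne0,
    (hc.hasStrictFDerivAt' hd Mfd.ne0).eventually_right_inverse,
    (hc.hasStrictFDerivAt' hd Mfd.ne0).eventually_left_inverse⟩

theorem loc {E X : Type} [NormedAddCommGroup E] [NormedSpace ℂ E] [FiniteDimensional ℂ E]
    [TopologicalSpace X] [ChartedSpace C2 X] [IsManifold 𝓘(ℂ, C2) ω X] {F : E × C2 → X} {z : E}
    (hF : Hol F (z, 0)) (hi : Function.Injective (dT F z)) :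
    (∃ U ∈ 𝓝 ((z, 0) : E × C2), InjOn (fun p => (p.1, F p)) U) ∧ ∃ l : E × X → C2,
      ∀ W ∈ 𝓝 ((z, 0) : E × C2), ∀ᶠ y in 𝓝 (z, F (z, 0)),
        (F (y.1, l y) = y.2 ∧ (y.1, l y) ∈ W) ∧ ∀ G : E → X, Hol G y.1 → G y.1 = y.2 →
          AnalyticAt ℂ (fun w => l (w, G w)) y.1 := by
  have hs := mem_chart_source C2 (F (z, 0))
  generalize hx : F (z, 0) = x at hs ⊢
  have hs' : F (z, 0) ∈ (chartAt C2 x).source := hx ▸ hs
  have h1 : AnalyticAt ℂ (fun p => chartAt C2 x (F p)) (z, 0) := (holF_chart x hs').comp hF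
  have h2 : AnalyticAt ℂ (fun p : E × C2 => (p.1, chartAt C2 x (F p))) (z, 0) :=
    analyticAt_fst.prod h1
  have h3 : Function.Injective
      (fderiv ℂ (fun p : E × C2 => (p.1, chartAt C2 x (F p))) (z, 0)) := by
    rw [(hasFDerivAt_fst.prodMk h1.differentiableAt.hasFDerivAt).fderiv,
      injective_iff_map_eq_zero]
    rintro ⟨h, k⟩ e
    obtain ⟨e1, e2⟩ := Prod.ext_iff.1 e
    obtain rfl : h = 0 := e1
    have e3 : fderiv ℂ (fun p => chartAt C2 x (F p)) (z, 0) (0, k) = 0 := e2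
    have e4 : dT F z k = dT F z 0 := by
      rw [dT_eq hF, dif_chart x hF hs', e3, map_zero, map_zero]
    rw [hi e4]
    rfl
  obtain ⟨ρ, r1, r2, r3, r4⟩ := inv h2 h3
  simp only [hx] at r1 r2 r3
  refine ⟨⟨_, r4, fun a ha b hb e => ?_⟩, fun y => (ρ (y.1, chartAt C2 x y.2)).2, fun W hW => ?_⟩
  · obtain ⟨e1, e2⟩ := Prod.ext_iff.1 e
    have e1' : a.1 = b.1 := e1
    have e2' : F a = F b := e2
    have ha' : ρ (a.1, chartAt C2 x (F a)) = a := ha
    have hb' : ρ (b.1, chartAt C2 x (F b)) = b := hb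
    rw [← ha', ← hb', e1', e2', hb']
  have t1 : Tendsto (fun y : E × X => (y.1, chartAt C2 x y.2)) (𝓝 (z, x))
      (𝓝 (z, chartAt C2 x x)) :=
    continuousAt_fst.prodMk (((chartAt C2 x).continuousAt hs).comp_of_eq continuousAt_snd rfl)
  have t2 : Tendsto (fun y : E × X => ρ (y.1, chartAt C2 x y.2)) (𝓝 (z, x)) (𝓝 (z, 0)) := by
    have := r1.continuousAt.tendsto.comp t1
    rwa [r2] at this
  have o := (chartAt C2 x).open_source
  filter_upwards [t1.eventually r3, t1.eventually r1.eventually_analyticAt, t2.eventually hW,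
    (hF.cont.tendsto.comp t2).eventually (o.mem_nhds hs'),
    (continuousAt_snd (p := (z, x))).tendsto.eventually (o.mem_nhds hs)] with y y1 y2 y3 y4 y5
  obtain ⟨e1, e2⟩ := Prod.ext_iff.1 y1
  have e : (y.1, (ρ (y.1, chartAt C2 x y.2)).2) = ρ (y.1, chartAt C2 x y.2) :=
    Prod.ext e1.symm rfl
  refine ⟨?_, fun G hG hy => ?_⟩
  · rw [e]
    exact ⟨(chartAt C2 x).injOn y4 y5 e2, y3⟩
  · rw [← hy] at y2 y5
    exact analyticAt_snd.comp (y2.comp (f := fun w => (w, chartAt C2 x (G w)))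
      (analyticAt_id.prod ((holF_chart x y5).comp hG)))

end IftQ

theorem ift_q {E X : Type} [NormedAddCommGroup E] [NormedSpace ℂ E] [FiniteDimensional ℂ E]
    [MetricSpace X] [ChartedSpace C2 X] [IsManifold 𝓘(ℂ, C2) ω X] {K : Set E} (hK : IsCompact K)
    {F : E × C2 → X} (hF : ∀ z ∈ K, Hol F (z, 0) ∧ Function.Injective (dT F z))
    {W : Set (E × C2)} (hW : W ∈ 𝓝ˢ (K ×ˢ {0})) : ∃ ε > (0 : ℝ), ∀ G : E → X,
      (∀ z ∈ K, Hol G z ∧ dist (G z) (F (z, 0)) < ε) → ∃ τ : E → C2, AnalyticOnNhd ℂ τ K ∧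
        (∀ z ∈ K, (z, τ z) ∈ W) ∧ ∀ᶠ z in 𝓝ˢ K, F (z, τ z) = G z := by
  obtain ⟨W₀, w1, w2⟩ := Set.InjOn.exists_mem_nhdsSet (f := fun p : E × C2 => (p.1, F p))
    (s := K ×ˢ ({0} : Set C2))
    (fun a ha b hb e => Prod.ext (Prod.ext_iff.1 e).1 (Eq.trans ha.2 (Eq.symm hb.2)))
    (hK.prod isCompact_singleton)
    (by rintro ⟨z, _⟩ ⟨hz, rfl⟩; exact continuousAt_fst.prodMk (hF z hz).1.cont)
    (by rintro ⟨z, _⟩ ⟨hz, rfl⟩; exact (IftQ.loc (hF z hz).1 (hF z hz).2).1)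
  have w3 := inter_mem w1 hW
  have w4 := w2.mono (inter_subset_left (t := W))
  have hΓ : IsCompact ((fun z => (z, F (z, 0))) '' K) := hK.image_of_continuousOn fun z hz =>
    (continuousAt_id.prodMk ((hF z hz).1.cont.comp_of_eq
      (continuousAt_id.prodMk continuousAt_const) rfl)).continuousWithinAt
  have hP : ∀ᶠ y in 𝓝ˢ ((fun z => (z, F (z, 0))) '' K), ∃ l : E × X → C2,
      (∀ᶠ y' in 𝓝 y, F (y'.1, l y') = y'.2 ∧ (y'.1, l y') ∈ W₀ ∩ W) ∧
        ∀ G : E → X, Hol G y.1 → G y.1 = y.2 → AnalyticAt ℂ (fun w => l (w, G w)) y.1 := by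
    rw [eventually_nhdsSet_iff_forall]
    rintro _ ⟨z, hz, rfl⟩
    obtain ⟨l, hl⟩ := (IftQ.loc (hF z hz).1 (hF z hz).2).2
    filter_upwards [(hl _ (mem_nhdsSet_iff_forall.1 w3 _ ⟨hz, rfl⟩)).eventually_nhds] with y hy
    exact ⟨l, hy.mono fun _ h => h.1, hy.self_of_nhds.2⟩
  obtain ⟨ε, h0, hε⟩ := (hasBasis_nhdsSet_thickening hΓ).eventually_iff.1 hP
  refine ⟨ε, h0, fun G hG => ?_⟩
  have key : ∀ z ∈ K, ∃ l : E → C2, AnalyticAt ℂ l z ∧ ∀ᶠ w in 𝓝 z,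
      (Function.invFunOn (fun p : E × C2 => (p.1, F p)) (W₀ ∩ W) (w, G w)).2 = l w ∧
        F (w, l w) = G w ∧ (w, l w) ∈ W := fun z hz => by
    obtain ⟨l, l1, l2⟩ := hε (x := (z, G z)) (mem_thickening_iff.2 ⟨_, mem_image_of_mem _ hz, by
      rw [Prod.dist_eq, dist_self]; exact max_lt h0 (hG z hz).2⟩)
    refine ⟨fun w => l (w, G w), l2 G (hG z hz).1 rfl, ?_⟩
    filter_upwards [(continuousAt_id.prodMk (hG z hz).1.cont).tendsto.eventually l1] with w hw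
    refine ⟨?_, hw.1, hw.2.2⟩
    have h := w4.leftInvOn_invFunOn hw.2
    have e : F (w, l (w, G w)) = G w := hw.1
    simp only [id, e] at h
    rw [h]
  refine ⟨fun w => (Function.invFunOn (fun p : E × C2 => (p.1, F p)) (W₀ ∩ W) (w, G w)).2,
    fun z hz => ?_, fun z hz => ?_, eventually_nhdsSet_iff_forall.2 fun z hz => ?_⟩ <;>
    obtain ⟨l, l1, l2⟩ := key z hz
  · exact l1.congr (l2.mono fun w hw => hw.1.symm)
  · simp only [l2.self_of_nhds.1]
    exact l2.self_of_nhds.2.2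
  · filter_upwards [l2] with w hw
    rw [hw.1, hw.2.1]

end Vale.Agent.P290
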