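import Vale.Agent.P290Z.Defs

/-! Local sprays on Kummer surfaces; inversion. -/

open Set Filter Metric
open scoped Manifold ContDiff Topology

noncomputable section

namespace Vale.Agent.P290

theorem exists_kum_spr {t : Tk} (ht : LinearIndependent ℝ t) :
    ∃ (X : Type) (_ : MetricSpace X) (_ : CompactSpace X) (_ : ChartedSpace C2 X),
      IsManifold 𝓘(ℂ, C2) ω X ∧ (∃ (q : ℂ × ℂ → X) (e : ℂ × ℂ → ℂ × ℂ × ℂ → X), Kum (Lat t) q e) ∧
      ∀ (m : ℕ) (S : Set (EuclideanSpace ℂ (Fin m))) (f : EuclideanSpace ℂ (Fin m) → X),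
        IsCompact S → Convex ℝ S → S.Nonempty → (∀ z ∈ S, Hol f z) →
        ∃ F : EuclideanSpace ℂ (Fin m) × C2 → X, (∀ z ∈ S, Hol F (z, 0) ∧
          Function.Injective (dT F z)) ∧ ∀ᶠ z in 𝓝ˢ S, F (z, 0) = f z := by
  obtain ⟨Y, _, _, X, i1, i2, p, j, _, _, h, hk⟩ := exists_kfam
  have := h.mfd t ht
  refine ⟨X t, i1 t, (hk t ht).1, i2 t, this, (hk t ht).2, fun m S f hS hc hne hf => ?_⟩
  obtain ⟨G, hG⟩ := exists_spr (g := fun w => j t (f w)) (t₀ := t) h.sub hS hc hne fun z hz =>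
    ⟨h.hol ht (hf z hz), Eventually.of_forall fun w => h.ov ht _⟩
  have : Nonempty (X t) := ⟨f 0⟩
  let ι : EuclideanSpace ℂ (Fin m) × C2 → EuclideanSpace ℂ (Fin m) × C2 × Tk :=
    fun w => (w.1, w.2, 0)
  have aι : ∀ w, AnalyticAt ℂ ι w := fun w =>
    analyticAt_fst.prod (analyticAt_snd.prod analyticAt_const)
  have e : ∀ z ∈ S, ∀ᶠ w in 𝓝 ((z, 0) : EuclideanSpace ℂ (Fin m) × C2),
      j t (Function.invFun (j t) (G (ι w))) = G (ι w) := fun z hz => by
    have h2 : ∀ᶠ w in 𝓝 (ι (z, 0)), p (G w) = t + w.2.2 :=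
      hG.ov.filter_mono (nhds_le_nhdsSet (mk_mem_prod hz (mem_singleton _)))
    filter_upwards [(aι (z, 0)).continuousAt.tendsto.eventually h2] with w hw
    have h3 : G (ι w) ∈ range (j t) := h.rng t ht ▸ hw.trans (add_zero t)
    exact Function.invFun_eq h3
  refine ⟨fun w => Function.invFun (j t) (G (ι w)), fun z hz => ?_, ?_⟩
  · have h1 : Hol (fun w => Function.invFun (j t) (G (ι w))) (z, 0) :=
      h.lift_at (g := fun w => G (ι w)) ht
        (ContMDiffAt.comp (z, 0) (hG.hol z hz) (Mfd.an (aι _))) (e z hz)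
    refine ⟨h1, fun a b hab => hG.inj z hz ?_⟩
    have a2 : AnalyticAt ℂ (fun v : C2 => ((z, v) : EuclideanSpace ℂ (Fin m) × C2)) 0 :=
      analyticAt_const.prod analyticAt_id
    have h2 : Hol (fun v : C2 => Function.invFun (j t) (G (ι (z, v)))) 0 :=
      Hol.comp (g := fun v : C2 => ((z, v) : EuclideanSpace ℂ (Fin m) × C2)) h1 a2
    have h3 := difY_congr (T := Tk)
      (g' := fun v : C2 => j t (Function.invFun (j t) (G (ι (z, v)))))
      (g := fun v : C2 => G (z, v, 0)) (a2.continuousAt.tendsto.eventually (e z hz))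
    have h4 := mfderiv_comp 0 ((h.emb t ht _).1.mdifferentiableAt Mfd.ne0) h2.mdiff
    have h5 := DFunLike.congr_fun h4 a
    have h6 := DFunLike.congr_fun h4 b
    rw [← h3]
    exact h5.trans ((congrArg (mfderiv 𝓘(ℂ, C2) 𝓘(ℂ, C2 × Tk) (j t) _) hab).trans h6.symm)
  · filter_upwards [hG.zero] with z hz
    exact (congrArg (Function.invFun (j t)) hz).trans (Function.leftInverse_invFun (h.inj t ht) _)

end Vale.Agent.P290
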