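import Vale.Agent.P290Z.GL
import Vale.Agent.P290Z.Chi

/-! Flows preserve reachability. -/

open Set Filter Metric
open scoped Manifold ContDiff Topology

noncomputable section

namespace Vale.Agent.P290

variable {E : Type} [NormedAddCommGroup E] [NormedSpace ℂ E] [FiniteDimensional ℂ E]
  {Ω : Set (E × ℂ × ℂ)}

namespace Link

/-- The tube lemma with a radius. -/
theorem tube {X Y : Type} [NormedAddCommGroup X] [TopologicalSpace Y] {K : Set Y}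
    (hK : IsCompact K) {P : X → Y → Prop}
    (hP : ∀ y ∈ K, ∀ᶠ z : X × Y in 𝓝 (0, y), P z.1 z.2) :
    ∃ δ > (0 : ℝ), ∀ x, ‖x‖ ≤ δ → ∀ y ∈ K, P x y := by
  obtain ⟨δ, hδ, h⟩ := Metric.eventually_nhds_iff.1 (hK.eventually_forall_of_forall_eventually hP)
  exact ⟨δ / 2, half_pos hδ, fun x hx => h (by rw [dist_zero_right]; linarith)⟩

theorem small {X V : Type} [TopologicalSpace X] [NormedAddCommGroup V] {f : X → V} {x : X}
    (hf : ContinuousAt f x) (h0 : f x = 0) {ε : ℝ} (hε : 0 < ε) : ∀ᶠ z in 𝓝 x, ‖f z‖ ≤ ε := by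
  have := hf.norm.eventually (gt_mem_nhds (show ‖f x‖ < ε by rwa [h0, norm_zero]))
  exact this.mono fun z hz => hz.le

omit [FiniteDimensional ℂ E] in
theorem step1 {N : Set (E × ℂ × ℂ)} {S : (E × ℂ × ℂ) × ℂ → ℂ × ℂ} {Q : E → ℂ × ℂ} {μ : E → ℂ}
    {C : Set E} (hC : IsCompact C) (hN : IsOpen N) (hS : Flo Ω N S)
    (h : ∀ y ∈ C, AnalyticAt ℂ Q y ∧ AnalyticAt ℂ μ y ∧ (y, Q y) ∈ N) {ε : ℝ} (hε : 0 < ε) :
    ∃ δ > (0 : ℝ), ∀ y ∈ C, ∀ P τ, ‖P - Q y‖ ≤ δ → ‖τ - μ y‖ ≤ δ →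
      (y, P) ∈ N ∧ ‖S ((y, P), τ) - S ((y, Q y), μ y)‖ ≤ ε := by
  obtain ⟨δ, hδ, H⟩ := tube (X := (ℂ × ℂ) × ℂ) hC
    (P := fun x y => (y, Q y + x.1) ∈ N ∧
      ‖S ((y, Q y + x.1), μ y + x.2) - S ((y, Q y), μ y)‖ ≤ ε) fun y hy => by
      obtain ⟨hQ, hμ, hy⟩ := h y hy
      have cQ : ContinuousAt (fun z : ((ℂ × ℂ) × ℂ) × E => Q z.2) (0, y) :=
        ContinuousAt.comp (g := Q) hQ.continuousAt continuousAt_snd
      have cμ : ContinuousAt (fun z : ((ℂ × ℂ) × ℂ) × E => μ z.2) (0, y) :=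
        ContinuousAt.comp (g := μ) hμ.continuousAt continuousAt_snd
      have c1 : ContinuousAt (fun z : ((ℂ × ℂ) × ℂ) × E => (z.2, Q z.2 + z.1.1)) (0, y) :=
        continuousAt_snd.prodMk (cQ.add (by fun_prop))
      have cS := ((hS _ hy).2 (μ y)).1.continuousAt
      refine (c1.eventually (hN.mem_nhds (by simpa using hy))).and (small ?_ (by simp) hε)
      refine ContinuousAt.sub ?_ ?_
      · exact ContinuousAt.comp (g := S) (by simpa using cS) (c1.prodMk (cμ.add (by fun_prop)))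
      · exact ContinuousAt.comp (g := S) cS ((continuousAt_snd.prodMk cQ).prodMk cμ)
  refine ⟨δ, hδ, fun y hy P τ h1 h2 => ?_⟩
  simpa using H (P - Q y, τ - μ y) (by rw [Prod.norm_def]; exact max_le h1 h2) y hy

omit [FiniteDimensional ℂ E] in
theorem step3 (hΩ : IsOpen Ω) {A : Set E} (hA : IsCompact A) {H : E → ℂ × ℂ} (h : Sct Ω A H) :
    ∃ δ > (0 : ℝ), ∀ v, ‖v‖ ≤ δ → ∀ y ∈ A, (y, H y + v) ∈ Ω :=
  tube hA (P := fun v y => (y, H y + v) ∈ Ω) fun y hy => by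
    have cH : ContinuousAt (fun z : (ℂ × ℂ) × E => H z.2) (0, y) :=
      ContinuousAt.comp (g := H) (h y hy).1.continuousAt continuousAt_snd
    have c1 : ContinuousAt (fun z : (ℂ × ℂ) × E => (z.2, H z.2 + z.1)) (0, y) :=
      continuousAt_snd.prodMk (cH.add continuousAt_fst)
    exact c1.eventually (hΩ.mem_nhds (by simpa using (h y hy).2))

omit [FiniteDimensional ℂ E] in
theorem step5 {N : Set (E × ℂ × ℂ)} {S : (E × ℂ × ℂ) × ℂ → ℂ × ℂ} {H : E → ℂ × ℂ}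
    {C : Set E} (hC : IsCompact C) (hS : Flo Ω N S) (hH : ∀ y ∈ C, AnalyticAt ℂ H y) {r : ℝ}
    (h : ∀ y ∈ C, ∀ v, ‖v‖ ≤ r → (y, H y + v) ∈ N) {ε : ℝ} (hε : 0 < ε) :
    ∃ σ > (0 : ℝ), ∀ τ, ‖τ‖ ≤ σ → ∀ y ∈ C, ∀ v, ‖v‖ ≤ r →
      ‖S ((y, H y + v), τ) - (H y + v)‖ ≤ ε := by
  obtain ⟨σ, hσ, K⟩ := tube (X := ℂ) (hC.prod (isCompact_closedBall (0 : ℂ × ℂ) r))
    (P := fun τ x => ‖S ((x.1, H x.1 + x.2), τ) - (H x.1 + x.2)‖ ≤ ε) fun x hx => by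
      have hx2 : ‖x.2‖ ≤ r := by simpa using hx.2
      have hN := hS _ (h _ hx.1 _ hx2)
      have cH : ContinuousAt (fun z : ℂ × E × ℂ × ℂ => H z.2.1 + z.2.2) (0, x) :=
        (ContinuousAt.comp (g := H) (f := fun z : ℂ × E × ℂ × ℂ => z.2.1) (x := (0, x))
          (hH _ hx.1).continuousAt (by fun_prop)).add (by fun_prop)
      refine small (ContinuousAt.sub ?_ cH) (sub_eq_zero.2 hN.1) hε
      exact ContinuousAt.comp (g := S) (hN.2 0).1.continuousAt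
        ((ContinuousAt.prodMk (by fun_prop) cH).prodMk continuousAt_fst)
  exact ⟨σ, hσ, fun τ hτ y hy v hv => K τ hτ (y, v) ⟨hy, by simpa using hv⟩⟩

theorem flow (hΩ : IsOpen Ω) (ℓ : E →L[ℂ] ℂ) (H₀ : E → ℂ × ℂ) {A' : Set E} (a : ℝ)
    {N : Set (E × ℂ × ℂ)} {S : (E × ℂ × ℂ) × ℂ → ℂ × ℂ} {Q : E → ℂ × ℂ} {μ : E → ℂ}
    (hN : IsOpen N) (hS : Flo Ω N S)
    (h : ∀ y ∈ {y ∈ A' | a ≤ (ℓ y).re}, AnalyticAt ℂ Q y ∧ AnalyticAt ℂ μ y ∧ (y, Q y) ∈ N)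
    (hR : Rch Ω ℓ H₀ A' a Q) : Rch Ω ℓ H₀ A' a fun y => S ((y, Q y), μ y) := by
  intro A c hA hc hAA hac ε hε
  obtain ⟨A1, hA1, hc1, hs1, hn1⟩ := thicken hA hc (isOpen_interior.mem_nhdsSet.2 hAA)
  have hi1 : A ⊆ interior A1 := subset_interior_iff_mem_nhdsSet.2 hn1
  have hAA1 : A ⊆ A1 := hi1.trans interior_subset
  obtain ⟨c1, l0, l1⟩ := exists_between hac
  obtain ⟨α, l1, l2⟩ := exists_between l1
  obtain ⟨β, l2, l3⟩ := exists_between l2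
  obtain ⟨β', l3, l4⟩ := exists_between l3
  have cl : Continuous fun y => (ℓ y).re := by fun_prop
  set C1 : Set E := {y ∈ A1 | c1 ≤ (ℓ y).re} with hC1def
  have hC1 : IsCompact C1 := hA1.inter_right (isClosed_le continuous_const cl)
  have h1 : ∀ y ∈ C1, AnalyticAt ℂ Q y ∧ AnalyticAt ℂ μ y ∧ (y, Q y) ∈ N := fun y hy =>
    h y ⟨interior_subset (hs1 hy.1), l0.le.trans hy.2⟩
  obtain ⟨δ0, hδ0, K0⟩ := step1 hC1 hN hS h1 hε
  obtain ⟨H, hH, hHl, hHr⟩ := hR A1 c1 hA1 hc1 hs1 l0 (min ε δ0 / 2) (by positivity)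
  obtain ⟨δ1, hδ1, K1⟩ := step3 hΩ hA1 hH
  obtain ⟨δ, hδ, d1, d2, d3⟩ : ∃ δ > (0 : ℝ), δ ≤ δ1 ∧ 12 * δ ≤ δ0 ∧ 2 * δ ≤ ε :=
    ⟨min δ1 (min (δ0 / 12) (ε / 2)), by positivity, min_le_left _ _,
      by linarith [min_le_right δ1 (min (δ0 / 12) (ε / 2)), min_le_left (δ0 / 12) (ε / 2)],
      by linarith [min_le_right δ1 (min (δ0 / 12) (ε / 2)), min_le_right (δ0 / 12) (ε / 2)]⟩
  have m1 := min_le_left ε δ0
  have m2 := min_le_right ε δ0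
  have nδ : ∀ v : ℂ × ℂ, ‖(δ : ℂ) • v‖ = δ * ‖v‖ := fun v => by
    rw [norm_smul, Complex.norm_real, Real.norm_of_nonneg hδ.le]
  have hδc : (δ : ℂ) ≠ 0 := Complex.ofReal_ne_zero.2 hδ.ne'
  have near : ∀ y ∈ C1, ∀ v : ℂ × ℂ, ‖v‖ ≤ 6 * δ → ‖H y + v - Q y‖ ≤ δ0 := fun y hy v hv => by
    have := hHr y hy.1 hy.2
    have e : H y + v - Q y = (H y - Q y) + v := by abel
    rw [e]
    linarith [norm_add_le (H y - Q y) v]
  have inN : ∀ y ∈ C1, ∀ v : ℂ × ℂ, ‖v‖ ≤ 6 * δ → (y, H y + v) ∈ N := fun y hy v hv =>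
    (K0 y hy _ (μ y) (near y hy v hv) (by simpa using hδ0.le)).1
  obtain ⟨η, hη, G⟩ := glue_q hA hc (-ℓ) (neg_lt_neg l2)
    (U := interior A1 ∩ {y | c1 < (ℓ y).re ∧ (ℓ y).re < β'})
    (isOpen_interior.inter ((isOpen_lt continuous_const cl).inter (isOpen_lt cl continuous_const)))
    fun z hz p q => by
      simp only [ContinuousLinearMap.neg_apply, Complex.neg_re] at p q
      exact ⟨hi1 hz, by linarith, by linarith⟩
  obtain ⟨σ, hσ, K5⟩ := step5 hC1 hS (fun y hy => (hH y hy.1).1) inN (mul_pos hδ hη)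
  obtain ⟨B, hB⟩ := hC1.exists_bound_of_continuousOn
    (f := μ) fun y hy => (h1 y hy).2.1.continuousAt.continuousWithinAt
  obtain ⟨R, hRb⟩ := hA1.exists_bound_of_continuousOn (f := ℓ) ℓ.continuous.continuousOn
  have hB1 : 0 < |B| + 1 := by positivity
  obtain ⟨χ, hχ, Kχ⟩ := exists_chi R l4 (ε := min σ δ0 / (|B| + 1)) (by positivity)
  have prod : ∀ y ∈ C1, ∀ w : ℂ, ‖w‖ ≤ min σ δ0 / (|B| + 1) → ‖w * μ y‖ ≤ min σ δ0 :=
    fun y hy w hw => by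
      rw [norm_mul]
      have e1 : ‖μ y‖ ≤ |B| + 1 := by linarith [hB y hy, le_abs_self B]
      calc ‖w‖ * ‖μ y‖ ≤ min σ δ0 / (|B| + 1) * (|B| + 1) :=
            mul_le_mul hw e1 (norm_nonneg _) (by positivity)
        _ = min σ δ0 := div_mul_cancel₀ _ hB1.ne'
  have aχ : ∀ y ∈ C1, AnalyticAt ℂ (fun y => χ (ℓ y) * μ y) y := fun y hy =>
    ((hχ.analyticAt _).comp (ℓ.analyticAt y)).mul (h1 y hy).2.1
  obtain ⟨a₁, a₂, ha₁, ha₂, ha⟩ := G (fun w => (δ : ℂ)⁻¹ •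
      (S ((w.1, H w.1 + (δ : ℂ) • w.2), χ (ℓ w.1) * μ w.1) - (H w.1 + (δ : ℂ) • w.2)))
    (fun w hw => by
      have hy : w.1 ∈ C1 := ⟨interior_subset hw.1.1, hw.1.2.1.le⟩
      have hv : ‖w.2‖ < 6 := by simpa using hw.2
      have aH : AnalyticAt ℂ (fun w : E × ℂ × ℂ => H w.1 + (δ : ℂ) • w.2) w :=
        ((hH _ hy.1).1.comp analyticAt_fst).add (analyticAt_snd.const_smul (c := (δ : ℂ)))
      have aS := ((hS _ (inN _ hy ((δ : ℂ) • w.2) (by rw [nδ]; nlinarith))).2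
        (χ (ℓ w.1) * μ w.1)).1
      exact ((aS.comp_of_eq ((analyticAt_fst.prod aH).prod
        ((aχ _ hy).comp analyticAt_fst)) rfl).sub aH).const_smul (c := (δ : ℂ)⁻¹))
    (fun w hw => by
      have hy : w.1 ∈ C1 := ⟨interior_subset hw.1.1, hw.1.2.1.le⟩
      have hv : ‖w.2‖ < 6 := by simpa using hw.2
      have := K5 _ ((prod _ hy _ ((Kχ _ (hRb _ hy.1)).1 hw.1.2.2.le)).trans (min_le_left _ _))
        _ hy ((δ : ℂ) • w.2) (by rw [nδ]; nlinarith)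
      rw [norm_smul, norm_inv, Complex.norm_real, Real.norm_of_nonneg hδ.le,
        inv_mul_le_iff₀ hδ]
      exact this)
  simp only [ContinuousLinearMap.neg_apply, Complex.neg_re, neg_le_neg_iff] at ha₁ ha₂ ha
  obtain ⟨f, f1, f2⟩ := glue2 (S₁ := {y ∈ A | (ℓ y).re ≤ β}) (S₂ := {y ∈ A | α ≤ (ℓ y).re})
    (hA.isClosed.inter (isClosed_le cl continuous_const))
    (hA.isClosed.inter (isClosed_le continuous_const cl))
    (f₁ := fun y => H y + (δ : ℂ) • a₂ y)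
    (f₂ := fun y => S ((y, H y + (δ : ℂ) • a₁ y), χ (ℓ y) * μ y))
    (eventually_nhdsSet_iff_forall.2 fun z hz => (ha z hz.1.1 hz.1.2 hz.2.2).mono fun y e => by
      rw [← e, smul_add, smul_inv_smul₀ hδc]
      abel)
  rw [eventually_nhdsSet_iff_forall] at f1 f2
  have n1 : ∀ y ∈ A, α ≤ (ℓ y).re → ‖(δ : ℂ) • a₁ y‖ ≤ 6 * δ := fun y hy p => by
    rw [nδ]
    nlinarith [(ha₁ y hy p).2]
  have n2 : ∀ y ∈ A, (ℓ y).re ≤ β → ‖(δ : ℂ) • a₂ y‖ ≤ δ := fun y hy p => by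
    rw [nδ]
    nlinarith [(ha₂ y hy p).2]
  refine ⟨f, fun y hy => ?_, fun y hy p => ?_, fun y hy p => ?_⟩
  · rcases le_total (ℓ y).re β with p | p
    · have e := f1 y ⟨hy, p⟩
      refine ⟨((hH y (hAA1 hy)).1.add ((ha₂ y hy p).1.const_smul (c := (δ : ℂ)))).congr
        (e.mono fun _ k => k.symm), ?_⟩
      rw [e.self_of_nhds]
      exact K1 _ ((n2 y hy p).trans d1) y (hAA1 hy)
    · have p' : α ≤ (ℓ y).re := l2.le.trans p
      have e := f2 y ⟨hy, p'⟩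
      have hy1 : y ∈ C1 := ⟨hAA1 hy, l1.le.trans p'⟩
      have aS := (hS _ (inN _ hy1 _ (n1 y hy p'))).2 (χ (ℓ y) * μ y)
      have aH : AnalyticAt ℂ (fun y => H y + (δ : ℂ) • a₁ y) y :=
        (hH y hy1.1).1.add ((ha₁ y hy p').1.const_smul (c := (δ : ℂ)))
      refine ⟨(aS.1.comp_of_eq ((analyticAt_id.prod aH).prod (aχ y hy1)) rfl).congr
        (e.mono fun _ k => k.symm), ?_⟩
      rw [e.self_of_nhds]
      exact aS.2.1
  · have p' : (ℓ y).re ≤ β := by linarith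
    rw [(f1 y ⟨hy, p'⟩).self_of_nhds]
    have e : H y + (δ : ℂ) • a₂ y - H₀ y = (H y - H₀ y) + (δ : ℂ) • a₂ y := by abel
    rw [e]
    linarith [norm_add_le (H y - H₀ y) ((δ : ℂ) • a₂ y), hHl y (hAA1 hy) p, n2 y hy p']
  · have p' : α ≤ (ℓ y).re := by linarith
    have hy1 : y ∈ C1 := ⟨hAA1 hy, l1.le.trans p'⟩
    rw [(f2 y ⟨hy, p'⟩).self_of_nhds]
    refine (K0 y hy1 _ _ (near y hy1 _ (n1 y hy p')) ?_).2
    rw [← sub_one_mul]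
    exact (prod y hy1 _ ((Kχ _ (hRb _ hy1.1)).2 p)).trans (min_le_right _ _)

end Link

theorem rch_base (hΩ : IsOpen Ω) (ℓ : E →L[ℂ] ℂ) {H₀ : E → ℂ × ℂ} {A' : Set E} (a : ℝ)
    (h : Sct Ω A' H₀) : Rch Ω ℓ H₀ A' a H₀ :=
  fun _ _ _ _ hA _ _ hε => ⟨H₀, fun y hy => h y (interior_subset (hA hy)),
    fun _ _ _ => by simpa using hε.le, fun _ _ _ => by simpa using hε.le⟩

theorem rch_inv (hΩ : IsOpen Ω) (ℓ : E →L[ℂ] ℂ) (H₀ : E → ℂ × ℂ) {A' : Set E}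
    (hA : IsCompact A') (hc : Convex ℝ A') (a : ℝ) :
    FInv Ω {y ∈ A' | a ≤ (ℓ y).re} (Rch Ω ℓ H₀ A' a) :=
  ⟨fun Q Q' e hR A c h1 h2 h3 h4 ε hε => by
    obtain ⟨H, k1, k2, k3⟩ := hR A c h1 h2 h3 h4 ε hε
    exact ⟨H, k1, k2, fun y hy p =>
      e (x := y) ⟨interior_subset (h3 hy), h4.le.trans p⟩ ▸ k3 y hy p⟩,
    fun _ _ _ _ hN hS h hR => Link.flow hΩ ℓ H₀ a hN hS h hR⟩

end Vale.Agent.P290
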