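import Vale.Agent.P290Z.Bas

/-! The flows of the model. -/

open Set Filter Metric
open scoped Manifold ContDiff Topology

noncomputable section

namespace Vale.Agent.P290

variable {t : Tk}

namespace MFlo

theorem yc_Sm (γ : ℂ × ℂ → ℂ) (F : Finset (Fin 4 → ℤ)) (x : (ℂ × ℂ) × ℂ × ℂ) (τ : ℂ) :
    yc γ x.1.2 x.1.1 (Sm t γ F (x, τ)) = yc γ x.1.2 x.1.1 x.2 := by
  simp only [Sm]
  rw [yc]
  ring

theorem spd_Sm (γ : ℂ × ℂ → ℂ) (F : Finset (Fin 4 → ℤ)) (x : (ℂ × ℂ) × ℂ × ℂ) (τ : ℂ) :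
    spd t γ F (x.1, Sm t γ F (x, τ)) = spd t γ F x := by
  simp only [spd, yc_Sm]

theorem Sm_of_zero {γ : ℂ × ℂ → ℂ} {F : Finset (Fin 4 → ℤ)} {x : (ℂ × ℂ) × ℂ × ℂ} {τ : ℂ}
    (h : τ * spd t γ F x = 0) : Sm t γ F (x, τ) = x.2 := by
  simp only [Sm, h, add_zero, yc]
  ext <;> simp

theorem Sm_inv (γ : ℂ × ℂ → ℂ) (F : Finset (Fin 4 → ℤ)) (x : (ℂ × ℂ) × ℂ × ℂ) (τ : ℂ) :
    Sm t γ F ((x.1, Sm t γ F (x, τ)), -τ) = x.2 := by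
  have e : (Sm t γ F (x, τ)).1 + -τ * spd t γ F x = x.2.1 := by
    simp only [Sm]
    ring
  rw [Sm]
  simp only [spd_Sm, yc_Sm, e]
  ext <;> simp [yc]

theorem yc_smul (γ : ℂ × ℂ → ℂ) (s : ℂ) {w u : ℂ} (h : w ^ 2 = u) (P : ℂ × ℂ) :
    yc γ s 1 (w • P) = w * yc γ s u P := by
  have e : (1 : ℂ) * (w * P.1) ^ 2 = u * P.1 ^ 2 := by rw [← h]; ring
  simp only [yc, Prod.smul_fst, Prod.smul_snd, smul_eq_mul, e]
  ring

section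

variable {E : Type} [NormedAddCommGroup E] [NormedSpace ℂ E] {γ : ℂ × ℂ → ℂ}

theorem an_yc (hγ : AnalyticOnNhd ℂ γ univ) {s u : E → ℂ} {P : E → ℂ × ℂ} {z : E}
    (hs : AnalyticAt ℂ s z) (hu : AnalyticAt ℂ u z) (hP : AnalyticAt ℂ P z) :
    AnalyticAt ℂ (fun v => yc γ (s v) (u v) (P v)) z := by
  have h1 : AnalyticAt ℂ (fun v => (P v).1) z := analyticAt_fst.comp hP
  have h2 : AnalyticAt ℂ (fun v => (P v).2) z := analyticAt_snd.comp hP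
  have h3 : AnalyticAt ℂ (fun v => (s v, u v * (P v).1 ^ 2)) z := hs.prod (hu.mul (h1.pow 2))
  exact h2.add (h1.mul ((hγ _ (mem_univ _)).comp h3))

theorem an_spd (hγ : AnalyticOnNhd ℂ γ univ) (F : Finset (Fin 4 → ℤ)) (x : (ℂ × ℂ) × ℂ × ℂ) :
    AnalyticAt ℂ (spd t γ F) x := by
  have hu : AnalyticAt ℂ (fun v : (ℂ × ℂ) × ℂ × ℂ => v.1.1) x := analyticAt_fst.comp analyticAt_fst
  have hs : AnalyticAt ℂ (fun v : (ℂ × ℂ) × ℂ × ℂ => v.1.2) x := analyticAt_snd.comp analyticAt_fst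
  have hy := an_yc hγ hs hu analyticAt_snd
  refine hy.mul (Finset.analyticAt_fun_prod _ fun n _ => (hu.mul (hy.pow 2)).sub ?_)
  have hn : AnalyticAt ℂ (fun v : (ℂ × ℂ) × ℂ × ℂ => hv n (bs t v.1.2)) x := by
    simp only [hv_bs]
    refine analyticAt_const.add (analyticAt_const.prod ?_)
    exact (analyticAt_const.mul hs).div_const
  exact (an_yc hγ hs analyticAt_const hn).pow 2

theorem an_Sm (hγ : AnalyticOnNhd ℂ γ univ) (F : Finset (Fin 4 → ℤ))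
    (z : ((ℂ × ℂ) × ℂ × ℂ) × ℂ) : AnalyticAt ℂ (Sm t γ F) z := by
  have hx : AnalyticAt ℂ (fun v : ((ℂ × ℂ) × ℂ × ℂ) × ℂ => v.1.1) z :=
    analyticAt_fst.comp analyticAt_fst
  have hP : AnalyticAt ℂ (fun v : ((ℂ × ℂ) × ℂ × ℂ) × ℂ => v.1.2) z :=
    analyticAt_snd.comp analyticAt_fst
  have hu : AnalyticAt ℂ (fun v : ((ℂ × ℂ) × ℂ × ℂ) × ℂ => v.1.1.1) z := analyticAt_fst.comp hx
  have hs : AnalyticAt ℂ (fun v : ((ℂ × ℂ) × ℂ × ℂ) × ℂ => v.1.1.2) z := analyticAt_snd.comp hx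
  have h1 : AnalyticAt ℂ (fun v : ((ℂ × ℂ) × ℂ × ℂ) × ℂ => v.1.2.1 + v.2 * spd t γ F v.1) z :=
    (analyticAt_fst.comp hP).add (analyticAt_snd.mul ((an_spd hγ F _).comp analyticAt_fst))
  have h3 : AnalyticAt ℂ (fun v : ((ℂ × ℂ) × ℂ × ℂ) × ℂ =>
      (v.1.1.2, v.1.1.1 * (v.1.2.1 + v.2 * spd t γ F v.1) ^ 2)) z := hs.prod (hu.mul (h1.pow 2))
  exact h1.prod ((an_yc hγ hs hu hP).sub (h1.mul ((hγ _ (mem_univ _)).comp h3)))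

end

end MFlo

theorem flo_Sm {γ : ℂ × ℂ → ℂ} (hγ : AnalyticOnNhd ℂ γ univ) {F : Finset (Fin 4 → ℤ)} {C R : ℝ}
    (hC : 0 < C) (hT : Tm t γ F C R) : Flo (MO t) {x | x ∈ MO t ∧ ‖x.1.2‖ < R ∧
      ‖x.1.1‖ * ‖yc γ x.1.2 x.1.1 x.2‖ ^ 2 < C ^ 2} (Sm t γ F) := by
  rintro x ⟨hx, hs, hy⟩
  refine ⟨MFlo.Sm_of_zero (zero_mul _), fun τ => ⟨MFlo.an_Sm hγ F _, ?_, MFlo.Sm_inv γ F x τ⟩⟩
  by_cases h0 : spd t γ F x = 0
  · rw [MFlo.Sm_of_zero (by rw [h0, mul_zero])]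
    exact hx
  have hne : Sm t γ F (x, τ) ≠ 0 := by
    intro e
    have h1 := MFlo.yc_Sm (t := t) γ F x τ
    rw [e] at h1
    have h2 : yc γ x.1.2 x.1.1 x.2 = 0 := by
      rw [← h1]
      simp [yc]
    exact h0 (by rw [spd, h2, zero_mul])
  refine ⟨hne, fun w hw hm => ?_⟩
  obtain ⟨n, hn⟩ := hv_surj hm
  have hn' : hv n (bs t x.1.2) = w • Sm t γ F (x, τ) := hn
  have hw' : w ^ 2 = x.1.1 := hw
  by_cases n0 : n = 0
  · have e : w • Sm t γ F (x, τ) = 0 := by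
      rw [← hn', n0]
      simp [hv]
    exact (smul_eq_zero.1 e).resolve_right hne
  have e : yc γ x.1.2 1 (hv n (bs t x.1.2)) = w * yc γ x.1.2 x.1.1 x.2 := by
    rw [hn', MFlo.yc_smul γ _ hw', MFlo.yc_Sm]
  have hF : n ∈ F := by
    refine hT _ hs.le n n0 ?_
    rw [e]
    refine lt_of_pow_lt_pow_left₀ 2 hC.le ?_
    rw [norm_mul, mul_pow, ← norm_pow w, hw']
    exact hy
  refine absurd ?_ h0
  rw [spd, Finset.prod_eq_zero hF, mul_zero]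
  rw [e, ← hw']
  ring

theorem dS_Sm {γ : ℂ × ℂ → ℂ} (hγ : AnalyticOnNhd ℂ γ univ) (F : Finset (Fin 4 → ℤ))
    (x : (ℂ × ℂ) × ℂ × ℂ) :
    dS (Sm t γ F) x = (spd t γ F x, -(spd t γ F x * slp γ x)) := by
  have h1 : HasDerivAt (fun τ : ℂ => x.2.1 + τ * spd t γ F x) (spd t γ F x) 0 := by
    simpa using ((hasDerivAt_id (0 : ℂ)).mul_const (spd t γ F x)).const_add x.2.1
  have h3 : AnalyticAt ℂ (fun p : ℂ => (x.1.2, x.1.1 * p ^ 2)) x.2.1 :=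
    analyticAt_const.prod (analyticAt_const.mul (analyticAt_id.pow 2))
  have h4 : AnalyticAt ℂ (fun p : ℂ => p * γ (x.1.2, x.1.1 * p ^ 2)) x.2.1 :=
    analyticAt_id.mul ((hγ _ (mem_univ _)).comp h3)
  have h5 : HasDerivAt (fun p : ℂ => p * γ (x.1.2, x.1.1 * p ^ 2)) (slp γ x)
      (x.2.1 + 0 * spd t γ F x) := by
    rw [zero_mul, add_zero]
    exact h4.differentiableAt.hasDerivAt
  have h6 := (h5.comp (0 : ℂ) h1).const_sub (yc γ x.1.2 x.1.1 x.2)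
  have h7 := (h1.prodMk h6).deriv
  rw [mul_comm (slp γ x)] at h7
  exact h7

end Vale.Agent.P290
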