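import Vale.Agent.P290Z.Tame
import Vale.Agent.P290Z.MFlo

/-! The model is flexible. -/

open Set Filter Metric
open scoped Manifold ContDiff Topology

noncomputable section

namespace Vale.Agent.P290

variable {t : Tk}

namespace MFlex

variable {γ₀ : ℂ × ℂ → ℂ} {a₁ : ℂ → ℂ} {β : ℂ}

/-- An affine function of `r`. -/
def ev (r : ℝ × ℝ) (i : ℂ × ℂ × ℂ) : ℂ := i.1 + r.1 * i.2.1 + r.2 * i.2.2

/-- The coefficients of `yc`. -/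
def co (γ₀ : ℂ × ℂ → ℂ) (a₁ : ℂ → ℂ) (β s u : ℂ) (P : ℂ × ℂ) : ℂ × ℂ × ℂ :=
  (P.2 + P.1 * γ₀ (s, u * P.1 ^ 2), β * (P.1 * a₁ (u * P.1 ^ 2)),
    β * (P.1 * (1 - Complex.I * a₁ (u * P.1 ^ 2))))

theorem aff3 (s : Finset (ℂ × ℂ × ℂ)) (h : ∀ i ∈ s, i ≠ 0) :
    ∃ r : ℝ × ℝ, |r.1| ≤ 1 ∧ |r.2| ≤ 1 ∧ ∀ i ∈ s, ev r i ≠ 0 := by
  refine exists_aff s (fun i => i.1) (fun i => i.2.1) (fun i => i.2.2) fun i hi => ?_
  by_contra hc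
  simp only [not_or, not_not] at hc
  exact h i hi (Prod.ext hc.1 (Prod.ext hc.2.1 hc.2.2))

theorem yc_eq (r : ℝ × ℝ) (s u : ℂ) (P : ℂ × ℂ) :
    yc (gam γ₀ a₁ β r) s u P = ev r (co γ₀ a₁ β s u P) := by
  simp only [yc, gam, ev, co]
  ring

theorem co_smul {w u : ℂ} (hw : w ^ 2 = u) (s : ℂ) (P : ℂ × ℂ) :
    w • co γ₀ a₁ β s u P = co γ₀ a₁ β s 1 (w • P) := by
  have e : 1 * (w * P.1) ^ 2 = u * P.1 ^ 2 := by rw [← hw]; ring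
  simp only [co, Prod.smul_mk, Prod.smul_fst, Prod.smul_snd, smul_eq_mul, e, Prod.mk.injEq]
  refine ⟨?_, ?_, ?_⟩ <;> ring

theorem co_inj (hβ : β ≠ 0) {s u : ℂ} {P Q : ℂ × ℂ}
    (h : co γ₀ a₁ β s u P = co γ₀ a₁ β s u Q) : P = Q := by
  simp only [co, Prod.mk.injEq] at h
  obtain ⟨h1, h2, h3⟩ := h
  have e : P.1 = Q.1 := mul_left_cancel₀ hβ (by linear_combination h3 + Complex.I * h2)
  rw [e] at h1
  exact Prod.ext e (add_right_cancel h1)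

theorem co_zero (s u : ℂ) : co γ₀ a₁ β s u 0 = 0 := by
  simp [co]

theorem co_ne (h : Nm t) (hβ : β ≠ 0) {x : (ℂ × ℂ) × ℂ × ℂ} (hx : x ∈ MO t) {w : ℂ}
    (hw : w ^ 2 = x.1.1) {n : Fin 4 → ℤ} (hn : n ≠ 0) :
    w • co γ₀ a₁ β x.1.2 x.1.1 x.2 - co γ₀ a₁ β x.1.2 1 (hv n (bs t x.1.2)) ≠ 0 := by
  intro e
  rw [co_smul hw, sub_eq_zero] at e
  have e1 := co_inj hβ e
  have e2 : w = 0 := hx.2 w hw (by rw [e1]; exact hv_mem _ _)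
  rw [e2, zero_smul] at e1
  exact hn (h.hv_eq e1.symm)

/-- A finite set of conditions which make the speed nonzero. -/
theorem exists_T (h : Nm t) (hβ : β ≠ 0) {F : Finset (Fin 4 → ℤ)} (hF : 0 ∉ F)
    {x : (ℂ × ℂ) × ℂ × ℂ} (hx : x ∈ MO t) : ∃ T : Finset (ℂ × ℂ × ℂ), (∀ i ∈ T, i ≠ 0) ∧
      ∀ r, (∀ i ∈ T, ev r i ≠ 0) → spd t (gam γ₀ a₁ β r) F x ≠ 0 := by
  classical
  obtain ⟨w, hw⟩ := IsAlgClosed.exists_pow_nat_eq x.1.1 (n := 2) two_pos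
  have hw' : (-w) ^ 2 = x.1.1 := by rw [neg_sq, hw]
  refine ⟨insert (co γ₀ a₁ β x.1.2 x.1.1 x.2)
    ((F.image fun n => w • co γ₀ a₁ β x.1.2 x.1.1 x.2 - co γ₀ a₁ β x.1.2 1 (hv n (bs t x.1.2))) ∪
      F.image fun n => (-w) • co γ₀ a₁ β x.1.2 x.1.1 x.2 -
        co γ₀ a₁ β x.1.2 1 (hv n (bs t x.1.2))), fun i hi => ?_, fun r hr => ?_⟩
  · simp only [Finset.mem_insert, Finset.mem_union, Finset.mem_image] at hi
    rcases hi with rfl | ⟨n, hn, rfl⟩ | ⟨n, hn, rfl⟩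
    · exact fun e => hx.1 (co_inj hβ (e.trans (co_zero _ _).symm))
    · exact co_ne h hβ hx hw fun e => hF (e ▸ hn)
    · exact co_ne h hβ hx hw' fun e => hF (e ▸ hn)
  · unfold spd
    simp only [yc_eq]
    refine mul_ne_zero (hr _ (Finset.mem_insert_self _ _)) (Finset.prod_ne_zero_iff.2 ?_)
    intro n hn e
    have h1 := hr _ (Finset.mem_insert_of_mem
      (Finset.mem_union_left _ (Finset.mem_image_of_mem _ hn)))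
    have h2 := hr _ (Finset.mem_insert_of_mem
      (Finset.mem_union_right _ (Finset.mem_image_of_mem _ hn)))
    refine mul_ne_zero h1 h2 ?_
    generalize co γ₀ a₁ β x.1.2 x.1.1 x.2 = p at e ⊢
    generalize co γ₀ a₁ β x.1.2 1 (hv n (bs t x.1.2)) = q at e ⊢
    rw [← hw] at e
    simp only [ev, Prod.fst_sub, Prod.snd_sub, Prod.smul_fst, Prod.smul_snd, smul_eq_mul] at e ⊢
    linear_combination -e

theorem gam_an (h₀ : AnalyticOnNhd ℂ γ₀ univ) (ha : Differentiable ℂ a₁) (β : ℂ) (r : ℝ × ℝ) :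
    AnalyticOnNhd ℂ (gam γ₀ a₁ β r) univ := by
  intro v hv
  have h1 : AnalyticAt ℂ (fun v : ℂ × ℂ => a₁ v.2) v :=
    (ha.analyticAt v.2).comp analyticAt_snd
  exact ((h₀ v hv).add (analyticAt_const.mul h1)).add
    (analyticAt_const.mul (analyticAt_const.sub (analyticAt_const.mul h1)))

theorem slp_eq (h₀ : AnalyticOnNhd ℂ γ₀ univ) (ha : Differentiable ℂ a₁) (β : ℂ)
    (x : (ℂ × ℂ) × ℂ × ℂ) : ∃ A D : ℂ, ∀ r : ℝ × ℝ,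
      slp (gam γ₀ a₁ β r) x = ev r (A, β * D, β * (1 - Complex.I * D)) := by
  have d0 : Differentiable ℂ γ₀ := fun v => (h₀ v (mem_univ v)).differentiableAt
  have d1 : Differentiable ℂ fun p : ℂ => p * γ₀ (x.1.2, x.1.1 * p ^ 2) := by fun_prop
  have d2 : Differentiable ℂ fun p : ℂ => p * a₁ (x.1.1 * p ^ 2) := by fun_prop
  refine ⟨deriv (fun p : ℂ => p * γ₀ (x.1.2, x.1.1 * p ^ 2)) x.2.1,
    deriv (fun p : ℂ => p * a₁ (x.1.1 * p ^ 2)) x.2.1, fun r => ?_⟩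
  have k := ((d1 x.2.1).hasDerivAt.add ((d2 x.2.1).hasDerivAt.const_mul ((r.1 : ℂ) * β))).add
    (((hasDerivAt_id x.2.1).sub ((d2 x.2.1).hasDerivAt.const_mul Complex.I)).const_mul
      ((r.2 : ℂ) * β))
  have e : (fun p : ℂ => p * gam γ₀ a₁ β r (x.1.2, x.1.1 * p ^ 2)) =
      ((fun p : ℂ => p * γ₀ (x.1.2, x.1.1 * p ^ 2)) +
        fun p : ℂ => (r.1 : ℂ) * β * (p * a₁ (x.1.1 * p ^ 2))) +
        fun p : ℂ => (r.2 : ℂ) * β * (p - Complex.I * (p * a₁ (x.1.1 * p ^ 2))) := by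
    funext p
    simp only [gam, Pi.add_apply]
    ring
  unfold slp
  rw [e]
  refine k.deriv.trans ?_
  simp only [ev]
  ring

theorem open_N (h : Nm t) {γ : ℂ × ℂ → ℂ} (hγ : AnalyticOnNhd ℂ γ univ) (C R : ℝ) :
    IsOpen {x | x ∈ MO t ∧ ‖x.1.2‖ < R ∧ ‖x.1.1‖ * ‖yc γ x.1.2 x.1.1 x.2‖ ^ 2 < C ^ 2} := by
  have c0 : Continuous γ := continuous_iff_continuousAt.2 fun v => (hγ v (mem_univ v)).continuousAt
  have o1 : IsOpen {x : (ℂ × ℂ) × ℂ × ℂ | ‖x.1.2‖ < R} := isOpen_lt (by fun_prop) continuous_const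
  have o2 : IsOpen {x : (ℂ × ℂ) × ℂ × ℂ | ‖x.1.1‖ * ‖yc γ x.1.2 x.1.1 x.2‖ ^ 2 < C ^ 2} := by
    refine isOpen_lt ?_ continuous_const
    unfold yc
    fun_prop
  exact (isOpen_MO h).inter (o1.inter o2)

theorem mem_N {γ : ℂ × ℂ → ℂ} {ρ : ℝ} {x : (ℂ × ℂ) × ℂ × ℂ} (hx : ‖x‖ ≤ ρ)
    (hγ : ∀ s η : ℂ, ‖s‖ ≤ ρ + 1 → ‖η‖ ≤ ρ ^ 3 → ‖γ (s, η)‖ ≤ 1) :
    ‖x.1.2‖ < ρ + 1 ∧ ‖x.1.1‖ * ‖yc γ x.1.2 x.1.1 x.2‖ ^ 2 < (4 * ρ ^ 3 + 1) ^ 2 := by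
  have h0 : 0 ≤ ρ := (norm_nonneg _).trans hx
  have h1 : ‖x.1.1‖ ≤ ρ := ((norm_fst_le _).trans (norm_fst_le _)).trans hx
  have h2 : ‖x.1.2‖ ≤ ρ := ((norm_snd_le _).trans (norm_fst_le _)).trans hx
  have h3 : ‖x.2.1‖ ≤ ρ := ((norm_fst_le _).trans (norm_snd_le _)).trans hx
  have h4 : ‖x.2.2‖ ≤ ρ := ((norm_snd_le _).trans (norm_snd_le _)).trans hx
  have h5 : ‖x.1.1 * x.2.1 ^ 2‖ ≤ ρ ^ 3 := by
    rw [norm_mul, norm_pow]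
    calc ‖x.1.1‖ * ‖x.2.1‖ ^ 2 ≤ ρ * ρ ^ 2 := by gcongr
      _ = ρ ^ 3 := by ring
  have h6 := hγ x.1.2 _ (by linarith) h5
  have h7 : ‖yc γ x.1.2 x.1.1 x.2‖ ≤ 2 * ρ := by
    unfold yc
    refine (norm_add_le _ _).trans ?_
    rw [norm_mul]
    have : ‖x.2.1‖ * ‖γ (x.1.2, x.1.1 * x.2.1 ^ 2)‖ ≤ ρ * 1 := by gcongr
    linarith
  refine ⟨by linarith, ?_⟩
  have h8 : ‖x.1.1‖ * ‖yc γ x.1.2 x.1.1 x.2‖ ^ 2 ≤ ρ * (2 * ρ) ^ 2 := by gcongr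
  have h9 : 0 ≤ ρ ^ 3 := by positivity
  nlinarith

end MFlex

open MFlex in
theorem model_flex (h : Nm t) (hd : DirH t) : Flex (MO t) univ := by
  classical
  intro Γ hΓ hc _ x₀ hx₀
  obtain ⟨ρ, hρ⟩ := hc.isBounded.exists_norm_le
  have h0 : 0 ≤ ρ := (norm_nonneg _).trans (hρ x₀ hx₀)
  have hC : 0 < 4 * ρ ^ 3 + 1 := by positivity
  obtain ⟨γ₀, a₁, β, F, h₀, ha, hβ, hF, hr⟩ := exists_tame h hd (ρ ^ 3) (4 * ρ ^ 3 + 1) (ρ + 1)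
  obtain ⟨T, hT, hsp⟩ := exists_T (γ₀ := γ₀) (a₁ := a₁) h hβ hF (hΓ hx₀)
  obtain ⟨A, D, hsl⟩ := slp_eq h₀ ha β x₀
  obtain ⟨r, r1, r2, hrT⟩ := aff3 T hT
  obtain ⟨r', r1', r2', hrT'⟩ := aff3
    (insert (A - slp (gam γ₀ a₁ β r) x₀, β * D, β * (1 - Complex.I * D)) T) fun i hi => by
      rcases Finset.mem_insert.1 hi with rfl | hi
      · intro e
        simp only [Prod.mk_eq_zero] at e
        exact hβ (by linear_combination e.2.2 + Complex.I * e.2.1)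
      · exact hT i hi
  have f1 := flo_Sm (gam_an h₀ ha β r) hC (hr r r1 r2).1
  have f2 := flo_Sm (gam_an h₀ ha β r') hC (hr r' r1' r2').1
  refine ⟨Sm t (gam γ₀ a₁ β r) F, Sm t (gam γ₀ a₁ β r') F, _,
    (open_N h (gam_an h₀ ha β r) (4 * ρ ^ 3 + 1) (ρ + 1)).inter
      (open_N h (gam_an h₀ ha β r') (4 * ρ ^ 3 + 1) (ρ + 1)),
    fun x hx => ⟨⟨hΓ hx, mem_N (hρ x hx) (hr r r1 r2).2⟩, hΓ hx, mem_N (hρ x hx) (hr r' r1' r2').2⟩,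
    fun x hx => f1 x hx.1, fun x hx => f2 x hx.2, ?_⟩
  rw [dS_Sm (gam_an h₀ ha β r), dS_Sm (gam_an h₀ ha β r')]
  intro e
  have k1 := hsp r hrT
  have k2 := hsp r' fun i hi => hrT' i (Finset.mem_insert_of_mem hi)
  have k3 := hrT' _ (Finset.mem_insert_self _ _)
  refine mul_ne_zero (mul_ne_zero k1 k2) k3 ?_
  have k4 := hsl r'
  simp only [ev] at e k4 ⊢
  rw [k4] at e
  linear_combination -e

end Vale.Agent.P290
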