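import Vale.Agent.P290Z.Bas

/-! The shear of the model. -/

open Set Filter Metric
open scoped Manifold ContDiff Topology

noncomputable section

namespace Vale.Agent.P290

variable {t : Tk}

theorem MShr.gap (h : Nm t) {Γ : Set ((ℂ × ℂ) × ℂ × ℂ)} (hΓ : IsCompact Γ) (hs : Γ ⊆ MO t) :
    ∃ δ > (0 : ℝ), ∀ e : ℂ × ℂ, ‖e‖ < δ → ∀ x ∈ Γ, ∀ w : ℂ, w ^ 2 = x.1.1 →
      (w • x.2 + e) + (w • x.2 + e) ∈ Lat (bs t x.1.2) → (w • x.2 + e) + (w • x.2 + e) = 0 := by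
  obtain ⟨C, hC⟩ := hΓ.isBounded.exists_norm_le
  have hK : IsCompact ((Γ ×ˢ closedBall (0 : ℂ) (C + 1)) ∩ {p | p.2 ^ 2 = p.1.1.1}) :=
    (hΓ.prod (isCompact_closedBall _ _)).inter_right (isClosed_eq (by fun_prop) (by fun_prop))
  have key := hK.eventually_forall_of_forall_eventually (x₀ := (0 : ℂ × ℂ))
    (P := fun e p => (p.2 • p.1.2 + e) + (p.2 • p.1.2 + e) ∈ Lat (bs t p.1.1.2) →
      (p.2 • p.1.2 + e) + (p.2 • p.1.2 + e) = 0) fun p hp => by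
    have c1 : Continuous fun z : (ℂ × ℂ) × ((ℂ × ℂ) × ℂ × ℂ) × ℂ =>
        (z.2.2 • z.2.1.2 + z.1) + (z.2.2 • z.2.1.2 + z.1) := by fun_prop
    have c2 : Continuous fun z : (ℂ × ℂ) × ((ℂ × ℂ) × ℂ × ℂ) × ℂ => bs t z.2.1.1.2 :=
      (cont_bs t).comp (by fun_prop)
    by_cases hw : p.2 = 0
    · obtain ⟨δ, hδ, h1⟩ := lat_small (h.li p.1.1.2)
      filter_upwards [(c2.tendsto (0, p)).eventually h1,
        (c1.norm.tendsto (0, p)).eventually (gt_mem_nhds (by simpa [hw] using hδ))] with z h2 h3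
      exact fun h4 => h2 _ h4 h3
    · have h1 := lat_not (h.li p.1.1.2) (x₀ := (p.2 • p.1.2 + 0) + (p.2 • p.1.2 + 0)) fun h2 =>
        hw ((hs hp.1.1).2 _ hp.2 (by simpa only [add_zero] using h2))
      filter_upwards [((c1.prodMk c2).tendsto (0, p)).eventually h1] with z h2
      exact fun h4 => absurd h4 h2
  obtain ⟨δ, hδ, h1⟩ := Metric.eventually_nhds_iff.1 key
  refine ⟨δ, hδ, fun e he x hx w hw => h1 (by rwa [dist_zero_right]) (x, w) ⟨⟨hx, ?_⟩, hw⟩⟩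
  have h2 : ‖w‖ ^ 2 ≤ C := by
    rw [← norm_pow, hw]
    exact (norm_fst_le _).trans ((norm_fst_le _).trans (hC x hx))
  rw [mem_closedBall_zero_iff]
  nlinarith [norm_nonneg w]

theorem exists_shr (h : Nm t) {Γ : Set ((ℂ × ℂ) × ℂ × ℂ)} (hΓ : IsCompact Γ) (hs : Γ ⊆ MO t)
    (R : ℝ) : ∃ ε > (0 : ℝ), ∀ a₁ : ℂ → ℂ,
      (∀ (ζ : ℂ) (k : ℤ), 2 * ζ.im = k → ‖ζ * a₁ (ζ ^ 2) - ζ.im‖ ≤ ε) → ∀ x ∈ Γ, ∀ τ : ℂ,
        ‖τ‖ ≤ R → ((x.1.1, x.1.2 + τ), shr a₁ x.1.1 x.2 τ) ∈ MO t := by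
  obtain ⟨δ, hδ, h1⟩ := MShr.gap h hΓ hs
  refine ⟨δ / (|R| + 1), by positivity, fun a₁ ha x hx τ hτ => ?_⟩
  have h0 : shr a₁ x.1.1 x.2 τ ≠ 0 := fun e => by
    have e1 : x.2.1 = 0 := congrArg Prod.fst e
    have e2 : x.2.2 + τ * x.2.1 * a₁ (x.1.1 * x.2.1 ^ 2) = 0 := congrArg Prod.snd e
    rw [e1, mul_zero, zero_mul, add_zero] at e2
    exact (hs hx).1 (Prod.ext e1 e2)
  refine ⟨h0, fun w hw hm => ?_⟩
  obtain ⟨n, hn⟩ := hv_surj hm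
  have h2 := h.im (x.1.2 + τ) n
  have h3 : (hv n (bs t (x.1.2 + τ))).1 = w * x.2.1 := congrArg Prod.fst hn
  rw [h3] at h2
  have h4 : ((w * x.2.1).im : ℂ) = n 3 / 2 := by
    rw [← Complex.ofReal_intCast, ← h2]
    push_cast
    ring
  have h5 : w • x.2 + (0, τ * (w * x.2.1 * a₁ ((w * x.2.1) ^ 2) - (w * x.2.1).im)) =
      hv n (bs t x.1.2) := by
    rw [hv_bs] at hn
    rw [hv_bs, eq_sub_of_add_eq hn, h4, mul_pow, hw]
    exact Prod.ext (by simp [shr]) (by simp [shr]; ring)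
  have h6 := h1 (0, τ * (w * x.2.1 * a₁ ((w * x.2.1) ^ 2) - (w * x.2.1).im)) (by
    rw [Prod.norm_mk, norm_zero, max_eq_right (norm_nonneg _), norm_mul]
    refine (mul_le_mul (hτ.trans (le_abs_self R)) (ha _ _ h2) (norm_nonneg _)
      (abs_nonneg R)).trans_lt ?_
    rw [← mul_div_assoc, div_lt_iff₀ (by positivity)]
    linarith) x hx w hw (by rw [h5]; exact hv_mem _ _)
  rw [h5, ← two_smul ℂ, smul_eq_zero, or_iff_right two_ne_zero] at h6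
  rw [h.hv_eq h6] at hn
  exact (smul_eq_zero.1 (hn.symm.trans (by simp [hv]))).resolve_right h0

end Vale.Agent.P290
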