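import Vale.Agent.P290Z.Defs

/-! Odd entire functions; generic parameters. -/

open Set Filter Metric
open scoped Manifold ContDiff Topology

noncomputable section

namespace Vale.Agent.P290

theorem odd_ent {a : ℂ → ℂ} (ha : Differentiable ℂ a) (ho : ∀ ζ, a (-ζ) = -a ζ) :
    ∃ a₁ : ℂ → ℂ, Differentiable ℂ a₁ ∧ ∀ ζ, a ζ = ζ * a₁ (ζ ^ 2) := by
  have hg : Differentiable ℂ (dslope a 0) := differentiableOn_univ.1
    ((Complex.differentiableOn_dslope univ_mem).2 ha.differentiableOn)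
  have h0 : a 0 = 0 := by
    have := ho 0
    rw [neg_zero] at this
    linear_combination this / 2
  have e : ∀ ζ, a ζ = ζ * dslope a 0 ζ := fun ζ => by
    simpa [h0] using (sub_smul_dslope a 0 ζ).symm
  have ev : ∀ u v : ℂ, u ^ 2 = v ^ 2 → dslope a 0 u = dslope a 0 v := fun u v h => by
    rcases sq_eq_sq_iff_eq_or_eq_neg.1 h with rfl | rfl
    · rfl
    · rcases eq_or_ne v 0 with rfl | hv
      · rw [neg_zero]
      · exact mul_left_cancel₀ (neg_ne_zero.2 hv) (by rw [← e, ho, e, neg_mul])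
  have sq : ∀ η : ℂ, (η ^ (2⁻¹ : ℂ)) ^ 2 = η := fun η => Complex.cpow_ofNat_inv_pow η 2
  have d : ∀ η : ℂ, η ≠ 0 → DifferentiableAt ℂ (fun η => dslope a 0 (η ^ (2⁻¹ : ℂ))) η := by
    intro x hx
    have k : (fun η => dslope a 0 (η ^ (2⁻¹ : ℂ))) =
        fun η => dslope a 0 (x ^ (2⁻¹ : ℂ) * (η / x) ^ (2⁻¹ : ℂ)) := funext fun η =>
      ev _ _ (by rw [mul_pow, sq, sq, sq, mul_div_cancel₀ _ hx])
    rw [k]
    exact (hg _).comp x (((differentiableAt_id.div_const x).cpow_const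
      (by simp [div_self hx])).const_mul _)
  refine ⟨fun η => dslope a 0 (η ^ (2⁻¹ : ℂ)), fun η => ?_, fun ζ =>
    (e ζ).trans (congrArg _ (ev _ _ (sq _).symm))⟩
  rcases eq_or_ne η 0 with rfl | h
  · exact (Complex.analyticAt_of_differentiable_on_punctured_nhds_of_continuousAt
      (eventually_mem_nhdsWithin.mono d) (hg.continuous.continuousAt.comp
        (Complex.continuousAt_cpow_const_of_re_pos (.inl le_rfl) (by simp)))).differentiableAt
  · exact d η h

theorem exists_aff {ι : Type} (s : Finset ι) (A B C : ι → ℂ)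
    (h : ∀ i ∈ s, A i ≠ 0 ∨ B i ≠ 0 ∨ C i ≠ 0) : ∃ r : ℝ × ℝ, |r.1| ≤ 1 ∧ |r.2| ≤ 1 ∧
      ∀ i ∈ s, A i + r.1 * B i + r.2 * C i ≠ 0 := by
  have f : ∀ i ∈ s, {x : ℝ | A i + x * B i + (x ^ 2 : ℝ) * C i = 0}.Finite := fun i hi => by
    by_contra k
    have p := Polynomial.eq_zero_of_infinite_isRoot (Polynomial.C (A i) +
      Polynomial.C (B i) * Polynomial.X + Polynomial.C (C i) * Polynomial.X ^ 2)
      ((Set.Infinite.image Complex.ofReal_injective.injOn k).mono (by
        rintro _ ⟨x, hx, rfl⟩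
        simp only [mem_ofPred_eq, Complex.ofReal_pow] at hx
        simp
        linear_combination hx))
    have p0 := congrArg (Polynomial.coeff · 0) p
    have p1 := congrArg (Polynomial.coeff · 1) p
    have p2 := congrArg (Polynomial.coeff · 2) p
    simp [Polynomial.coeff_X, Polynomial.coeff_C] at p0 p1 p2
    simpa [p0, p1, p2] using h i hi
  obtain ⟨x, hx, k⟩ := (Icc_infinite (show (-1 : ℝ) < 1 by norm_num)).exists_notMem_finite
    (s.finite_toSet.biUnion f)
  have := abs_le.2 hx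
  exact ⟨(x, x ^ 2), this, by rw [abs_pow]; exact pow_le_one₀ (abs_nonneg x) this, fun i hi e =>
    k (mem_biUnion hi e)⟩

end Vale.Agent.P290
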