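import Vale.Agent.P290Z.Pull

/-! The admissible set. -/

open Set Filter Metric
open scoped Manifold ContDiff Topology

noncomputable section

namespace Vale.Agent.P290

variable {E : Type} [NormedAddCommGroup E] [NormedSpace ℂ E] [FiniteDimensional ℂ E]

variable {t : Tk}

theorem Pres.ev {ψ : E → ℂ} {d : E → Dt} {S : Set E} (h : Pres t ψ d S) :
    ∀ᶠ z in 𝓝ˢ S, Pres t ψ d {z} := by
  refine eventually_nhdsSet_iff_forall.2 fun z₀ hz => ?_
  obtain ⟨h1, n, f, k, h2, h3, h4⟩ := h z₀ hz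
  filter_upwards [h1.eventually_analyticAt, h2.eventually_analyticAt, h3.eventually_analyticAt,
    h4.eventually_nhds] with z k1 k2 k3 k4
  rintro _ rfl
  exact ⟨k1, n, f, k, k2, k3, k4⟩

theorem exists_locM {ψ : E → ℂ} {d : E → Dt} (σ : ℂ → ℂ) (hσ : Differentiable ℂ σ) {y : E}
    (hy : Pres t ψ d {y}) : ∃ O p, y ∈ O ∧ LocM t (Om t ψ d σ) ψ σ O p := by
  obtain ⟨h1, n, f, k, h2, h3, h4⟩ := hy y rfl
  refine ⟨interior {z | AnalyticAt ℂ ψ z ∧ AnalyticAt ℂ f z ∧ AnalyticAt ℂ k z ∧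
    Rel t (ψ z) (n, f z, k z) (d z)}, fun x => pv (n, f x.1, k x.1) (σ x.2),
    mem_interior_iff_mem_nhds.2 (h1.eventually_analyticAt.and (h2.eventually_analyticAt.and
      (h3.eventually_analyticAt.and h4))), isOpen_interior, fun z hz => (interior_subset hz).1,
    fun x hx => ?_, fun x hx => ?_⟩
  · obtain ⟨-, k2, k3, -⟩ := interior_subset hx.1
    exact (k2.comp analyticAt_fst).add (analyticAt_const.prod
      (((hσ.analyticAt x.2).comp analyticAt_snd).mul (k3.comp analyticAt_fst)))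
  · obtain ⟨k1, k2, k3, k4⟩ := interior_subset hx
    refine (and_iff_right ?_).trans (k4.gd _ _).symm
    rintro _ rfl
    exact ⟨k1, n, f, k, k2, k3,
      Filter.Eventually.mono (mem_interior_iff_mem_nhds.1 hx) fun z hz => hz.2.2.2⟩

theorem isOpen_Om (h : Nm t) (ψ : E → ℂ) (d : E → Dt) {σ : ℂ → ℂ} (hσ : Differentiable ℂ σ) :
    IsOpen (Om t ψ d σ) := by
  refine isOpen_iff_mem_nhds.2 fun x hx => ?_
  obtain ⟨O, p, h1, h2, h3, h4, h5⟩ := exists_locM σ hσ hx.1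
  have c : ContinuousAt (fun x : (E × ℂ) × ℂ × ℂ => ((ψ x.1.1, σ x.1.2), p x.1 + x.2)) x :=
    (((h3 _ h1).continuousAt.comp (f := fun x : (E × ℂ) × ℂ × ℂ => x.1.1) (by fun_prop)).prodMk
      (hσ.continuous.comp (continuous_snd.comp continuous_fst)).continuousAt).prodMk
      (((h4 x.1 ⟨h1, trivial⟩).continuousAt.comp continuousAt_fst).add continuousAt_snd)
  filter_upwards [c.eventually ((isOpen_MO h).mem_nhds ((h5 x h1).1 hx)),
    (continuous_fst.comp continuous_fst).continuousAt.eventually (h2.mem_nhds h1)] with y k1 k2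
  exact (h5 y k2).2 k1

theorem om_loc (h : Nm t) (hd : DirH t) {ψ : E → ℂ} {d : E → Dt} {σ : ℂ → ℂ}
    (hσ : Differentiable ℂ σ) {y : E} (hy : Pres t ψ d {y}) :
    ∃ N ∈ 𝓝 y, Flex (Om t ψ d σ) (N ×ˢ closedBall 0 2) ∧ Trs (Om t ψ d σ) N := by
  obtain ⟨O, p, h1, hL⟩ := exists_locM σ hσ hy
  exact ⟨O, hL.1.mem_nhds h1, fun Γ k1 k2 k3 =>
    hL.flex h hd hσ Γ k1 k2 fun x hx => ⟨(k3 x hx).1, trivial⟩, hL.trs h hσ⟩

theorem gd_near (h : Nm t) {ψ : E → ℂ} {d : E → Dt} {S : Set E} (hS : IsCompact S)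
    (hP : Pres t ψ d S) {s₀ : ℂ} (hg : ∀ z ∈ S, Gd (Lat (bs t s₀)) (ψ z) (pv (d z) s₀)) :
    ∃ r > (0 : ℝ), ∀ᶠ z in 𝓝ˢ S, ∀ s, ‖s - s₀‖ ≤ r → Gd (Lat (bs t s)) (ψ z) (pv (d z) s) := by
  obtain ⟨u, v, hu, hv, h1, h2, h3⟩ := generalized_tube_lemma hS (isCompact_singleton (x := s₀))
    ((isOpen_Om h ψ d differentiable_id).preimage
      (f := fun x : E × ℂ => (x, (0 : ℂ × ℂ))) (by fun_prop)) fun x hx => by
    refine ⟨fun z hz => hP z (hz ▸ hx.1), ?_⟩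
    rw [add_zero, show x.2 = s₀ from hx.2]
    exact hg _ hx.1
  obtain ⟨r, hr, h4⟩ := nhds_basis_closedBall.mem_iff.1 (hv.mem_nhds (h2 rfl))
  refine ⟨r, hr, Filter.Eventually.mono (hu.mem_nhdsSet.2 h1) fun z hz s hs => ?_⟩
  have := (h3 (mk_mem_prod hz (h4 (mem_closedBall_iff_norm.2 hs)))).2
  rwa [add_zero] at this

end Vale.Agent.P290
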