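import Vale.Agent.P290Z.Evp
import Vale.Agent.P290Z.OmA

/-! Stability of the target property. -/

open Set Filter Metric
open scoped Manifold ContDiff Topology

noncomputable section

namespace Vale.Agent.P290

variable {E : Type} [NormedAddCommGroup E] [NormedSpace ℂ E] [FiniteDimensional ℂ E]
  {X : Type} [MetricSpace X] [ChartedSpace C2 X] [IsManifold 𝓘(ℂ, C2) ω X]
  {t : Tk} {q : ℂ × ℂ → X} {e : ℂ × ℂ → ℂ × ℂ × ℂ → X} {s : ℂ}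

omit [FiniteDimensional ℂ E] in
theorem TgO.loc (hn : Nm t) (h : Kum (Lat (bs t 0)) q e) {ψ : E → ℂ} {d : E → Dt} {z₀ : E}
    (hP : Pres t ψ d {z₀}) {f : E → X} (hf : ContinuousAt f z₀)
    {R ε : ℝ} (hR : 0 ≤ R) (hT : Tg q e t R ε (f z₀) (ψ z₀) (d z₀)) (s₀ : ℂ) :
    ∀ᶠ x : E × (ℂ × ℂ) × ℂ in 𝓝 (z₀, 0),
      Tg q e t R ε (f x.1) (ψ x.1) (sh x.2.1 s₀ x.2.2 (d x.1)) := by
  obtain ⟨hψ, n, a, k, ha, hk, hrel⟩ := hP z₀ rfl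
  have r0 := hrel.self_of_nhds
  have cψ := hψ.continuousAt
  have ca := ha.continuousAt
  have ck := hk.continuousAt
  have g0 : ∀ s : ℂ, ‖s‖ ≤ R → Gd (Lat (bs t s)) (ψ z₀) (pv (n, a z₀, k z₀) s) := fun s hs => by
    have := (r0.gd s 0).2 (by rw [add_zero]; exact hT.1 s hs)
    rwa [add_zero] at this
  have cP : ∀ s : ℂ, ContinuousAt (fun y : (E × (ℂ × ℂ) × ℂ) × ℂ =>
      pv (sh y.1.2.1 s₀ y.1.2.2 (n, a y.1.1, k y.1.1)) y.2) ((z₀, 0), s) := fun s => by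
    have c1 : ContinuousAt (fun y : (E × (ℂ × ℂ) × ℂ) × ℂ => a y.1.1) ((z₀, 0), s) :=
      ContinuousAt.comp (f := fun y : (E × (ℂ × ℂ) × ℂ) × ℂ => y.1.1) ca (by fun_prop)
    have c2 : ContinuousAt (fun y : (E × (ℂ × ℂ) × ℂ) × ℂ => k y.1.1) ((z₀, 0), s) :=
      ContinuousAt.comp (f := fun y : (E × (ℂ × ℂ) × ℂ) × ℂ => y.1.1) ck (by fun_prop)
    simp only [pv, sh]
    fun_prop
  have e0 : ∀ s : ℂ, pv (sh (0 : (ℂ × ℂ) × ℂ).1 s₀ (0 : (ℂ × ℂ) × ℂ).2 (n, a z₀, k z₀)) s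
      = pv (n, a z₀, k z₀) s := fun s => congrArg (fun D => pv D s) (sh_zero s₀ _)
  have h1 : ∀ᶠ x : E × (ℂ × ℂ) × ℂ in 𝓝 (z₀, 0), ∀ s ∈ closedBall (0 : ℂ) R,
      Gd (Lat (bs t s)) (ψ x.1) (pv (sh x.2.1 s₀ x.2.2 (n, a x.1, k x.1)) s) := by
    refine (isCompact_closedBall (0 : ℂ) R).eventually_forall_of_forall_eventually
      (P := fun (x : E × (ℂ × ℂ) × ℂ) (s : ℂ) =>
        Gd (Lat (bs t s)) (ψ x.1) (pv (sh x.2.1 s₀ x.2.2 (n, a x.1, k x.1)) s)) fun s hs => ?_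
    have c3 : ContinuousAt (fun y : (E × (ℂ × ℂ) × ℂ) × ℂ => ψ y.1.1) ((z₀, 0), s) :=
      ContinuousAt.comp (f := fun y : (E × (ℂ × ℂ) × ℂ) × ℂ => y.1.1) cψ (by fun_prop)
    have c4 : ContinuousAt (fun y : (E × (ℂ × ℂ) × ℂ) × ℂ => ((ψ y.1.1, y.2),
        pv (sh y.1.2.1 s₀ y.1.2.2 (n, a y.1.1, k y.1.1)) y.2)) ((z₀, 0), s) :=
      (c3.prodMk continuousAt_snd).prodMk (cP s)
    refine c4.eventually_mem ((isOpen_MO hn).mem_nhds ?_)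
    change Gd (Lat (bs t s)) (ψ z₀) _
    rw [e0]
    exact g0 s (mem_closedBall_zero_iff.1 hs)
  have z0 : ‖(0 : ℂ)‖ ≤ R := by rwa [norm_zero]
  have h2 : ∀ᶠ x : E × (ℂ × ℂ) × ℂ in 𝓝 (z₀, 0),
      dist (evd q e t 0 (ψ x.1) (sh x.2.1 s₀ x.2.2 (n, a x.1, k x.1))) (f x.1) < ε := by
    have c5 : ContinuousAt (fun x : E × (ℂ × ℂ) × ℂ =>
        (ψ x.1, pv (sh x.2.1 s₀ x.2.2 (n, a x.1, k x.1)) 0)) (z₀, 0) :=
      (ContinuousAt.comp (f := fun x : E × (ℂ × ℂ) × ℂ => x.1) cψ continuousAt_fst).prodMk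
        (ContinuousAt.comp (f := fun x : E × (ℂ × ℂ) × ℂ => (x, (0 : ℂ))) (cP 0) (by fun_prop))
    have c6 : ContinuousAt (fun x : ℂ × ℂ × ℂ => evp q e (hv n (bs t 0)) x.1 x.2)
        (ψ z₀, pv (n, a z₀, k z₀) 0) :=
      (evp_hol h (isDisc_lat (hn.li 0)) (hv_mem n _) (g0 0 z0)).continuousAt
    have c7 : ContinuousAt (fun x : E × (ℂ × ℂ) × ℂ =>
        evd q e t 0 (ψ x.1) (sh x.2.1 s₀ x.2.2 (n, a x.1, k x.1))) (z₀, 0) :=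
      ContinuousAt.comp_of_eq c6 c5 (by rw [e0])
    have c8 : ContinuousAt (fun x : E × (ℂ × ℂ) × ℂ => f x.1) (z₀, 0) :=
      ContinuousAt.comp (f := fun x : E × (ℂ × ℂ) × ℂ => x.1) hf continuousAt_fst
    refine (c7.dist c8).eventually_lt continuousAt_const ?_
    change dist (evd q e t 0 (ψ z₀) (sh 0 s₀ 0 (n, a z₀, k z₀))) (f z₀) < ε
    rw [sh_zero, evd_rel h r0 (g0 0 z0)]
    exact hT.2
  have h3 : ∀ᶠ x : E × (ℂ × ℂ) × ℂ in 𝓝 (z₀, 0), Rel t (ψ x.1) (n, a x.1, k x.1) (d x.1) :=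
    (continuousAt_fst (p := (z₀, (0 : (ℂ × ℂ) × ℂ)))).eventually hrel
  filter_upwards [h1, h2, h3] with x x1 x2 x3
  have r := x3.sh x.2.1 s₀ x.2.2
  refine ⟨fun s hs => ?_, ?_⟩
  · have := (r.gd s 0).1 (by rw [add_zero]; exact x1 s (mem_closedBall_zero_iff.2 hs))
    rwa [add_zero] at this
  · rwa [← evd_rel h r (x1 0 (mem_closedBall_zero_iff.2 z0))]

theorem tg_open (hn : Nm t) (h : Kum (Lat (bs t 0)) q e) {ψ : E → ℂ} {d : E → Dt} {S : Set E}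
    (hS : IsCompact S) (hP : Pres t ψ d S) {f : E → X} (hf : ∀ z ∈ S, ContinuousAt f z)
    {R ε : ℝ} (hR : 0 ≤ R) (hT : ∀ z ∈ S, Tg q e t R ε (f z) (ψ z) (d z)) (s₀ : ℂ) :
    ∃ δ > (0 : ℝ), ∀ᶠ z in 𝓝ˢ S, ∀ (H : ℂ × ℂ) (c : ℂ), ‖H‖ ≤ δ → ‖c‖ ≤ δ →
      Tg q e t R ε (f z) (ψ z) (sh H s₀ c (d z)) := by
  have h1 : ∀ᶠ x : E × (ℂ × ℂ) × ℂ in 𝓝ˢ (S ×ˢ {0}),
      Tg q e t R ε (f x.1) (ψ x.1) (sh x.2.1 s₀ x.2.2 (d x.1)) := by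
    refine eventually_nhdsSet_iff_forall.2 ?_
    rintro ⟨z, y⟩ ⟨hz, rfl⟩
    exact TgO.loc hn h (fun w hw => hP w (by rw [mem_singleton_iff.1 hw]; exact hz)) (hf z hz) hR
      (hT z hz) s₀
  rw [hS.nhdsSet_prod_eq isCompact_singleton, nhdsSet_singleton, eventually_prod_iff] at h1
  obtain ⟨pa, ha, pb, hb, H⟩ := h1
  obtain ⟨δ, hδ, hb'⟩ := nhds_basis_closedBall.eventually_iff.1 hb
  refine ⟨δ, hδ, ha.mono fun z hz G c hG hc => ?_⟩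
  exact H hz (y := (G, c)) (hb' (mem_closedBall_zero_iff.2 (max_le hG hc)))

end Vale.Agent.P290
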