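import Vale.Agent.P290Z.PresG
import Vale.Agent.P290Z.TgO
import Vale.Agent.P290Z.KSpr
import Vale.Agent.P290Z.EllN

/-! A spray on a nearby elliptic Kummer surface. -/

open Set Filter Metric
open scoped Manifold ContDiff Topology

noncomputable section

namespace Vale.Agent.P290

variable {E : Type} [NormedAddCommGroup E] [NormedSpace ℂ E] [FiniteDimensional ℂ E]
  {X : Type} [MetricSpace X] [ChartedSpace C2 X] [IsManifold 𝓘(ℂ, C2) ω X]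
  {t : Tk} {q : ℂ × ℂ → X} {e : ℂ × ℂ → ℂ × ℂ × ℂ → X} {s : ℂ}

theorem pertA (hn : Nm t) (h : Kum (Lat (bs t 0)) q e) {m : ℕ}
    {K : Set (EuclideanSpace ℂ (Fin m))} (hK : IsCompact K) (hc : Convex ℝ K) (hne : K.Nonempty)
    {f : EuclideanSpace ℂ (Fin m) → X} (hf : ∀ z ∈ K, Hol f z) {ε : ℝ} (hε : 0 < ε) :
    ∃ (s₀ : ℂ) (X' : Type) (_ : MetricSpace X') (_ : ChartedSpace C2 X')
      (_ : IsManifold 𝓘(ℂ, C2) ω X') (q' : ℂ × ℂ → X') (e' : ℂ × ℂ → ℂ × ℂ × ℂ → X')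
      (F : EuclideanSpace ℂ (Fin m) × C2 → X') (ψ : EuclideanSpace ℂ (Fin m) × C2 → ℂ)
      (d : EuclideanSpace ℂ (Fin m) × C2 → Dt), Kum (Lat (bs t s₀)) q' e' ∧ IsOka X' ∧
      (∀ z ∈ K, Hol F (z, 0) ∧ Function.Injective (dT F z)) ∧
      IsP q' e' t s₀ F ψ d (K ×ˢ {0}) ∧
      ∀ᶠ w in 𝓝ˢ (K ×ˢ ({0} : Set C2)), Tg q e t (3 * ‖s₀‖) ε (f w.1) (ψ w) (d w) := by
  obtain ⟨ψ₀, d₀, hP₀⟩ := exists_pres hn h hK hc hf
  obtain ⟨r, hr, hg⟩ := gd_near hn hK hP₀.1 (s₀ := 0)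
    fun z hz => (hP₀.2.self_of_nhdsSet z hz).1
  obtain ⟨s₀, hs₀, hell⟩ := ell_near hn (δ := r / 3) (by positivity)
  obtain ⟨X', _, _, _, hm, ⟨q', e', h'⟩, hspr⟩ := exists_kum_spr (hn.li s₀)
  have hg0 : ∀ᶠ z in 𝓝ˢ K, Gd (Lat (bs t s₀)) (ψ₀ z) (pv (d₀ z) s₀) :=
    hg.mono fun z hz => hz s₀ (by rw [sub_zero]; linarith)
  have hP₁ : IsP q' e' t s₀ (fun z => evd q' e' t s₀ (ψ₀ z) (d₀ z)) ψ₀ d₀ K :=
    ⟨hP₀.1, hg0.mono fun z hz => ⟨hz, rfl⟩⟩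
  obtain ⟨F, hF, hF0⟩ := hspr m K (fun z => evd q' e' t s₀ (ψ₀ z) (d₀ z)) hK hc hne fun z hz =>
    Pres.hol hn h' (fun y hy => hP₀.1 y (mem_singleton_iff.1 hy ▸ hz)) (hg0.self_of_nhdsSet z hz)
  have hK0 : IsCompact (K ×ˢ ({0} : Set C2)) := hK.prod isCompact_singleton
  obtain ⟨ψ, d, hP⟩ := exists_pres hn h' hK0 (hc.prod (convex_singleton 0)) (f := F) (by
    rintro ⟨z, v⟩ ⟨hz, rfl⟩
    exact (hF z hz).1)
  have hj : Tendsto (fun z : EuclideanSpace ℂ (Fin m) => (z, (0 : C2))) (𝓝ˢ K)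
      (𝓝ˢ (K ×ˢ ({0} : Set C2))) :=
    (continuous_id.prodMk continuous_const).tendsto_nhdsSet fun z hz => ⟨hz, rfl⟩
  have hP₂ : IsP q' e' t s₀ (fun z => evd q' e' t s₀ (ψ₀ z) (d₀ z)) (fun z => ψ (z, 0))
      (fun z => d (z, 0)) K :=
    ⟨Pres.comp (j := fun z : EuclideanSpace ℂ (Fin m) => (z, (0 : C2)))
      (fun _ _ => analyticAt_id.prod analyticAt_const)
      fun z hz y hy => hP.1 y (mem_singleton_iff.1 hy ▸ ⟨hz, rfl⟩),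
      ((hj.eventually hP.2).and hF0).mono fun z hz => ⟨hz.1.1, hz.1.2.trans hz.2⟩⟩
  obtain ⟨g, c, -, hca, hu⟩ := uni hn h' hK hP₁ hP₂
  have hc1 : AnalyticOnNhd ℂ (fun w : EuclideanSpace ℂ (Fin m) × C2 => -c w.1) (K ×ˢ {0}) :=
    fun w hw => (AnalyticAt.comp (f := Prod.fst) (hca w.1 hw.1) analyticAt_fst).neg
  have hPr := hP.1.sh (H := fun _ => 0) analyticOnNhd_const hc1 s₀
  have e1 : ∀ (k : ℂ) (x : Dt), pv (sh 0 s₀ k x) s₀ = pv x s₀ := fun k x => by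
    rw [pv_sh, sub_self, zero_mul, add_zero]
    exact add_zero _
  have hR : 0 ≤ 3 * ‖s₀‖ := by positivity
  refine ⟨s₀, X', _, _, hm, q', e', F, ψ, fun w => sh 0 s₀ (-c w.1) (d w), h',
    Kum.oka_ell (hn.li s₀) hell h', hF, ⟨hPr, hP.2.mono fun w hw => ?_⟩, ?_⟩
  · rw [evd, e1]
    exact hw
  · obtain ⟨δ, hδ, hev⟩ := tg_open hn h hK0 hPr (f := fun w => f w.1)
      (fun w hw => ContinuousAt.comp (f := Prod.fst) (hf w.1 hw.1).cont continuousAt_fst)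
      (ε := ε) hR (by
        rintro ⟨z, v⟩ ⟨hz, rfl⟩
        obtain ⟨a1, a2, a3⟩ := hu.self_of_nhdsSet z hz
        refine Tg.tr h hR a1 a2 a3 ⟨fun s hs => hg.self_of_nhdsSet z hz s ?_, ?_⟩
        · rw [sub_zero]
          linarith
        · rw [(hP₀.2.self_of_nhdsSet z hz).2, dist_self]
          exact hε) s₀
    refine hev.mono fun w hw => ?_
    have h1 := hw 0 0 (norm_zero.trans_le hδ.le) (norm_zero.trans_le hδ.le)
    rwa [sh_zero] at h1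

end Vale.Agent.P290
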