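import Vale.Agent.P290Z.PertA
import Vale.Agent.P290Z.IftQ

/-! A global presentation. -/

open Set Filter Metric
open scoped Manifold ContDiff Topology

noncomputable section

namespace Vale.Agent.P290

variable {E : Type} [NormedAddCommGroup E] [NormedSpace ℂ E] [FiniteDimensional ℂ E]
  {X : Type} [MetricSpace X] [ChartedSpace C2 X] [IsManifold 𝓘(ℂ, C2) ω X]
  {t : Tk} {q : ℂ × ℂ → X} {e : ℂ × ℂ → ℂ × ℂ × ℂ → X} {s : ℂ}

theorem pertB (hn : Nm t) (h : Kum (Lat (bs t 0)) q e) {m : ℕ}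
    {K L : Set (EuclideanSpace ℂ (Fin m))} (hK : IsCompact K) (hc : Convex ℝ K)
    (hne : K.Nonempty) (hL : IsCompact L) (hc' : Convex ℝ L) (hKL : K ⊆ L)
    {f : EuclideanSpace ℂ (Fin m) → X} (hf : ∀ z ∈ K, Hol f z) {ε : ℝ} (hε : 0 < ε) :
    ∃ (s₀ : ℂ) (ψ : EuclideanSpace ℂ (Fin m) → ℂ) (d : EuclideanSpace ℂ (Fin m) → Dt),
      Pres t ψ d L ∧ (∀ z ∈ L, Gd (Lat (bs t s₀)) (ψ z) (pv (d z) s₀)) ∧
      ∀ z ∈ K, Tg q e t (3 * ‖s₀‖) ε (f z) (ψ z) (d z) := by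
  obtain ⟨s₀, X', _, _, _, q', e', F, ψ, d, hk, hO, hF, hP, hT⟩ := pertA hn h hK hc hne hf hε
  obtain ⟨ε', hε', hI⟩ := ift_q hK hF (hT.and hP.ev)
  have hU : IsOpen {z | Hol (fun z => F (z, 0)) z} :=
    isOpen_iff_mem_nhds.2 fun z hz => Hol.ev hz
  obtain ⟨G, hG, hGd⟩ := hO m K _ (fun z => F (z, 0)) ε' hne hK hc hU
    (fun z hz => Hol.comp (g := fun z => (z, (0 : C2))) (hF z hz).1
      (analyticAt_id.prod analyticAt_const))
    (fun z hz => (Hol.mdiff hz).mdifferentiableWithinAt) hε'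
  have hGh : ∀ z, Hol G z := fun z => hol_of_mdiff isOpen_univ hG.mdifferentiableOn (mem_univ z)
  obtain ⟨τ, hτ, hW, hFG⟩ := hI G fun z hz => ⟨hGh z, hGd z hz⟩
  have hj : AnalyticOnNhd ℂ (fun z => (z, τ z)) K := fun z hz => analyticAt_id.prod (hτ z hz)
  have hP1 : IsP q' e' t s₀ G (fun z => ψ (z, τ z)) (fun z => d (z, τ z)) K := by
    refine ⟨Pres.comp hj fun z hz => (hW z hz).2.1, ?_⟩
    rw [eventually_nhdsSet_iff_forall] at hFG ⊢
    intro z hz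
    have h1 := (hW z hz).2.2
    rw [nhdsSet_singleton] at h1
    filter_upwards [(hj z hz).continuousAt.eventually h1, hFG z hz] with w hw hw'
    exact ⟨hw.1, hw.2.trans hw'⟩
  obtain ⟨ψ', d', hP2⟩ := exists_pres hn hk hL hc' fun z _ => hGh z
  have hP2K : IsP q' e' t s₀ G ψ' d' K :=
    ⟨fun z hz => hP2.1 z (hKL hz), hP2.2.filter_mono (nhdsSet_mono hKL)⟩
  obtain ⟨g, c, -, hca, hgc⟩ := uni hn hk hK hP1 hP2K
  have hR : 0 ≤ 3 * ‖s₀‖ := by positivity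
  have hT2 : ∀ z ∈ K, Tg q e t (3 * ‖s₀‖) ε (f z) (ψ' z) (sh 0 s₀ (-c z) (d' z)) := fun z hz => by
    obtain ⟨h1, h2, h3⟩ := hgc.self_of_nhdsSet z hz
    exact Tg.tr h hR h1 h2 h3 (hW z hz).1
  have hP3 : Pres t ψ' (fun z => sh 0 s₀ (-c z) (d' z)) K :=
    hP2K.1.sh (H := fun _ => 0) analyticOnNhd_const hca.neg s₀
  obtain ⟨δ, hδ, hδT⟩ := tg_open hn h hK hP3 (fun z hz => (hf z hz).cont) hR hT2 s₀
  obtain ⟨c', hc'a, hc'd⟩ := runge hK hc hca hδ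
  refine ⟨s₀, ψ', fun z => sh 0 s₀ (-c' z) (d' z),
    hP2.1.sh (H := fun _ => 0) analyticOnNhd_const (fun z _ => (hc'a z (mem_univ z)).neg) s₀,
    fun z hz => ?_, fun z hz => ?_⟩
  · have := (hP2.2.self_of_nhdsSet z hz).1
    simpa [pv_sh, Prod.mk_zero_zero] using this
  · have := hδT.self_of_nhdsSet z hz 0 (c z - c' z) (by simpa using hδ.le)
      (by rw [norm_sub_rev]; exact (hc'd z hz).le)
    rw [sh_sh] at this
    convert this using 2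
    · simp
    · ring

end Vale.Agent.P290
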