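import Vale.Agent.P290Z.Defs

/-! A strongly convex function. -/

open Set Filter Metric
open scoped Manifold ContDiff Topology

noncomputable section

namespace Vale.Agent.P290

theorem Phi_conv {E : Type} [NormedAddCommGroup E] [NormedSpace ℝ E] {K : Set E}
    (hK : IsCompact K) (hc : Convex ℝ K) (hne : K.Nonempty) :
    ConvexOn ℝ univ fun z => infDist z K := by
  refine ⟨convex_univ, fun x _ y _ a b ha hb hab => ?_⟩
  obtain ⟨p, hp, e1⟩ := hK.exists_infDist_eq_dist hne x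
  obtain ⟨q, hq, e2⟩ := hK.exists_infDist_eq_dist hne y
  refine (infDist_le_dist_of_mem (hc hp hq ha hb hab)).trans ((dist_add_add_le _ _ _ _).trans ?_)
  simp only [e1, e2, dist_smul₀, Real.norm_of_nonneg ha, Real.norm_of_nonneg hb, smul_eq_mul,
    le_refl]

theorem exists_phi {m : ℕ} {K U : Set (EuclideanSpace ℂ (Fin m))} (hK : IsCompact K)
    (hc : Convex ℝ K) (hne : K.Nonempty) (hU : U ∈ 𝓝ˢ K) :
    ∃ φ, SConv φ ∧ (∀ z ∈ K, φ z ≤ 1) ∧ ∀ z, φ z ≤ 2 → z ∈ U := by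
  obtain ⟨δ, hδ, h1⟩ := hK.exists_cthickening_subset_open isOpen_interior
    (subset_interior_iff_mem_nhdsSet.2 hU)
  obtain ⟨R, hR, h2⟩ := hK.isBounded.exists_pos_norm_le
  have h3 := (Phi_conv hK hc hne).smul (c := 2 / δ) (by positivity)
  have h4 : ConvexOn ℝ univ fun z : EuclideanSpace ℂ (Fin m) => ‖z‖ ^ 2 :=
    convexOn_univ_norm.pow (fun _ _ => norm_nonneg _) 2
  have h5 : ∀ z, 0 ≤ 2 / δ * infDist z K := fun z => mul_nonneg (by positivity) infDist_nonneg
  have h6 : Continuous fun z => 2 / δ * infDist z K + (R ^ 2)⁻¹ * ‖z‖ ^ 2 :=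
    (continuous_const.mul (continuous_infDist_pt K)).add (by fun_prop)
  refine ⟨fun z => 2 / δ * infDist z K + (R ^ 2)⁻¹ * ‖z‖ ^ 2, ⟨h6,
    fun z => add_nonneg (h5 z) (by positivity), h3.add (h4.smul (by positivity)),
    ⟨(R ^ 2)⁻¹ / 4, by positivity, fun y y' => ?_⟩, fun r => ?_⟩, fun z hz => ?_, fun z hz => ?_⟩
  · have a1 := h3.2 (mem_univ y) (mem_univ y') (by norm_num : (0 : ℝ) ≤ 2⁻¹)
      (by norm_num : (0 : ℝ) ≤ 2⁻¹) (by norm_num)
    have a2 := parallelogram_law_with_norm ℂ y y'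
    simp only [smul_eq_mul, ← smul_add] at a1
    rw [norm_smul, Real.norm_of_nonneg (by norm_num)]
    linear_combination a1 + (R ^ 2)⁻¹ / 4 * a2
  · refine (isCompact_closedBall 0 (R ^ 2 * r + 1)).of_isClosed_subset
      (isClosed_le h6 continuous_const) fun z hz => mem_closedBall_zero_iff.2 ?_
    have a1 : (R ^ 2)⁻¹ * ‖z‖ ^ 2 ≤ r := (le_add_of_nonneg_left (h5 z)).trans hz
    rw [inv_mul_le_iff₀ (by positivity)] at a1
    nlinarith [sq_nonneg (‖z‖ - 1), norm_nonneg z]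
  · beta_reduce
    rw [infDist_zero_of_mem hz, mul_zero, zero_add, inv_mul_le_iff₀ (by positivity), mul_one]
    exact pow_le_pow_left₀ (norm_nonneg _) (h2 z hz) 2
  · obtain ⟨p, hp, e⟩ := hK.exists_infDist_eq_dist hne z
    have a1 : 2 / δ * infDist z K ≤ 2 := (le_add_of_nonneg_right (by positivity)).trans hz
    rw [e, div_mul_eq_mul_div, div_le_iff₀ hδ] at a1
    exact interior_subset (h1 (mem_cthickening_of_dist_le z p δ K hp (by linarith)))

end Vale.Agent.P290
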