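import Vale.Agent.P290Z.UniL

/-! Global presentations. -/

open Set Filter Metric
open scoped Manifold ContDiff Topology

noncomputable section

namespace Vale.Agent.P290

variable {E : Type} [NormedAddCommGroup E] [NormedSpace ℂ E] [FiniteDimensional ℂ E]
  {X : Type} [MetricSpace X] [ChartedSpace C2 X] [IsManifold 𝓘(ℂ, C2) ω X]
  {t : Tk} {q : ℂ × ℂ → X} {e : ℂ × ℂ → ℂ × ℂ × ℂ → X} {s : ℂ}

theorem PresG.mono {f : E → X} {ψ : E → ℂ} {d : E → Dt} {S S' : Set E}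
    (h : IsP q e t s f ψ d S) (hS : S' ⊆ S) : IsP q e t s f ψ d S' :=
  ⟨fun z hz => h.1 z (hS hz), h.2.filter_mono (nhdsSet_mono hS)⟩

theorem PresG.congr (h : Kum (Lat (bs t s)) q e) {f : E → X} {ψ Ψ : E → ℂ} {d D : E → Dt}
    {S : Set E} (hP : IsP q e t s f Ψ D S)
    (hr : ∀ᶠ z in 𝓝ˢ S, ψ z = Ψ z ∧ Rel t (Ψ z) (D z) (d z)) : IsP q e t s f ψ d S := by
  refine ⟨fun z hz => ?_, ?_⟩
  · obtain ⟨a, n, H, k, a1, a2, a3⟩ := hP.1 z hz
    have r := eventually_nhdsSet_iff_forall.1 hr z hz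
    refine ⟨a.congr (r.mono fun w hw => hw.1.symm), n, H, k, a1, a2, ?_⟩
    filter_upwards [a3, r] with w b1 b2
    rw [b2.1]
    exact b1.trans b2.2
  · filter_upwards [hP.2, hr] with w b1 b2
    have g := b2.2.gd s 0
    rw [add_zero, add_zero] at g
    rw [b2.1, ← evd_rel h b2.2 b1.1]
    exact ⟨g.1 b1.1, b1.2⟩

theorem PresG.sc_sh (a g c s : ℂ) (d : Dt) :
    sc a (sh 0 s c (sc g d)) = sh 0 s (a * c) (sc (a * g) d) := by
  simp only [sc, sh]
  refine Prod.ext rfl (Prod.ext (Prod.ext ?_ ?_) ?_) <;> simp <;> ring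

theorem uni (hn : Nm t) (h : Kum (Lat (bs t s)) q e) {f : E → X} {ψ₁ ψ₂ : E → ℂ}
    {d₁ d₂ : E → Dt} {S : Set E} (hS : IsCompact S) (h₁ : IsP q e t s f ψ₁ d₁ S)
    (h₂ : IsP q e t s f ψ₂ d₂ S) :
    ∃ g c : E → ℂ, AnalyticOnNhd ℂ g S ∧ AnalyticOnNhd ℂ c S ∧ ∀ᶠ z in 𝓝ˢ S, g z ≠ 0 ∧
      ψ₁ z = g z ^ 2 * ψ₂ z ∧ Rel t (ψ₂ z) (sh 0 s (c z) (sc (g z) (d₁ z))) (d₂ z) := by
  choose! g c hg hc hr using fun (a : E) (ha : a ∈ S) =>
    uni_loc hn h (PresG.mono h₁ (singleton_subset_iff.2 ha))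
      (PresG.mono h₂ (singleton_subset_iff.2 ha))
  obtain ⟨F, hF⟩ := glueFam hS (fun a z => (g a z, c a z)) fun a ha => by
    filter_upwards [(hr a ha).eventually_nhds] with b h1 hb
    filter_upwards [h1, hr b hb, eventually_nhdsSet_iff_forall.1 h₁.2 b hb] with z k1 k2 k3
    obtain ⟨e1, e2⟩ := uni_uniq hn k3.1 k1.1 k1.2.1 k2.2.1 k1.2.2 k2.2.2
    exact Prod.ext e1 e2
  refine ⟨fun z => (F z).1, fun z => (F z).2,
    fun a ha => (hg a ha).congr ((hF a ha).mono fun z hz => (congrArg Prod.fst hz).symm),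
    fun a ha => (hc a ha).congr ((hF a ha).mono fun z hz => (congrArg Prod.snd hz).symm),
    eventually_nhdsSet_iff_forall.2 fun a ha => ?_⟩
  filter_upwards [hF a ha, hr a ha] with z k1 k2
  rw [k1]
  exact k2

theorem IsP.ev {f : E → X} {ψ : E → ℂ} {d : E → Dt} {S : Set E} (h : IsP q e t s f ψ d S) :
    ∀ᶠ z in 𝓝ˢ S, IsP q e t s f ψ d {z} := by
  refine eventually_nhdsSet_iff_forall.2 fun z hz => ?_
  obtain ⟨a, n, H, k, a1, a2, a3⟩ := h.1 z hz
  filter_upwards [a.eventually_analyticAt, a1.eventually_analyticAt, a2.eventually_analyticAt,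
    a3.eventually_nhds, (eventually_nhdsSet_iff_forall.1 h.2 z hz).eventually_nhds]
    with w b b1 b2 b3 b4
  refine ⟨fun y hy => ?_, by rwa [nhdsSet_singleton]⟩
  rw [mem_singleton_iff.1 hy]
  exact ⟨b, n, H, k, b1, b2, b3⟩

theorem IsP.of {f : E → X} {ψ : E → ℂ} {d : E → Dt} {S : Set E}
    (h : ∀ z ∈ S, IsP q e t s f ψ d {z}) : IsP q e t s f ψ d S :=
  ⟨fun z hz => (h z hz).1 z rfl, eventually_nhdsSet_iff_forall.2 fun z hz =>
    eventually_nhdsSet_iff_forall.1 (h z hz).2 z rfl⟩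

theorem pres_loc (hn : Nm t) (h : Kum (Lat (bs t s)) q e) {f : E → X} {z : E} (hf : Hol f z) :
    ∃ ψ d, IsP q e t s f ψ d {z} := by
  have pv0 : ∀ (n : Fin 4 → ℤ) (P : ℂ × ℂ), pv (n, P, 0) s = P := fun n P => by
    simp only [pv, mul_zero, Prod.mk_zero_zero, add_zero]
  rcases h.cover (f z) with ⟨x, hx, ex⟩ | ⟨μ, α, hμ, hα, ex⟩
  · obtain ⟨σ, s1, s2, s3⟩ := (h.qhol x hx).1.sec
      ((LinearMap.injective_iff_surjective_of_finrank_eq_finrank
        (f := (dif q x).toLinearMap) (by simp)).1 (h.qhol x hx).2)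
    rw [ex] at s1 s2 s3
    have an := s1.comp hf
    refine ⟨fun _ => 1, fun w => (0, σ (f w), 0), fun y hy => ?_, ?_⟩
    · rw [mem_singleton_iff.1 hy]
      exact ⟨analyticAt_const, 0, _, _, an, analyticAt_const, .of_forall fun w => Rel.refl _ _ _⟩
    · rw [nhdsSet_singleton]
      have c3 : Tendsto (fun w => σ (f w)) (𝓝 z) (𝓝 x) := s2 ▸ an.continuousAt
      filter_upwards [hf.cont.eventually s3, c3.eventually ((isDisc_lat (hn.li s)).ev_nt hx)]
        with w k1 k2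
      refine ⟨⟨?_, fun v hv k => (k2 ?_).elim⟩, ?_⟩
      · rw [pv0]
        intro k
        rw [k, add_zero] at k2
        exact k2 (zero_mem _)
      · rw [pv0] at k
        rcases sq_eq_one_iff.1 hv with rfl | rfl
        · rwa [one_smul] at k
        · rwa [neg_one_smul, ← neg_add, neg_mem_iff] at k
      · rw [evd, pv0, evp, if_neg one_ne_zero, Complex.one_cpow, one_smul,
          show hv 0 (bs t s) = 0 by simp [hv], zero_add, k1]
  · obtain ⟨n, rfl⟩ := hv_surj hμ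
    obtain ⟨e1, e2, e3⟩ := h.ehol _ α hμ hα
    obtain ⟨σ, s1, s2, s3⟩ := e1.sec e2
    rw [ex] at s1 s2 s3
    have an := s1.comp hf
    have c1 : Continuous fun v : ℂ × ℂ × ℂ => ((v.1, s), v.2) := by fun_prop
    have g1 : ∀ᶠ v : ℂ × ℂ × ℂ in 𝓝 (0, α), Gd (Lat (bs t s)) v.1 v.2 :=
      (c1.tendsto (0, α)).eventually ((isOpen_MO hn).mem_nhds
        ⟨hα, fun w hw _ => pow_eq_zero_iff two_ne_zero |>.1 hw⟩)
    have c2 : Tendsto (fun v : ℂ × ℂ × ℂ => (v.1 ^ 2, v.2)) (𝓝 (0, α)) (𝓝 (0, α)) :=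
      Continuous.tendsto' (by fun_prop) _ _ (by simp)
    have g2 : ∀ᶠ v : ℂ × ℂ × ℂ in 𝓝 (0, α),
        evp q e (hv n (bs t s)) v.1 v.2 = e (hv n (bs t s)) v := by
      refine ev_sq (.of_forall fun y => if_pos rfl) ?_
      filter_upwards [e3, c2.eventually g1] with v k1 k2 k3
      rw [k1 k3]
      exact (evp_eq h hμ k2 rfl k3).2
    have c3 : Tendsto (fun w => σ (f w)) (𝓝 z) (𝓝 (0, α)) := s2 ▸ an.continuousAt
    refine ⟨fun w => (σ (f w)).1, fun w => (n, (σ (f w)).2, 0), fun y hy => ?_, ?_⟩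
    · rw [mem_singleton_iff.1 hy]
      exact ⟨analyticAt_fst.comp an, n, _, _, analyticAt_snd.comp an, analyticAt_const,
        .of_forall fun w => Rel.refl _ _ _⟩
    · rw [nhdsSet_singleton]
      filter_upwards [hf.cont.eventually s3, c3.eventually g1, c3.eventually g2] with w k1 k2 k3
      rw [evd, pv0]
      exact ⟨k2, k3.trans k1⟩

theorem exists_pres (hn : Nm t) (h : Kum (Lat (bs t s)) q e) {f : E → X} {S : Set E}
    (hS : IsCompact S) (hc : Convex ℝ S) (hf : ∀ z ∈ S, Hol f z) :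
    ∃ ψ d, IsP q e t s f ψ d S := by
  classical
  obtain ⟨P, hP, ψ, d, hd⟩ := patch hS hc (U := {z | Hol f z})
    (eventually_nhdsSet_iff_forall.2 fun z hz => (hf z hz).ev)
    (fun S => ∃ ψ d, IsP q e t s f ψ d S)
    ⟨0, 0, fun z hz => hz.elim, by simp⟩ (fun z hz => by
      obtain ⟨ψ, d, hd⟩ := pres_loc hn h hz
      have := hd.ev
      rw [nhdsSet_singleton] at this
      exact ⟨_, this, fun S hS => ⟨ψ, d, .of hS⟩⟩) (by
      rintro S₁ S₂ k₁ k₂ v₁ v₂ - sp ⟨ψ₁, d₁, p₁⟩ ⟨ψ₂, d₂, p₂⟩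
      have k := k₁.inter_right k₂.isClosed
      obtain ⟨g, c, hg, hc, hr⟩ := uni hn h k (PresG.mono p₁ inter_subset_left)
        (PresG.mono p₂ inter_subset_right)
      obtain ⟨l, hl, el⟩ := exists_log k (v₁.inter v₂) hg fun z hz => (hr.self_of_nhdsSet z hz).1
      obtain ⟨l₁, l₂, a₁, a₂, e₁⟩ := sp l hl
      obtain ⟨c₁, c₂, b₁, b₂, e₂⟩ := sp (fun z => Complex.exp (l₂ z) * c z)
        ((a₂.cexp.mono inter_subset_right).mul hc)
      have q₁ := p₁.mod h a₁.cexp b₁ fun z _ => Complex.exp_ne_zero _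
      have q₂ := p₂.mod h a₂.cexp b₂ fun z _ => Complex.exp_ne_zero _
      obtain ⟨F, f₁, f₂⟩ := glue2 k₁.isClosed k₂.isClosed
        (f₁ := fun z => (ψ₁ z / Complex.exp (l₁ z) ^ 2, {d' | Rel t (ψ₁ z / Complex.exp (l₁ z) ^ 2)
          (sh 0 s (c₁ z) (sc (Complex.exp (l₁ z)) (d₁ z))) d'}))
        (f₂ := fun z => (ψ₂ z / Complex.exp (l₂ z) ^ 2, {d' | Rel t (ψ₂ z / Complex.exp (l₂ z) ^ 2)
          (sh 0 s (c₂ z) (sc (Complex.exp (l₂ z)) (d₂ z))) d'})) (by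
          filter_upwards [hr, el, e₁, e₂] with z r1 r2 r3 r4
          have n2 := Complex.exp_ne_zero (l₂ z)
          have x1 : Complex.exp (l₂ z) * g z = Complex.exp (l₁ z) := by
            rw [← r2, r3, ← Complex.exp_add, add_sub_cancel]
          have x2 : ψ₁ z / Complex.exp (l₁ z) ^ 2 = ψ₂ z / Complex.exp (l₂ z) ^ 2 := by
            have := r1.1
            rw [r1.2.1, ← x1]
            field_simp
          have x3 := r1.2.2
          rw [← mul_div_cancel₀ (ψ₂ z) (pow_ne_zero 2 n2)] at x3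
          have x4 := x3.sc.sh 0 s (c₂ z)
          rw [PresG.sc_sh, sh_sh, x1, r4, add_zero, add_sub_cancel] at x4
          rw [x2]
          exact Prod.ext rfl (Set.ext fun d' => ⟨x4.symm.trans, x4.trans⟩))
      refine ⟨fun z => (F z).1, fun z => if hz : (F z).2.Nonempty then hz.some else 0,
        .of fun z hz => hz.elim (fun hz => PresG.mono (PresG.congr h q₁ ?_)
          (singleton_subset_iff.2 hz)) fun hz => PresG.mono (PresG.congr h q₂ ?_)
          (singleton_subset_iff.2 hz)⟩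
      · filter_upwards [f₁] with w hw
        have ne : (F w).2.Nonempty := hw ▸ ⟨_, Rel.refl _ _ _⟩
        have m := ne.some_mem
        rw [dif_pos ne]
        generalize ne.some = y at m
        rw [hw] at m ⊢
        exact ⟨rfl, m⟩
      · filter_upwards [f₂] with w hw
        have ne : (F w).2.Nonempty := hw ▸ ⟨_, Rel.refl _ _ _⟩
        have m := ne.some_mem
        rw [dif_pos ne]
        generalize ne.some = y at m
        rw [hw] at m ⊢
        exact ⟨rfl, m⟩)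
  exact ⟨ψ, d, PresG.mono hd hP⟩

end Vale.Agent.P290
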