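import Vale.Agent.P290Z.MFlex
import Vale.Agent.P290Z.MShr
import Vale.Agent.P290Z.PathR

/-! Pull-back of the model. -/

open Set Filter Metric
open scoped Manifold ContDiff Topology

noncomputable section

namespace Vale.Agent.P290

variable {E : Type} [NormedAddCommGroup E] [NormedSpace ℂ E] [FiniteDimensional ℂ E]
  {Ω : Set ((E × ℂ) × ℂ × ℂ)}

variable {t : Tk}

namespace Pull

/-- The map to the model. -/
def th (ψ : E → ℂ) (σ : ℂ → ℂ) (p : E × ℂ → ℂ × ℂ) (x : (E × ℂ) × ℂ × ℂ) : (ℂ × ℂ) × ℂ × ℂ :=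
  ((ψ x.1.1, σ x.1.2), p x.1 + x.2)

omit [FiniteDimensional ℂ E] in
theorem an_th {ψ : E → ℂ} {σ : ℂ → ℂ} (hσ : Differentiable ℂ σ)
    {O : Set E} {p : E × ℂ → ℂ × ℂ} (hL : LocM t Ω ψ σ O p) {x : (E × ℂ) × ℂ × ℂ}
    (hx : x.1.1 ∈ O) : AnalyticAt ℂ (th ψ σ p) x := by
  have h1 : AnalyticAt ℂ (fun x : (E × ℂ) × ℂ × ℂ => ψ x.1.1) x :=
    AnalyticAt.comp (f := fun x : (E × ℂ) × ℂ × ℂ => x.1.1) (hL.2.1 _ hx)
      (analyticAt_fst.comp analyticAt_fst)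
  have h2 : AnalyticAt ℂ (fun x : (E × ℂ) × ℂ × ℂ => σ x.1.2) x :=
    AnalyticAt.comp (f := fun x : (E × ℂ) × ℂ × ℂ => x.1.2) (hσ.analyticAt _)
      (analyticAt_snd.comp analyticAt_fst)
  have h3 : AnalyticAt ℂ (fun x : (E × ℂ) × ℂ × ℂ => p x.1) x :=
    AnalyticAt.comp (f := fun x : (E × ℂ) × ℂ × ℂ => x.1) (hL.2.2.1 _ ⟨hx, trivial⟩)
      analyticAt_fst
  exact (h1.prod h2).prod (h3.add analyticAt_snd)

/-- The pulled back flow. -/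
def pS (ψ : E → ℂ) (σ : ℂ → ℂ) (p : E × ℂ → ℂ × ℂ) (S : ((ℂ × ℂ) × ℂ × ℂ) × ℂ → ℂ × ℂ)
    (v : ((E × ℂ) × ℂ × ℂ) × ℂ) : ℂ × ℂ := S (th ψ σ p v.1, v.2) - p v.1.1

omit [FiniteDimensional ℂ E] in
theorem flo {ψ : E → ℂ} {σ : ℂ → ℂ} (hσ : Differentiable ℂ σ)
    {O : Set E} {p : E × ℂ → ℂ × ℂ} (hL : LocM t Ω ψ σ O p) {N : Set ((ℂ × ℂ) × ℂ × ℂ)}
    {S : ((ℂ × ℂ) × ℂ × ℂ) × ℂ → ℂ × ℂ} (hS : Flo (MO t) N S) :
    Flo Ω ({x | x.1.1 ∈ O} ∩ th ψ σ p ⁻¹' N) (pS ψ σ p S) := by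
  rintro x ⟨hx, hN⟩
  obtain ⟨h0, h1⟩ := hS _ hN
  refine ⟨?_, fun τ => ?_⟩
  · change S (th ψ σ p x, 0) - p x.1 = x.2
    rw [h0]
    exact add_sub_cancel_left _ _
  obtain ⟨h2, h3, h4⟩ := h1 τ
  have e : p x.1 + pS ψ σ p S (x, τ) = S (th ψ σ p x, τ) := add_sub_cancel _ _
  refine ⟨?_, ?_, ?_⟩
  · have a1 : AnalyticAt ℂ (fun v : ((E × ℂ) × ℂ × ℂ) × ℂ => S (th ψ σ p v.1, v.2)) (x, τ) :=
      AnalyticAt.comp (f := fun v : ((E × ℂ) × ℂ × ℂ) × ℂ => (th ψ σ p v.1, v.2)) h2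
        ((AnalyticAt.comp (f := Prod.fst) (x := (x, τ)) (an_th hσ hL (x := x) hx)
          analyticAt_fst).prod analyticAt_snd)
    have a2 : AnalyticAt ℂ (fun v : ((E × ℂ) × ℂ × ℂ) × ℂ => p v.1.1) (x, τ) :=
      AnalyticAt.comp (f := fun v : ((E × ℂ) × ℂ × ℂ) × ℂ => v.1.1) (hL.2.2.1 _ ⟨hx, trivial⟩)
        (analyticAt_fst.comp analyticAt_fst)
    exact a1.sub a2
  · refine (hL.2.2.2 (x.1, pS ψ σ p S (x, τ)) hx).2 ?_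
    change ((ψ x.1.1, σ x.1.2), p x.1 + pS ψ σ p S (x, τ)) ∈ MO t
    rw [e]
    exact h3
  · change S (((ψ x.1.1, σ x.1.2), p x.1 + pS ψ σ p S (x, τ)), -τ) - p x.1 = x.2
    rw [e]
    change S (((th ψ σ p x).1, S (th ψ σ p x, τ)), -τ) - p x.1 = x.2
    rw [h4]
    exact add_sub_cancel_left _ _

omit [FiniteDimensional ℂ E] [NormedSpace ℂ E] [NormedAddCommGroup E] in
theorem dS_aux (ψ : E → ℂ) (σ : ℂ → ℂ) (p : E × ℂ → ℂ × ℂ)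
    (S : ((ℂ × ℂ) × ℂ × ℂ) × ℂ → ℂ × ℂ) (x : (E × ℂ) × ℂ × ℂ) :
    deriv (fun τ => pS ψ σ p S (x, τ)) 0 = deriv (fun τ => S (th ψ σ p x, τ)) 0 :=
  deriv_sub_const (f := fun τ => S (th ψ σ p x, τ)) (p x.1)

/-- The path. -/
def gp (ψ : E → ℂ) (σ : ℂ → ℂ) (p H : E × ℂ → ℂ × ℂ) (a₁ : ℂ → ℂ) (v : (E × ℂ) × ℂ) : ℂ × ℂ :=
  shr a₁ (ψ v.1.1) (p (v.1.1, (1 - v.2) * v.1.2) + H (v.1.1, (1 - v.2) * v.1.2))
    (σ v.1.2 - σ ((1 - v.2) * v.1.2)) - p v.1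

omit [FiniteDimensional ℂ E] in
theorem an_gp {ψ : E → ℂ} {σ : ℂ → ℂ} (hσ : Differentiable ℂ σ)
    {O : Set E} {p : E × ℂ → ℂ × ℂ} (hL : LocM t Ω ψ σ O p) {H : E × ℂ → ℂ × ℂ} {a₁ : ℂ → ℂ}
    (ha : Differentiable ℂ a₁) {v : (E × ℂ) × ℂ} (hv : v.1.1 ∈ O)
    (hH : AnalyticAt ℂ H (v.1.1, (1 - v.2) * v.1.2)) : AnalyticAt ℂ (gp ψ σ p H a₁) v := by
  have b1 : AnalyticAt ℂ (fun v : (E × ℂ) × ℂ => v.1.1) v := analyticAt_fst.comp analyticAt_fst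
  have b2 : AnalyticAt ℂ (fun v : (E × ℂ) × ℂ => v.1.2) v := analyticAt_snd.comp analyticAt_fst
  have b3 : AnalyticAt ℂ (fun v : (E × ℂ) × ℂ => (1 - v.2) * v.1.2) v :=
    (analyticAt_const.sub analyticAt_snd).mul b2
  have b4 := b1.prod b3
  have c1 : AnalyticAt ℂ (fun v : (E × ℂ) × ℂ => ψ v.1.1) v :=
    AnalyticAt.comp (f := fun v : (E × ℂ) × ℂ => v.1.1) (hL.2.1 _ hv) b1
  have c2 : AnalyticAt ℂ (fun v : (E × ℂ) × ℂ =>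
      p (v.1.1, (1 - v.2) * v.1.2) + H (v.1.1, (1 - v.2) * v.1.2)) v :=
    (AnalyticAt.comp (f := fun v : (E × ℂ) × ℂ => (v.1.1, (1 - v.2) * v.1.2))
      (hL.2.2.1 _ ⟨hv, trivial⟩) b4).add
      (AnalyticAt.comp (f := fun v : (E × ℂ) × ℂ => (v.1.1, (1 - v.2) * v.1.2)) hH b4)
  have c3 : AnalyticAt ℂ (fun v : (E × ℂ) × ℂ => σ v.1.2 - σ ((1 - v.2) * v.1.2)) v :=
    (AnalyticAt.comp (f := fun v : (E × ℂ) × ℂ => v.1.2) (hσ.analyticAt _) b2).sub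
      (AnalyticAt.comp (f := fun v : (E × ℂ) × ℂ => (1 - v.2) * v.1.2) (hσ.analyticAt _) b3)
  have c4 : AnalyticAt ℂ (fun v : (E × ℂ) × ℂ => p v.1) v :=
    AnalyticAt.comp (f := Prod.fst) (hL.2.2.1 _ ⟨hv, trivial⟩) analyticAt_fst
  have d1 := analyticAt_fst.comp c2
  have d2 := analyticAt_snd.comp c2
  have d3 := AnalyticAt.comp (g := a₁) (ha.analyticAt _) (c1.mul (d1.pow 2))
  exact (d1.prod (d2.add ((c3.mul d1).mul d3))).sub c4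

end Pull

open Pull in
theorem LocM.flex (h : Nm t) (hd : DirH t) {ψ : E → ℂ} {σ : ℂ → ℂ} (hσ : Differentiable ℂ σ)
    {O : Set E} {p : E × ℂ → ℂ × ℂ} (hL : LocM t Ω ψ σ O p) : Flex Ω (O ×ˢ univ) := by
  intro Γ hΓΩ hΓ hO x₀ hx₀
  have hc : ContinuousOn (th ψ σ p) {x | x.1.1 ∈ O} := fun x hx =>
    (an_th hσ hL hx).continuousAt.continuousWithinAt
  obtain ⟨S₁, S₂, N, hN, hΓN, h1, h2, hne⟩ := model_flex h hd (th ψ σ p '' Γ) (by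
    rintro _ ⟨x, hx, rfl⟩
    exact (hL.2.2.2 x (hO x hx).1).1 (hΓΩ hx))
    (hΓ.image_of_continuousOn (hc.mono fun x hx => (hO x hx).1)) (fun _ _ => trivial)
    _ ⟨x₀, hx₀, rfl⟩
  refine ⟨pS ψ σ p S₁, pS ψ σ p S₂, _, hc.isOpen_inter_preimage
    (hL.1.preimage (continuous_fst.comp continuous_fst)) hN,
    fun x hx => ⟨(hO x hx).1, hΓN ⟨x, hx, rfl⟩⟩, flo hσ hL h1, flo hσ hL h2, ?_⟩
  unfold dS at hne ⊢
  rw [dS_aux, dS_aux]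
  exact hne

open Pull in
theorem LocM.trs (h : Nm t) {ψ : E → ℂ} {σ : ℂ → ℂ} (hσ : Differentiable ℂ σ)
    {O : Set E} {p : E × ℂ → ℂ × ℂ} (hL : LocM t Ω ψ σ O p) : Trs Ω O := by
  intro C B H hC hB hBO hCB h1 h2
  let K : Set (E × ℂ) :=
    (fun v : (E × ℂ) × ℝ => (v.1.1, (v.2 : ℂ) * v.1.2)) '' (C ×ˢ Icc 0 1) ∪ B ×ˢ {0}
  have hK : IsCompact K :=
    ((hC.prod isCompact_Icc).image (by fun_prop)).union (hB.prod isCompact_singleton)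
  have hKp : ∀ w ∈ K, w.1 ∈ O ∧ ‖w.2‖ ≤ 2 ∧ AnalyticAt ℂ H w ∧ (w, H w) ∈ Ω := by
    rintro w (⟨⟨x, θ⟩, ⟨hx, hθ⟩, rfl⟩ | hw)
    · refine ⟨hBO (hCB hx).1, ?_, h1 x hx θ hθ _ rfl⟩
      have h3 : ‖x.2‖ ≤ 2 := mem_closedBall_zero_iff.1 (hCB hx).2
      have h4 : ‖(θ : ℂ)‖ ≤ 1 := by
        rw [Complex.norm_real, Real.norm_eq_abs, abs_of_nonneg hθ.1]
        exact hθ.2
      change ‖(θ : ℂ) * x.2‖ ≤ 2
      rw [norm_mul]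
      nlinarith [norm_nonneg x.2, norm_nonneg (θ : ℂ)]
    · refine ⟨hBO hw.1, ?_, h2 w hw⟩
      have : w.2 = 0 := hw.2
      rw [this]
      simp
  have hΓ : IsCompact ((fun w => th ψ σ p (w, H w)) '' K) :=
    hK.image_of_continuousOn fun w hw => (ContinuousAt.comp (f := fun w => (w, H w))
      (an_th hσ hL (hKp w hw).1).continuousAt
      (continuousAt_id.prodMk (hKp w hw).2.2.1.continuousAt)).continuousWithinAt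
  obtain ⟨R, hR⟩ := (isCompact_closedBall (0 : ℂ) 2).exists_bound_of_continuousOn
    hσ.continuous.continuousOn
  obtain ⟨ε, hε, hs⟩ := exists_shr h hΓ (by
    rintro _ ⟨w, hw, rfl⟩
    exact (hL.2.2.2 (w, H w) (hKp w hw).1).1 (hKp w hw).2.2.2) (R + R)
  obtain ⟨a, ha, ho, hb⟩ := exists_a hε
  obtain ⟨a₁, ha₁, he⟩ := odd_ent ha ho
  have key : ∀ v : (E × ℂ) × ℂ, ‖v.1.2‖ ≤ 2 → (v.1.1, (1 - v.2) * v.1.2) ∈ K →
      AnalyticAt ℂ (gp ψ σ p H a₁) v ∧ (v.1, gp ψ σ p H a₁ v) ∈ Ω := by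
    intro v hv hw
    obtain ⟨k1, k2, k3, -⟩ := hKp _ hw
    refine ⟨an_gp hσ hL ha₁ k1 k3, (hL.2.2.2 (v.1, gp ψ σ p H a₁ v) k1).2 ?_⟩
    have h5 := hs a₁ (fun ζ k hk => by rw [← he]; exact hb ζ k hk) _ ⟨_, hw, rfl⟩
      (σ v.1.2 - σ ((1 - v.2) * v.1.2)) ((norm_sub_le _ _).trans (add_le_add
        (hR _ (mem_closedBall_zero_iff.2 hv)) (hR _ (mem_closedBall_zero_iff.2 k2))))
    simp only [th, add_sub_cancel] at h5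
    simpa only [gp, add_sub_cancel] using h5
  refine ⟨gp ψ σ p H a₁, fun x hx θ hθ => key (x, θ) (mem_closedBall_zero_iff.1 (hCB hx).2)
    (Or.inl ⟨(x, 1 - θ), ⟨hx, by constructor <;> linarith [hθ.1, hθ.2]⟩, by simp⟩),
    fun x => ?_, fun x hx => ?_⟩
  · simp only [gp, shr, sub_zero, one_mul, sub_self, zero_mul, add_zero, Prod.mk.eta,
      add_sub_cancel_left]
  obtain ⟨k1, k2⟩ := key (x, 1) (mem_closedBall_zero_iff.1 hx.2) (Or.inr ⟨hx.1, by simp⟩)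
  exact ⟨AnalyticAt.comp (f := fun x : E × ℂ => (x, (1 : ℂ))) k1
    (analyticAt_id.prod analyticAt_const), k2⟩

end Vale.Agent.P290
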