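import Vale.Agent.P290Z.OddSq
import Vale.Agent.P290Z.BOdd
import Vale.Agent.P290Z.Bas

/-! Tame coordinates. -/

open Set Filter Metric
open scoped Manifold ContDiff Topology

noncomputable section

namespace Vale.Agent.P290

variable {t : Tk}

namespace Tame

theorem small {l K u : ℝ} (hl : 0 < l) (hK : 0 ≤ K) (hu : 1 + 64 * K / l ≤ u) :
    Real.exp (-(l * (u ^ 2 - 1))) * (K * (1 + u)) ≤ 1 / 64 := by
  have h1 : 64 * K ≤ (u - 1) * l := (div_le_iff₀ hl).1 (by linarith)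
  have h2 : 0 ≤ 64 * K / l := by positivity
  have h3 := Real.add_one_le_exp (l * (u ^ 2 - 1))
  have h4 := mul_le_mul_of_nonneg_right h1 (show 0 ≤ 1 + u by linarith)
  rw [Real.exp_neg, inv_mul_le_iff₀ (Real.exp_pos _)]
  nlinarith

theorem parts {x a : ℂ} {ε : ℝ} (h : ‖a - x.im‖ ≤ ε) : |a.re - x.im| ≤ ε ∧ |a.im| ≤ ε :=
  ⟨by simpa using (Complex.abs_re_le_norm _).trans h,
    by simpa using (Complex.abs_im_le_norm _).trans h⟩

theorem re_ge {x a : ℂ} (h : ‖a - x.im‖ ≤ 1 / 4) : ‖x‖ ^ 2 - 1 ≤ (x ^ 2 + 3 * a ^ 2).re := by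
  obtain ⟨h1, h2⟩ := parts h
  have h3 := sq_le_sq' (abs_le.1 h1).1 (abs_le.1 h1).2
  have h4 := sq_le_sq' (abs_le.1 h2).1 (abs_le.1 h2).2
  rw [Complex.sq_norm, Complex.normSq_apply]
  simp only [sq, Complex.add_re, Complex.mul_re, Complex.mul_im, Complex.re_ofNat,
    Complex.im_ofNat]
  nlinarith [sq_nonneg (x.im + 3 * (a.re - x.im))]

theorem gam_le (γ₀ : ℂ × ℂ → ℂ) (a₁ : ℂ → ℂ) (β : ℂ) {r : ℝ × ℝ} (h1 : |r.1| ≤ 1) (h2 : |r.2| ≤ 1)
    (v : ℂ × ℂ) : ‖gam γ₀ a₁ β r v‖ ≤ ‖γ₀ v‖ + ‖β‖ * (1 + 2 * ‖a₁ v.2‖) := by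
  have h3 : ‖1 - Complex.I * a₁ v.2‖ ≤ 1 + ‖a₁ v.2‖ := by simpa using norm_sub_le 1 (Complex.I * _)
  refine (norm_add₃_le).trans ?_
  simp only [norm_mul, Complex.norm_real, Real.norm_eq_abs]
  have h4 : |r.1| * ‖β‖ * ‖a₁ v.2‖ ≤ 1 * ‖β‖ * ‖a₁ v.2‖ := by gcongr
  have h5 : |r.2| * ‖β‖ * ‖1 - Complex.I * a₁ v.2‖ ≤ 1 * ‖β‖ * (1 + ‖a₁ v.2‖) := by gcongr
  linarith

theorem low {κ z w a b E x β : ℂ} {N : ℤ} {ρ r₁ r₂ ε : ℝ} (hκ : κ ≠ 0) (hz : (κ * z).im = N)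
    (hβ : κ * β = ρ) (hρ : |ρ| ≤ 1 / 128) (h1 : |r₁| ≤ 1) (h2 : |r₂| ≤ 1) (ha : ‖a - x.im‖ ≤ ε)
    (hε : ε ≤ 1) (hw : ‖κ‖ * ‖w‖ * ε ≤ 1 / 64) (hE : ‖κ * E‖ ≤ 1 / 64)
    (hb : ‖b - 1‖ ≤ 1 / 16 ∨ ‖b + 1‖ ≤ 1 / 16) :
    3 / 16 ≤ ‖κ * (z / 2 - w * (a - x.im) + Complex.I / (4 * κ) * b + E + r₁ * β * a +
      r₂ * β * (x - Complex.I * a))‖ := by
  obtain ⟨p1, p2⟩ := parts ha
  have e : κ * (z / 2 - w * (a - x.im) + Complex.I / (4 * κ) * b + E + r₁ * β * a +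
      r₂ * β * (x - Complex.I * a)) = (2⁻¹ : ℝ) * (κ * z) - κ * w * (a - x.im) +
      (4⁻¹ : ℝ) * (Complex.I * b) + κ * E + (r₁ * ρ : ℝ) * a + (r₂ * ρ : ℝ) * (x - Complex.I * a) := by
    push_cast
    rw [← hβ]
    field_simp
  refine le_trans ?_ (Complex.abs_im_le_norm _)
  rw [e]
  simp only [Complex.add_im, Complex.sub_im, Complex.im_ofReal_mul, hz, Complex.I_mul_im]
  have q1 : |(κ * w * (a - x.im)).im| ≤ 1 / 64 := by
    refine (Complex.abs_im_le_norm _).trans (le_trans ?_ hw)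
    rw [norm_mul, norm_mul]
    gcongr
  have q2 := (Complex.abs_im_le_norm _).trans hE
  have q3 : ∀ r y : ℝ, |r| ≤ 1 → |y| ≤ ε → |r * ρ * y| ≤ 1 / 128 := fun r y hr hy => by
    rw [abs_mul, abs_mul]
    have := hy.trans hε
    calc |r| * |ρ| * |y| ≤ 1 * (1 / 128) * 1 := by gcongr
      _ = _ := by norm_num
  have q4 := abs_le.1 (q3 r₁ _ h1 p2)
  have q5 := abs_le.1 (q3 r₂ (x.im - a.re) h2 (by rwa [abs_sub_comm]))
  rw [abs_le] at q1 q2
  rw [le_abs]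
  rcases hb with hb | hb
  · have q6 : |b.re - 1| ≤ 1 / 16 := by simpa using (Complex.abs_re_le_norm _).trans hb
    rw [abs_le] at q6
    rcases le_or_gt 0 N with h | h
    · have : (0 : ℝ) ≤ N := by exact_mod_cast h
      left; linarith
    · have : (N : ℝ) + 1 ≤ 0 := by exact_mod_cast h
      right; linarith
  · have q6 : |b.re + 1| ≤ 1 / 16 := by simpa using (Complex.abs_re_le_norm _).trans hb
    rw [abs_le] at q6
    rcases le_or_gt N 0 with h | h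
    · have : (N : ℝ) ≤ 0 := by exact_mod_cast h
      right; linarith
    · have : (0 : ℝ) + 1 ≤ N := by exact_mod_cast h
      left; linarith

theorem far {κ V w z x y a b : ℂ} {N : ℤ} {l θ r₁ r₂ W : ℝ} (hκ : κ ≠ 0) (hκ2 : ‖κ‖ ≤ 1 / 8)
    (hz : (κ * z).im = N) (ex : y - V * x = z / 2 + w * x.im) (hw : ‖w‖ ≤ W) (hl : 0 < l)
    (θ0 : 0 < θ) (θ1 : θ ≤ 1 / 2) (r1 : |r₁| ≤ 1) (r2 : |r₂| ≤ 1)
    (h1 : ‖x * a - x.im‖ ≤ 1 / (8 * (W + 1))) (h2 : ‖x * b - 1‖ ≤ 1 / 16 ∨ ‖x * b + 1‖ ≤ 1 / 16)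
    (hx : 1 + 64 * (‖κ‖ * (‖V‖ + ‖Complex.I / (4 * κ)‖ * 2 + W)) / l ≤ ‖x‖) :
    3 / 16 ≤ ‖κ‖ * ‖y + x * ((1 - Complex.exp (-(l * (x ^ 2 + 3 * x ^ 2 * a ^ 2)))) *
      (-V + Complex.I / (4 * κ) * b - w * a) + r₁ * (θ * (starRingEnd ℂ) κ) * a +
      r₂ * (θ * (starRingEnd ℂ) κ) * (1 - Complex.I * a))‖ := by
  have hW := (norm_nonneg _).trans hw
  have h0 := norm_nonneg x
  have hκ0 := norm_nonneg κ
  have hε : 1 / (8 * (W + 1)) ≤ 1 / 4 := one_div_le_one_div_of_le (by norm_num) (by linarith)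
  have h3 : ‖x * b‖ ≤ 2 := by
    rcases h2 with h2 | h2
    · linarith [norm_le_norm_sub_add (x * b) 1, norm_one (α := ℂ)]
    · linarith [norm_le_add_norm_add (x * b) 1, norm_one (α := ℂ)]
  have h4 : ‖x * a‖ ≤ 1 + ‖x‖ := by
    have := norm_le_norm_sub_add (x * a) x.im
    rw [Complex.norm_real, Real.norm_eq_abs] at this
    linarith [Complex.abs_im_le_norm x]
  have h5 : ‖-(V * x) + Complex.I / (4 * κ) * (x * b) - w * (x * a)‖ ≤
      (‖V‖ + ‖Complex.I / (4 * κ)‖ * 2 + W) * (1 + ‖x‖) := by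
    refine (norm_sub_le _ _).trans ((add_le_add_left (norm_add_le _ _) _).trans ?_)
    rw [norm_neg, norm_mul, norm_mul, norm_mul w]
    have p1 := mul_le_mul hw h4 (norm_nonneg _) hW
    have p2 := mul_le_mul_of_nonneg_left h3 (norm_nonneg (Complex.I / (4 * κ)))
    have p3 := mul_nonneg (norm_nonneg (Complex.I / (4 * κ))) h0
    linarith [norm_nonneg V]
  have h6 : ‖κ * -(Complex.exp (-(l * (x ^ 2 + 3 * (x * a) ^ 2))) *
      (-(V * x) + Complex.I / (4 * κ) * (x * b) - w * (x * a)))‖ ≤ 1 / 64 := by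
    refine le_trans ?_ (small hl (by positivity) hx)
    rw [norm_mul, norm_neg, norm_mul, mul_left_comm, Complex.norm_exp, Complex.neg_re,
      Complex.re_ofReal_mul, mul_assoc]
    gcongr
    exact re_ge (h1.trans hε)
  have h7 := low (ρ := θ * ‖κ‖ ^ 2) (β := θ * (starRingEnd ℂ) κ) (w := w) hκ hz
    (by rw [mul_left_comm, Complex.mul_conj, Complex.normSq_eq_norm_sq]; push_cast; rfl)
    (by rw [abs_of_nonneg (by positivity)]; nlinarith) r1 r2 h1 (hε.trans (by norm_num))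
    (by
      rw [mul_one_div, div_le_iff₀ (by positivity)]
      linarith [mul_le_mul hκ2 hw (norm_nonneg _) (by norm_num)]) h6 h2
  rw [← norm_mul]
  refine h7.trans (le_of_eq ?_)
  rw [mul_pow, ← mul_assoc 3]
  congr 2
  linear_combination -ex

theorem dec (h : Nm t) (V s : ℂ) (n : Fin 4 → ℤ) :
    (hv n (bs t s)).2 - V * (hv n (bs t s)).1 = (n 0 * ((t 0).2 - V * (t 0).1) +
      n 1 * ((t 1).2 - V * (t 1).1) + n 2 * ((t 2).2 - V * (t 2).1)) / 2 +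
      ((t 3).2 - V * (t 3).1 + s) * (hv n (bs t s)).1.im := by
  have : ((hv n (bs t s)).1.im : ℂ) = n 3 / 2 := by
    rw [← Complex.ofReal_intCast, ← h.im s n]
    push_cast
    ring
  rw [this, hv_bs]
  simp only [hv, Fin.sum_univ_four, Prod.smul_fst, Prod.smul_snd, Prod.fst_add, Prod.snd_add]
  simp only [smul_eq_mul, zsmul_eq_mul]
  ring

theorem bd {X : Type} [NormedAddCommGroup X] [ProperSpace X] {f : X → ℂ} (hf : Continuous f)
    (r : ℝ) : ∃ B : ℝ, 0 < B ∧ ∀ x, ‖x‖ ≤ r → ‖f x‖ ≤ B := by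
  obtain ⟨B, hB⟩ := (isCompact_closedBall (0 : X) r).exists_bound_of_continuousOn hf.continuousOn
  exact ⟨|B| + 1, by positivity, fun x hx =>
    (hB x (mem_closedBall_zero_iff.2 hx)).trans (by linarith [le_abs_self B])⟩

theorem fin (h : Nm t) (M T R : ℝ) : ∃ F : Finset (Fin 4 → ℤ), 0 ∉ F ∧ ∀ s : ℂ, ‖s‖ ≤ R →
    ∀ n, n ≠ 0 → ‖(hv n (bs t s)).1‖ ≤ M → ‖(hv n (bs t s)).2‖ ≤ T → n ∈ F := by
  classical
  obtain ⟨c, hc, hl⟩ := lat_unif h.1
  have hf := (isCompact_closedBall (0 : Fin 4 → ℤ)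
    (2 * (max M T + M * R) / c)).finite_of_discrete
  refine ⟨hf.toFinset.erase 0, Finset.notMem_erase _ _, fun s hs n hn h1 h2 => ?_⟩
  rw [Finset.mem_erase, hf.mem_toFinset, mem_closedBall_zero_iff, le_div_iff₀' hc]
  refine ⟨hn, (hl.self_of_nhds n).trans ?_⟩
  have h3 : ‖hv n (bs t s)‖ ≤ max M T := max_le_max h1 h2
  have h4 : |(n 3 : ℝ)| ≤ 2 * M := by
    rw [← h.im s n, abs_mul, abs_two]
    linarith [Complex.abs_im_le_norm (hv n (bs t s)).1]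
  have h5 : ‖((0, n 3 * s / 2) : ℂ × ℂ)‖ ≤ M * R := by
    have := mul_le_mul h4 hs (norm_nonneg _) ((abs_nonneg _).trans h4)
    rw [Prod.norm_mk, norm_zero, max_eq_right (norm_nonneg _), norm_div, norm_mul,
      Complex.norm_intCast, Complex.norm_two]
    linarith
  have h6 := norm_sub_le (hv n (bs t s)) (0, n 3 * s / 2)
  rw [← eq_sub_of_add_eq (hv_bs t s n).symm] at h6
  rw [← hv_two]
  linarith [norm_add_le (hv n t) (hv n t)]

end Tame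

theorem exists_tame (h : Nm t) (hd : DirH t) (M C R : ℝ) :
    ∃ (γ₀ : ℂ × ℂ → ℂ) (a₁ : ℂ → ℂ) (β : ℂ) (F : Finset (Fin 4 → ℤ)),
      AnalyticOnNhd ℂ γ₀ univ ∧ Differentiable ℂ a₁ ∧ β ≠ 0 ∧ 0 ∉ F ∧
      ∀ r : ℝ × ℝ, |r.1| ≤ 1 → |r.2| ≤ 1 → Tm t (gam γ₀ a₁ β r) F C R ∧
        ∀ s η : ℂ, ‖s‖ ≤ R → ‖η‖ ≤ M → ‖gam γ₀ a₁ β r (s, η)‖ ≤ 1 := by
  have hC0 := abs_nonneg C
  obtain ⟨κ, V, hκ, hκ1, hν⟩ := hd (1 / (8 * (|C| + 1))) (by positivity)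
  rw [le_div_iff₀ (by positivity)] at hκ1
  have hκ0 := norm_nonneg κ
  have hκ2 : ‖κ‖ ≤ 1 / 8 := by nlinarith
  obtain ⟨ν0, e0⟩ := hν 0 (by decide)
  obtain ⟨ν1, e1⟩ := hν 1 (by decide)
  obtain ⟨ν2, e2⟩ := hν 2 (by decide)
  set m := (t 3).2 - V * (t 3).1 with hm
  set W := ‖m‖ + |R| with hW
  have hW0 : 0 ≤ W := by positivity
  have hms : ∀ s : ℂ, ‖s‖ ≤ R → ‖m + s‖ ≤ W := fun s hs =>
    (norm_add_le _ _).trans (by linarith [le_abs_self R])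
  obtain ⟨b, M0, hb, bo, hb1⟩ := exists_b (ε := 1 / 16) (by norm_num)
  obtain ⟨b₁, db, eb⟩ := odd_ent hb bo
  obtain ⟨a, ha, ao, ha1⟩ := exists_a (ε := 1 / (8 * (W + 1))) (by positivity)
  obtain ⟨a₁, da, ea⟩ := odd_ent ha ao
  have aa : ∀ v : ℂ × ℂ, AnalyticAt ℂ (fun v : ℂ × ℂ => a₁ v.2) v := fun v =>
    (da.analyticAt _).comp analyticAt_snd
  have ab : ∀ v : ℂ × ℂ, AnalyticAt ℂ (fun v : ℂ × ℂ => b₁ v.2) v := fun v =>
    (db.analyticAt _).comp analyticAt_snd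
  set G : ℂ × ℂ → ℂ := fun v => -V + Complex.I / (4 * κ) * b₁ v.2 - (m + v.1) * a₁ v.2 with hG
  have aG : ∀ v, AnalyticAt ℂ G v := fun v => (analyticAt_const.add (analyticAt_const.mul
    (ab v))).sub ((analyticAt_const.add analyticAt_fst).mul (aa v))
  obtain ⟨B, hB, bG⟩ := Tame.bd (f := G) (continuous_iff_continuousAt.2 fun v =>
    (aG v).continuousAt) (max R M)
  obtain ⟨B', hB', bH⟩ := Tame.bd (f := fun η => η + 3 * η * a₁ η ^ 2)
    (by have := da.continuous; fun_prop) M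
  obtain ⟨A, hA, bA⟩ := Tame.bd da.continuous M
  set l : ℝ := 1 / (4 * (B + 1) * B') with hl
  have hl0 : 0 < l := by positivity
  set γ₀ : ℂ × ℂ → ℂ := fun v => (1 - Complex.exp (-(l * (v.2 + 3 * v.2 * a₁ v.2 ^ 2)))) * G v
    with hγ
  have aγ : ∀ v, AnalyticAt ℂ γ₀ v := fun v => (analyticAt_const.sub (analyticAt_const.mul
    (analyticAt_snd.add ((analyticAt_const.mul analyticAt_snd).mul ((aa v).pow 2)))).neg.cexp).mul
      (aG v)
  set θ : ℝ := 1 / (2 * (1 + 2 * A)) with hθ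
  have hθ0 : 0 < θ := by positivity
  have hθ1 : θ ≤ 1 / 2 := one_div_le_one_div_of_le (by norm_num) (by linarith)
  have nβ : ‖θ * (starRingEnd ℂ) κ‖ ≤ θ := by
    rw [norm_mul, Complex.norm_real, Complex.norm_conj, Real.norm_of_nonneg hθ0.le]
    nlinarith
  set K := ‖κ‖ * (‖V‖ + ‖Complex.I / (4 * κ)‖ * 2 + W) with hK
  have hK0 : 0 ≤ K := by positivity
  set M1 := max M0 (1 + 64 * K / l) with hM1
  obtain ⟨D, hD, bD⟩ := Tame.bd (f := γ₀) (continuous_iff_continuousAt.2 fun v =>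
    (aγ v).continuousAt) (max R (M1 ^ 2))
  obtain ⟨D', hD', bD'⟩ := Tame.bd da.continuous (M1 ^ 2)
  obtain ⟨F, hF0, hF⟩ := Tame.fin h M1 (C + M1 * (D + θ * (1 + 2 * D'))) R
  refine ⟨γ₀, a₁, θ * (starRingEnd ℂ) κ, F, fun v _ => aγ v, da,
    mul_ne_zero (by exact_mod_cast hθ0.ne') ((map_ne_zero _).2 hκ), hF0,
    fun r r1 r2 => ⟨fun s hs n hn hy => ?_, fun s η hs hη => ?_⟩⟩
  · have hi := h.im s n
    have ex := Tame.dec h V s n
    rw [yc, one_mul] at hy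
    generalize hx : (hv n (bs t s)).1 = x at hi ex hy
    generalize hy' : (hv n (bs t s)).2 = y at ex hy
    have h0 := norm_nonneg x
    rcases le_total ‖x‖ M1 with hx1 | hx1
    · refine hF s hs n hn (hx ▸ hx1) (hy' ▸ ?_)
      have h1 : ‖x ^ 2‖ ≤ M1 ^ 2 := by rw [norm_pow]; gcongr
      have h2 := bD (s, x ^ 2) (max_le_max hs h1)
      have h3 := bD' _ h1
      have h4 : ‖x * gam γ₀ a₁ (θ * (starRingEnd ℂ) κ) r (s, x ^ 2)‖ ≤
          M1 * (D + θ * (1 + 2 * D')) := by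
        rw [norm_mul]
        refine mul_le_mul hx1 ((Tame.gam_le _ _ _ r1 r2 _).trans ?_) (norm_nonneg _) (h0.trans hx1)
        gcongr
      have h5 := norm_sub_le (y + x * gam γ₀ a₁ (θ * (starRingEnd ℂ) κ) r (s, x ^ 2))
        (x * gam γ₀ a₁ (θ * (starRingEnd ℂ) κ) r (s, x ^ 2))
      rw [add_sub_cancel_right] at h5
      linarith
    exfalso
    have h1 := ha1 x _ hi
    have h2 := hb1 x _ hi (by
      by_cases hk : n 3 = 0
      · have : x.im = 0 := by rw [hk] at hi; simpa using hi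
        right
        rw [(Complex.abs_re_eq_norm).2 this]
        exact (le_max_left _ _).trans hx1
      · exact Or.inl hk)
    rw [ea] at h1
    rw [eb] at h2
    have h7 := Tame.far (N := n 0 * ν0 + n 1 * ν1 + n 2 * ν2) hκ hκ2 (by
      simp only [mul_add, mul_left_comm κ, Complex.add_im, ← Complex.ofReal_intCast,
        Complex.im_ofReal_mul, e0, e1, e2]
      push_cast
      rfl) ex (hms s hs) hl0 hθ0 hθ1 r1 r2 h1 h2 ((le_max_right _ _).trans hx1)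
    have h8 := mul_le_mul_of_nonneg_left (hy.le.trans (le_abs_self C)) hκ0
    have h9 := h7.trans h8
    linarith
  · refine (Tame.gam_le _ _ _ r1 r2 _).trans ?_
    have h1 : ‖-(l * (η + 3 * η * a₁ η ^ 2))‖ ≤ 1 / (4 * (B + 1)) := by
      rw [norm_neg, norm_mul, Complex.norm_real, Real.norm_of_nonneg hl0.le]
      refine (mul_le_mul_of_nonneg_left (bH η hη) hl0.le).trans (le_of_eq ?_)
      rw [hl]
      field_simp
    have h2 := Complex.norm_exp_sub_one_le (h1.trans ((div_le_one (by positivity)).2 (by linarith)))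
    have h3 : ‖γ₀ (s, η)‖ ≤ 2 * (1 / (4 * (B + 1))) * (B + 1) := by
      rw [hγ]
      simp only [norm_mul]
      rw [norm_sub_rev]
      exact mul_le_mul (by linarith) ((bG _ (max_le_max hs hη)).trans (by linarith))
        (norm_nonneg _) (by positivity)
    have h4 : ‖θ * (starRingEnd ℂ) κ‖ * (1 + 2 * ‖a₁ η‖) ≤ θ * (1 + 2 * A) := by
      have := bA η hη
      gcongr
    have h5 : θ * (1 + 2 * A) = 1 / 2 := by rw [hθ]; field_simp
    have h6 : 2 * (1 / (4 * (B + 1))) * (B + 1) = 1 / 2 := by field_simp; norm_num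
    linarith

end Vale.Agent.P290
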