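import Vale.Agent.P290Z.Evp

/-! Comparison on the exceptional curves. -/

open Set Filter Metric
open scoped Manifold ContDiff Topology

noncomputable section

namespace Vale.Agent.P290

variable {E : Type} [NormedAddCommGroup E] [NormedSpace ℂ E] [FiniteDimensional ℂ E]
  {X : Type} [MetricSpace X] [ChartedSpace C2 X] [IsManifold 𝓘(ℂ, C2) ω X]
  {t : Tk} {q : ℂ × ℂ → X} {e : ℂ × ℂ → ℂ × ℂ × ℂ → X} {s : ℂ}

namespace UniZ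

theorem par {P Q : ℂ × ℂ} (hP : P ≠ 0) (h : P.1 * Q.2 = P.2 * Q.1) : ∃ g : ℂ, Q = g • P := by
  by_cases h1 : P.1 = 0
  · have h2 : P.2 ≠ 0 := fun h2 => hP (Prod.ext h1 h2)
    refine ⟨Q.2 / P.2, Prod.ext ?_ ?_⟩
    · rw [h1, zero_mul] at h
      simp [h1, (mul_eq_zero.1 h.symm).resolve_left h2]
    · simp [h2]
  · refine ⟨Q.1 / P.1, Prod.ext ?_ ?_⟩
    · simp [h1]
    · simp only [Prod.smul_snd, smul_eq_mul]
      field_simp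
      linear_combination h

theorem small {ψ : E → ℂ} {P : E → ℂ × ℂ} {z₀ : E} (a : ContinuousAt ψ z₀)
    (b : ContinuousAt P z₀) (e₁ : ψ z₀ = 0) {δ : ℝ} (hδ : 0 < δ) :
    ∀ᶠ z in 𝓝 z₀, ∀ w : ℂ, w ^ 2 = ψ z → ‖w • P z‖ < δ := by
  have h1 : ContinuousAt (fun z => ‖ψ z‖ * ‖P z‖ ^ 2) z₀ := a.norm.mul (b.norm.pow 2)
  have h2 : ‖ψ z₀‖ * ‖P z₀‖ ^ 2 < δ ^ 2 := by
    rw [e₁, norm_zero, zero_mul]
    positivity
  filter_upwards [h1.eventually (gt_mem_nhds h2)] with z hz w hw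
  rw [← hw, norm_pow, ← mul_pow, ← norm_smul] at hz
  exact lt_of_pow_lt_pow_left₀ 2 hδ.le hz

theorem point {Λ : Submodule ℤ (ℂ × ℂ)} (h : Kum Λ q e) {μ μ' : ℂ × ℂ} (hμ : μ + μ ∈ Λ)
    (hμ' : μ' + μ' ∈ Λ) (hd : μ - μ' ∈ Λ) {δ : ℝ} (hδ : ∀ l ∈ Λ, ‖l‖ < δ → l = 0) {u u' : ℂ}
    {P P' : ℂ × ℂ} (g1 : Gd Λ u P) (g2 : Gd Λ u' P')
    (s1 : ∀ w : ℂ, w ^ 2 = u → ‖w • P‖ < δ / 2) (s2 : ∀ w : ℂ, w ^ 2 = u' → ‖w • P'‖ < δ / 2)
    (he : evp q e μ u P = evp q e μ' u' P') : ∃ g : ℂ, P' = g • P ∧ u = g ^ 2 * u' := by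
  obtain ⟨w, hw⟩ : ∃ w : ℂ, w ^ 2 = u := IsAlgClosed.exists_pow_nat_eq u two_pos
  obtain ⟨w', hw'⟩ : ∃ w : ℂ, w ^ 2 = u' := IsAlgClosed.exists_pow_nat_eq u' two_pos
  by_cases h0 : w = 0 <;> by_cases h0' : w' = 0
  · have hu : u = 0 := by rw [← hw, h0]; simp
    have hu' : u' = 0 := by rw [← hw', h0']; simp
    simp only [evp, hu, hu', if_true] at he
    obtain ⟨g, hg⟩ := par g1.1 ((h.eeq _ _ _ _ hμ hμ' g1.1 g2.1).1 he).2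
    exact ⟨g, hg, by rw [hu, hu', mul_zero]⟩
  · have hu : u = 0 := by rw [← hw, h0]; simp
    obtain ⟨k1, k2⟩ := evp_eq h hμ' g2 hw' h0'
    rw [k2] at he
    simp only [evp, hu, if_true] at he
    exact absurd he.symm (h.ene _ _ _ k1 hμ g1.1)
  · have hu : u' = 0 := by rw [← hw', h0']; simp
    obtain ⟨k1, k2⟩ := evp_eq h hμ g1 hw h0
    rw [k2] at he
    simp only [evp, hu, if_true] at he
    exact absurd he (h.ene _ _ _ k1 hμ' g2.1)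
  obtain ⟨k1, k2⟩ := evp_eq h hμ g1 hw h0
  obtain ⟨k3, k4⟩ := evp_eq h hμ' g2 hw' h0'
  rw [k2, k4] at he
  have t1 := s1 w hw
  have t2 := s2 w' hw'
  rcases (h.qeq _ _ k1 k3).1 he with k | k
  · have k5 : w • P - w' • P' ∈ Λ := by
      have := Λ.sub_mem k hd
      rwa [show μ + w • P - (μ' + w' • P') - (μ - μ') = w • P - w' • P' by abel] at this
    have k6 := hδ _ k5 ((norm_sub_le _ _).trans_lt (by linarith))
    refine ⟨w / w', ?_, ?_⟩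
    · rw [div_eq_inv_mul, mul_smul, sub_eq_zero.1 k6, smul_smul, inv_mul_cancel₀ h0', one_smul]
    · rw [← hw, ← hw']
      field_simp
  · have k5 : w • P + w' • P' ∈ Λ := by
      have := Λ.sub_mem (Λ.sub_mem k hd) hμ'
      rwa [show μ + w • P + (μ' + w' • P') - (μ - μ') - (μ' + μ') = w • P + w' • P' by abel] at this
    have k6 := hδ _ k5 ((norm_add_le _ _).trans_lt (by linarith))
    refine ⟨-w / w', ?_, ?_⟩
    · rw [div_eq_inv_mul, mul_smul, neg_smul, neg_eq_of_add_eq_zero_right k6, smul_smul,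
        inv_mul_cancel₀ h0', one_smul]
    · rw [← hw, ← hw']
      field_simp

end UniZ

theorem uni_zero (hn : Nm t) (h : Kum (Lat (bs t s)) q e) {ψ₁ ψ₂ k₁ k₂ : E → ℂ}
    {h₁ h₂ : E → ℂ × ℂ} {n₁ n₂ : Fin 4 → ℤ} {z₀ : E} (a₁ : AnalyticAt ℂ ψ₁ z₀)
    (a₂ : AnalyticAt ℂ ψ₂ z₀) (b₁ : AnalyticAt ℂ h₁ z₀) (b₂ : AnalyticAt ℂ h₂ z₀)
    (c₁ : AnalyticAt ℂ k₁ z₀) (c₂ : AnalyticAt ℂ k₂ z₀)
    (he : ∀ᶠ z in 𝓝 z₀, Gd (Lat (bs t s)) (ψ₁ z) (pv (n₁, h₁ z, k₁ z) s) ∧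
      Gd (Lat (bs t s)) (ψ₂ z) (pv (n₂, h₂ z, k₂ z) s) ∧
      evd q e t s (ψ₁ z) (n₁, h₁ z, k₁ z) = evd q e t s (ψ₂ z) (n₂, h₂ z, k₂ z))
    (e₁ : ψ₁ z₀ = 0) (e₂ : ψ₂ z₀ = 0) :
    ∃ g c : E → ℂ, AnalyticAt ℂ g z₀ ∧ AnalyticAt ℂ c z₀ ∧ ∀ᶠ z in 𝓝 z₀, g z ≠ 0 ∧
      ψ₁ z = g z ^ 2 * ψ₂ z ∧
      Rel t (ψ₂ z) (sh 0 s (c z) (sc (g z) (n₁, h₁ z, k₁ z))) (n₂, h₂ z, k₂ z) := by
  obtain ⟨δ, hδ, hd⟩ := isDisc_lat (hn.li s)
  have p₁ : AnalyticAt ℂ (fun z => pv (n₁, h₁ z, k₁ z) s) z₀ :=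
    b₁.add (analyticAt_const.prod (analyticAt_const.mul c₁))
  have p₂ : AnalyticAt ℂ (fun z => pv (n₂, h₂ z, k₂ z) s) z₀ :=
    b₂.add (analyticAt_const.prod (analyticAt_const.mul c₂))
  obtain ⟨g1, g2, g3⟩ := he.self_of_nhds
  simp only [evd, evp, e₁, e₂, if_true] at g3
  have hm := ((h.eeq _ _ _ _ (hv_mem _ _) (hv_mem _ _) g1.1 g2.1).1 g3).1
  obtain ⟨m, hm'⟩ := (Submodule.mem_span_range_iff_exists_fun ℤ).1 hm
  have lin : ∀ τ : Tk, hv (n₁ - n₂ - 2 • m) τ = hv n₁ τ - hv n₂ τ - ∑ j, m j • τ j := by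
    intro τ
    have h2 : ∀ x y : ℂ × ℂ, x + x = y + y → x = y := fun x y hxy => by
      have : (2 : ℂ) • x = (2 : ℂ) • y := by rwa [two_smul, two_smul]
      exact smul_right_injective _ two_ne_zero this
    refine h2 _ _ ?_
    rw [show hv n₁ τ - hv n₂ τ - ∑ j, m j • τ j + (hv n₁ τ - hv n₂ τ - ∑ j, m j • τ j) =
      (hv n₁ τ + hv n₁ τ) - (hv n₂ τ + hv n₂ τ) - (∑ j, m j • τ j + ∑ j, m j • τ j) by abel,
      hv_two, hv_two, hv_two, ← Finset.sum_add_distrib, ← Finset.sum_sub_distrib,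
      ← Finset.sum_sub_distrib]
    refine Finset.sum_congr rfl fun j _ => ?_
    simp only [Pi.sub_apply, two_smul, Pi.add_apply, sub_smul, add_smul]
  have hz : n₁ - n₂ - 2 • m = 0 := hn.hv_eq (s := s) (by rw [lin, hm', sub_self])
  have hall : ∀ τ : Tk, hv n₁ τ = hv n₂ τ + ∑ j, m j • τ j := by
    intro τ
    have h1 := lin τ
    have h2 := hv_two (0 : Fin 4 → ℤ) τ
    simp only [Pi.zero_apply, zero_smul, Finset.sum_const_zero] at h2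
    have h3 : hv (0 : Fin 4 → ℤ) τ = 0 := by
      have : (2 : ℂ) • hv (0 : Fin 4 → ℤ) τ = 0 := by rwa [two_smul]
      exact (smul_eq_zero.1 this).resolve_left two_ne_zero
    rw [hz, h3, sub_sub] at h1
    exact sub_eq_zero.1 h1.symm
  obtain ⟨ℓ, hℓ⟩ : ∃ ℓ : (ℂ × ℂ) →L[ℂ] ℂ, ℓ (pv (n₁, h₁ z₀, k₁ z₀) s) ≠ 0 := by
    by_contra hc
    push Not at hc
    exact g1.1 (Prod.ext (hc (ContinuousLinearMap.fst ℂ ℂ ℂ)) (hc (ContinuousLinearMap.snd ℂ ℂ ℂ)))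
  have l₁ := (ℓ.analyticAt _).fun_comp p₁
  have l₂ := (ℓ.analyticAt _).fun_comp p₂
  have lg := l₂.div l₁ hℓ
  refine ⟨_, fun z => k₂ z - _ * k₁ z, lg, c₂.sub (lg.mul c₁), ?_⟩
  filter_upwards [he, UniZ.small a₁.continuousAt p₁.continuousAt e₁ (half_pos hδ),
    UniZ.small a₂.continuousAt p₂.continuousAt e₂ (half_pos hδ),
    l₁.continuousAt.eventually_ne hℓ] with z hz s1 s2 s3
  obtain ⟨g, hg, hu⟩ := UniZ.point h (hv_mem _ _) (hv_mem _ _) hm hd hz.1 hz.2.1 s1 s2 hz.2.2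
  have hg' : ℓ (pv (n₂, h₂ z, k₂ z) s) / ℓ (pv (n₁, h₁ z, k₁ z) s) = g := by
    rw [hg, map_smul, smul_eq_mul, mul_div_assoc, div_self s3, mul_one]
  simp only [Pi.div_apply]
  rw [hg']
  have hs : (sh 0 s (k₂ z - g * k₁ z) (sc g (n₁, h₁ z, k₁ z))).2 = (h₂ z, k₂ z) := by
    have u1 := congrArg Prod.fst hg
    have u2 := congrArg Prod.snd hg
    simp only [pv, Prod.fst_add, Prod.snd_add, Prod.smul_fst, Prod.smul_snd, smul_eq_mul] at u1 u2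
    refine Prod.ext (Prod.ext ?_ ?_) ?_ <;> simp only [sh, sc, Prod.fst_sub, Prod.snd_sub,
      add_zero, Prod.smul_fst, Prod.smul_snd, smul_eq_mul]
    · linear_combination -u1
    · linear_combination -u2
    · ring
  refine ⟨fun h0 => hz.2.1.1 (by rw [hg, h0, zero_smul]), hu, fun _ => hs, fun w _ => ⟨m, fun s' => ?_⟩⟩
  have : pv (sh 0 s (k₂ z - g * k₁ z) (sc g (n₁, h₁ z, k₁ z))) s' = pv (n₂, h₂ z, k₂ z) s' := by
    simp only [pv, hs]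
  rw [this, add_right_comm, ← hall]
  rfl

end Vale.Agent.P290
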