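import Vale.Agent.P290Z.UniN
import Vale.Agent.P290Z.UniZ

/-! Local comparison of presentations. -/

open Set Filter Metric
open scoped Manifold ContDiff Topology

noncomputable section

namespace Vale.Agent.P290

variable {E : Type} [NormedAddCommGroup E] [NormedSpace ℂ E] [FiniteDimensional ℂ E]
  {X : Type} [MetricSpace X] [ChartedSpace C2 X] [IsManifold 𝓘(ℂ, C2) ω X]
  {t : Tk} {q : ℂ × ℂ → X} {e : ℂ × ℂ → ℂ × ℂ × ℂ → X} {s : ℂ}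

namespace UniL

theorem sum_mem (m : Fin 4 → ℤ) (t : Tk) : ∑ j, m j • t j ∈ Lat t := by
  rw [← hv_two]
  exact hv_mem m t

theorem sum_inj (hn : Nm t) {m m' : Fin 4 → ℤ}
    (h : ∑ j, m j • bs t s j = ∑ j, m' j • bs t s j) : m = m' := by
  refine sub_eq_zero.1 (hn.hv_eq (s := s) ?_)
  unfold hv
  simp only [Pi.sub_apply, sub_smul, Finset.sum_sub_distrib]
  rw [h, sub_self, smul_zero]

theorem pv_eq (g c : ℂ) (d : Dt) (s' : ℂ) :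
    pv (sh 0 s c (sc g d)) s' = g • pv d s' + (0, (s' - s) * c) := by
  rw [pv_sh, pv_sc, add_zero]

omit [MetricSpace X] [ChartedSpace C2 X] [IsManifold 𝓘(ℂ, C2) ω X] in
theorem evd_zero (d : Dt) : evd q e t s 0 d = e (hv d.1 (bs t s)) (0, pv d s) := by
  unfold evd evp
  rw [if_pos rfl]

theorem zero_of (h : Kum (Lat (bs t s)) q e) {u u' : ℂ} {d d' : Dt}
    (hg : Gd (Lat (bs t s)) u (pv d s)) (hg' : Gd (Lat (bs t s)) u' (pv d' s))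
    (he : evd q e t s u d = evd q e t s u' d') (h0 : u = 0) : u' = 0 := by
  by_contra h1
  obtain ⟨w, hw⟩ := IsAlgClosed.exists_pow_nat_eq u' two_pos
  have hw0 : w ≠ 0 := by
    rintro rfl
    exact h1 (by rw [← hw]; norm_num)
  obtain ⟨h2, h3⟩ := evp_eq h (hv_mem d'.1 (bs t s)) hg' hw hw0
  rw [h0, evd_zero] at he
  exact h.ene _ _ _ h2 (hv_mem d.1 (bs t s)) hg.1 (h3.symm.trans he.symm)

end UniL

theorem uni_uniq (hn : Nm t) {u₁ u₂ g g' c c' : ℂ} {d₁ d₂ : Dt}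
    (hg : Gd (Lat (bs t s)) u₁ (pv d₁ s)) (h0 : g ≠ 0) (e1 : u₁ = g ^ 2 * u₂)
    (e2 : u₁ = g' ^ 2 * u₂) (r1 : Rel t u₂ (sh 0 s c (sc g d₁)) d₂)
    (r2 : Rel t u₂ (sh 0 s c' (sc g' d₁)) d₂) : g = g' ∧ c = c' := by
  by_cases hu : u₂ = 0
  · have h1 := (r1.1 hu).trans (r2.1 hu).symm
    have h2 : pv (sh 0 s c (sc g d₁)) s = pv (sh 0 s c' (sc g' d₁)) s := by
      unfold pv
      rw [h1]
    rw [UniL.pv_eq, UniL.pv_eq, sub_self, zero_mul, zero_mul] at h2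
    have h3 : g = g' := smul_left_injective ℂ hg.1 (add_right_cancel h2)
    refine ⟨h3, ?_⟩
    have h4 : g * d₁.2.2 + c = g' * d₁.2.2 + c' := congrArg Prod.snd h1
    rw [h3] at h4
    exact add_left_cancel h4
  · obtain ⟨w, hw⟩ := IsAlgClosed.exists_pow_nat_eq u₂ two_pos
    have hw0 : w ≠ 0 := by
      rintro rfl
      exact hu (by rw [← hw]; norm_num)
    obtain ⟨m, hm⟩ := r1.2 w hw
    obtain ⟨m', hm'⟩ := r2.2 w hw
    have key : ∀ s', w • (g • pv d₁ s' + (0, (s' - s) * c)) + ∑ j, m' j • bs t s' j =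
        w • (g' • pv d₁ s' + (0, (s' - s) * c')) + ∑ j, m j • bs t s' j := by
      intro s'
      have h1 := hm s'
      have h2 := hm' s'
      rw [UniL.pv_eq] at h1 h2
      change hv d₁.1 _ + _ = _ at h1 h2
      linear_combination (exp := 1) h1 - h2
    have h3 := key s
    simp only [sub_self, zero_mul, Prod.mk_zero_zero, add_zero] at h3
    have h4 : g ^ 2 = g' ^ 2 := mul_right_cancel₀ hu (e1.symm.trans e2)
    rcases sq_eq_sq_iff_eq_or_eq_neg.1 h4 with h5 | h5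
    · subst h5
      have h6 : m' = m := UniL.sum_inj hn (add_left_cancel h3)
      subst h6
      have h7 := congrArg Prod.snd (add_left_cancel
        (smul_right_injective _ hw0 (add_right_cancel (key (s + 1)))))
      simp only [add_sub_cancel_left, one_mul] at h7
      exact ⟨rfl, h7⟩
    · exfalso
      have h6 : (g * w) • pv d₁ s + (g * w) • pv d₁ s =
          ∑ j, m j • bs t s j - ∑ j, m' j • bs t s j := by
        have h7 : g' = -g := by rw [h5, neg_neg]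
        rw [h7, smul_smul, smul_smul, mul_neg, neg_smul, mul_comm w g] at h3
        linear_combination (exp := 1) h3
      have h8 := hg.2 (g * w) (by rw [mul_pow, hw, e1])
        (h6 ▸ Submodule.sub_mem _ (UniL.sum_mem m _) (UniL.sum_mem m' _))
      exact mul_ne_zero h0 hw0 h8

theorem uni_loc (hn : Nm t) (h : Kum (Lat (bs t s)) q e) {f : E → X} {ψ₁ ψ₂ : E → ℂ}
    {d₁ d₂ : E → Dt} {z₀ : E} (h₁ : IsP q e t s f ψ₁ d₁ {z₀}) (h₂ : IsP q e t s f ψ₂ d₂ {z₀}) :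
    ∃ g c : E → ℂ, AnalyticAt ℂ g z₀ ∧ AnalyticAt ℂ c z₀ ∧ ∀ᶠ z in 𝓝 z₀, g z ≠ 0 ∧
      ψ₁ z = g z ^ 2 * ψ₂ z ∧ Rel t (ψ₂ z) (sh 0 s (c z) (sc (g z) (d₁ z))) (d₂ z) := by
  obtain ⟨a₁, n₁, H₁, k₁, b₁, c₁, R₁⟩ := h₁.1 z₀ rfl
  obtain ⟨a₂, n₂, H₂, k₂, b₂, c₂, R₂⟩ := h₂.1 z₀ rfl
  have G₁ := h₁.2
  have G₂ := h₂.2
  rw [nhdsSet_singleton] at G₁ G₂
  have he : ∀ᶠ z in 𝓝 z₀, Gd (Lat (bs t s)) (ψ₁ z) (pv (n₁, H₁ z, k₁ z) s) ∧
      Gd (Lat (bs t s)) (ψ₂ z) (pv (n₂, H₂ z, k₂ z) s) ∧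
      evd q e t s (ψ₁ z) (n₁, H₁ z, k₁ z) = evd q e t s (ψ₂ z) (n₂, H₂ z, k₂ z) := by
    filter_upwards [R₁, R₂, G₁, G₂] with z r₁ r₂ g₁ g₂
    have k1 := r₁.gd s 0
    have k2 := r₂.gd s 0
    simp only [add_zero] at k1 k2
    refine ⟨k1.2 g₁.1, k2.2 g₂.1, ?_⟩
    rw [evd_rel h r₁ (k1.2 g₁.1), evd_rel h r₂ (k2.2 g₂.1), g₁.2, g₂.2]
  have h0 := he.self_of_nhds
  have main : ∃ g c : E → ℂ, AnalyticAt ℂ g z₀ ∧ AnalyticAt ℂ c z₀ ∧ ∀ᶠ z in 𝓝 z₀, g z ≠ 0 ∧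
      ψ₁ z = g z ^ 2 * ψ₂ z ∧
      Rel t (ψ₂ z) (sh 0 s (c z) (sc (g z) (n₁, H₁ z, k₁ z))) (n₂, H₂ z, k₂ z) := by
    by_cases e₁ : ψ₁ z₀ = 0
    · exact uni_zero hn h a₁ a₂ b₁ b₂ c₁ c₂ he e₁ (UniL.zero_of h h0.1 h0.2.1 h0.2.2 e₁)
    · exact uni_ne hn h a₁ a₂ b₁ b₂ c₁ c₂ he e₁
        fun e₂ => e₁ (UniL.zero_of h h0.2.1 h0.1 h0.2.2.symm e₂)
  obtain ⟨g, c, hg, hc, hz⟩ := main
  refine ⟨g, c, hg, hc, ?_⟩
  filter_upwards [hz, R₁, R₂] with z hz r₁ r₂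
  refine ⟨hz.1, hz.2.1, ?_⟩
  rw [hz.2.1] at r₁
  exact ((r₁.symm.sc.sh 0 s (c z)).trans hz.2.2).trans r₂

end Vale.Agent.P290
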