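import Vale.Agent.P290Z.Evp

/-! Comparison off the exceptional curves. -/

open Set Filter Metric
open scoped Manifold ContDiff Topology

noncomputable section

namespace Vale.Agent.P290

variable {E : Type} [NormedAddCommGroup E] [NormedSpace ℂ E] [FiniteDimensional ℂ E]
  {X : Type} [MetricSpace X] [ChartedSpace C2 X] [IsManifold 𝓘(ℂ, C2) ω X]
  {t : Tk} {q : ℂ × ℂ → X} {e : ℂ × ℂ → ℂ × ℂ × ℂ → X} {s : ℂ}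

namespace UniN

omit [FiniteDimensional ℂ E] in
theorem root {ψ : E → ℂ} {z₀ : E} (a : AnalyticAt ℂ ψ z₀) {w₀ : ℂ} (hw : w₀ ^ 2 = ψ z₀)
    (h0 : ψ z₀ ≠ 0) : ∃ w : E → ℂ, AnalyticAt ℂ w z₀ ∧ w z₀ = w₀ ∧ ∀ z, w z ^ 2 = ψ z := by
  refine ⟨fun z => w₀ * (ψ z / ψ z₀) ^ (2⁻¹ : ℂ), analyticAt_const.mul
    ((a.div analyticAt_const h0).cpow analyticAt_const ?_), ?_, fun z => ?_⟩
  · simp [div_self h0]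
  · simp only [div_self h0, Complex.one_cpow, mul_one]
  · rw [mul_pow, Complex.cpow_ofNat_inv_pow, hw, mul_div_cancel₀ _ h0]

theorem alg {n₁ n₂ m : Fin 4 → ℤ} {h₁ h₂ : ℂ × ℂ} {k₁ k₂ w₁ w₂ : ℂ} (h0 : w₂ ≠ 0)
    (hm : ∑ j, m j • bs t s j = hv n₁ (bs t s) + w₁ • pv (n₁, h₁, k₁) s
      - (hv n₂ (bs t s) + w₂ • pv (n₂, h₂, k₂) s)) :
    Rel t (w₂ ^ 2) (sh 0 s (k₂ - w₁ / w₂ * k₁ + (n₂ 3 / 2 + m 3 - n₁ 3 / 2) / w₂)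
      (sc (w₁ / w₂) (n₁, h₁, k₁))) (n₂, h₂, k₂) := by
  have key : ∀ s', hv n₁ (bs t s') + w₂ • pv (sh 0 s
      (k₂ - w₁ / w₂ * k₁ + (n₂ 3 / 2 + m 3 - n₁ 3 / 2) / w₂) (sc (w₁ / w₂) (n₁, h₁, k₁))) s'
      = hv n₂ (bs t s') + w₂ • pv (n₂, h₂, k₂) s' + ∑ j, m j • bs t s' j := by
    intro s'
    rw [pv_sh, pv_sc]
    rw [sum_bs, hv_bs, hv_bs] at hm ⊢
    have e1 := congrArg Prod.fst hm
    have e2 := congrArg Prod.snd hm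
    simp only [pv, Prod.fst_add, Prod.snd_add, Prod.fst_sub, Prod.snd_sub, Prod.smul_fst,
      Prod.smul_snd, smul_eq_mul] at e1 e2
    refine Prod.ext ?_ ?_
    · simp only [pv, Prod.fst_add, Prod.smul_fst, smul_eq_mul, Prod.fst_zero]
      field_simp
      linear_combination -e1
    · simp only [pv, Prod.snd_add, Prod.smul_snd, smul_eq_mul, Prod.snd_zero]
      field_simp
      linear_combination -2 * e2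
  refine ⟨fun h => absurd h (pow_ne_zero 2 h0), fun w hw => ?_⟩
  rcases sq_eq_sq_iff_eq_or_eq_neg.1 hw with rfl | rfl
  · exact ⟨m, key⟩
  · refine ⟨n₁ - n₂ - m, fun s' => ?_⟩
    have e := key s'
    rw [← hv_two m] at e
    simp only [Pi.sub_apply, sub_smul, Finset.sum_sub_distrib, ← hv_two, neg_smul]
    change hv n₁ _ + _ = hv n₂ _ + _ + _
    linear_combination (exp := 1) -e

end UniN

theorem uni_ne (hn : Nm t) (h : Kum (Lat (bs t s)) q e) {ψ₁ ψ₂ k₁ k₂ : E → ℂ}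
    {h₁ h₂ : E → ℂ × ℂ} {n₁ n₂ : Fin 4 → ℤ} {z₀ : E} (a₁ : AnalyticAt ℂ ψ₁ z₀)
    (a₂ : AnalyticAt ℂ ψ₂ z₀) (b₁ : AnalyticAt ℂ h₁ z₀) (b₂ : AnalyticAt ℂ h₂ z₀)
    (c₁ : AnalyticAt ℂ k₁ z₀) (c₂ : AnalyticAt ℂ k₂ z₀)
    (he : ∀ᶠ z in 𝓝 z₀, Gd (Lat (bs t s)) (ψ₁ z) (pv (n₁, h₁ z, k₁ z) s) ∧
      Gd (Lat (bs t s)) (ψ₂ z) (pv (n₂, h₂ z, k₂ z) s) ∧
      evd q e t s (ψ₁ z) (n₁, h₁ z, k₁ z) = evd q e t s (ψ₂ z) (n₂, h₂ z, k₂ z))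
    (e₁ : ψ₁ z₀ ≠ 0) (e₂ : ψ₂ z₀ ≠ 0) :
    ∃ g c : E → ℂ, AnalyticAt ℂ g z₀ ∧ AnalyticAt ℂ c z₀ ∧ ∀ᶠ z in 𝓝 z₀, g z ≠ 0 ∧
      ψ₁ z = g z ^ 2 * ψ₂ z ∧
      Rel t (ψ₂ z) (sh 0 s (c z) (sc (g z) (n₁, h₁ z, k₁ z))) (n₂, h₂ z, k₂ z) := by
  have hd := isDisc_lat (hn.li s)
  have m₁ := hv_mem n₁ (bs t s)
  have m₂ := hv_mem n₂ (bs t s)
  have alt : ∀ᶠ z in 𝓝 z₀, ∀ w₁ w₂ : ℂ, w₁ ^ 2 = ψ₁ z → w₂ ^ 2 = ψ₂ z → w₁ ≠ 0 → w₂ ≠ 0 →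
      hv n₁ (bs t s) + w₁ • pv (n₁, h₁ z, k₁ z) s - (hv n₂ (bs t s) + w₂ • pv (n₂, h₂ z, k₂ z) s)
        ∈ Lat (bs t s) ∨
      hv n₁ (bs t s) + w₁ • pv (n₁, h₁ z, k₁ z) s + (hv n₂ (bs t s) + w₂ • pv (n₂, h₂ z, k₂ z) s)
        ∈ Lat (bs t s) := by
    filter_upwards [he] with z hz w₁ w₂ p₁ p₂ r₁ r₂
    obtain ⟨x₁, y₁⟩ := evp_eq h m₁ hz.1 p₁ r₁
    obtain ⟨x₂, y₂⟩ := evp_eq h m₂ hz.2.1 p₂ r₂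
    exact (h.qeq _ _ x₁ x₂).1 (y₁.symm.trans (hz.2.2.trans y₂))
  obtain ⟨v₂, hv₂⟩ := IsAlgClosed.exists_pow_nat_eq (ψ₂ z₀) two_pos
  have r₂ : v₂ ≠ 0 := fun h0 => e₂ (by rw [← hv₂, h0, zero_pow two_ne_zero])
  obtain ⟨v₁, hv₁, hD⟩ : ∃ v₁ : ℂ, v₁ ^ 2 = ψ₁ z₀ ∧ hv n₁ (bs t s) + v₁ • pv (n₁, h₁ z₀, k₁ z₀) s
      - (hv n₂ (bs t s) + v₂ • pv (n₂, h₂ z₀, k₂ z₀) s) ∈ Lat (bs t s) := by
    obtain ⟨v₁, hv₁⟩ := IsAlgClosed.exists_pow_nat_eq (ψ₁ z₀) two_pos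
    rcases alt.self_of_nhds v₁ v₂ hv₁ hv₂
      (fun h0 => e₁ (by rw [← hv₁, h0, zero_pow two_ne_zero])) r₂ with hc | hc
    · exact ⟨v₁, hv₁, hc⟩
    · refine ⟨-v₁, (neg_sq v₁).trans hv₁, ?_⟩
      have := sub_mem m₁ hc
      rwa [← sub_sub, add_sub_add_left_eq_sub, sub_eq_add_neg (hv n₁ _), ← neg_smul] at this
  have r₁ : v₁ ≠ 0 := fun h0 => e₁ (by rw [← hv₁, h0, zero_pow two_ne_zero])
  obtain ⟨w₁, aw₁, rfl, s₁⟩ := UniN.root a₁ hv₁ e₁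
  obtain ⟨w₂, aw₂, rfl, s₂⟩ := UniN.root a₂ hv₂ e₂
  obtain ⟨m, hm⟩ := mem_lat.1 hD
  have cA : ∀ {n : Fin 4 → ℤ} {w k : E → ℂ} {h : E → ℂ × ℂ}, AnalyticAt ℂ w z₀ →
      AnalyticAt ℂ h z₀ → AnalyticAt ℂ k z₀ →
      ContinuousAt (fun z => hv n (bs t s) + w z • pv (n, h z, k z) s) z₀ :=
    fun a b c => continuousAt_const.add (a.continuousAt.smul (b.continuousAt.add
      (continuousAt_const.prodMk (continuousAt_const.mul c.continuousAt))))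
  have hS : hv n₁ (bs t s) + w₁ z₀ • pv (n₁, h₁ z₀, k₁ z₀) s
      + (hv n₂ (bs t s) + w₂ z₀ • pv (n₂, h₂ z₀, k₂ z₀) s) ∉ Lat (bs t s) := by
    intro hc
    have := sub_mem hc hD
    rw [add_sub_sub_cancel] at this
    exact (evp_eq h m₂ he.self_of_nhds.2.1 hv₂ r₂).1 this
  have f₁ := ((cA (n := n₁) aw₁ b₁ c₁).add (cA (n := n₂) aw₂ b₂ c₂)).eventually (hd.ev_not hS)
  obtain ⟨δ, hδ, hsm⟩ := hd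
  have f₂ := ((cA (n := n₁) aw₁ b₁ c₁).sub (cA (n := n₂) aw₂ b₂ c₂)).eventually
    (ball_mem_nhds _ hδ)
  refine ⟨fun z => w₁ z / w₂ z,
    fun z => k₂ z - w₁ z / w₂ z * k₁ z + (n₂ 3 / 2 + m 3 - n₁ 3 / 2) / w₂ z, aw₁.div aw₂ r₂,
    (c₂.sub ((aw₁.div aw₂ r₂).mul c₁)).add (analyticAt_const.div aw₂ r₂), ?_⟩
  filter_upwards [alt, f₁, f₂, aw₁.continuousAt.eventually_ne r₁,
    aw₂.continuousAt.eventually_ne r₂] with z g₀ g₁ g₂ g₃ g₄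
  refine ⟨div_ne_zero g₃ g₄, ?_, ?_⟩
  · rw [← s₁, ← s₂, ← mul_pow, div_mul_cancel₀ _ g₄]
  · rw [← s₂]
    refine UniN.alg g₄ (hm.trans (sub_eq_zero.1 ?_).symm)
    refine hsm _ (sub_mem ((g₀ _ _ (s₁ z) (s₂ z) g₃ g₄).resolve_right g₁) hD) ?_
    rw [← dist_eq_norm]
    exact g₂

end Vale.Agent.P290
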