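import Vale.Agent.P290Z.PertB
import Vale.Agent.P290Z.Core
import Vale.Agent.P290Z.Phi
import Vale.Agent.P290Z.Dir

/-! Every Kummer surface is Oka. -/

open Set Filter Metric
open scoped Manifold ContDiff Topology

noncomputable section

namespace Vale.Agent.P290

theorem kum_step {X : Type} [MetricSpace X] [ChartedSpace C2 X] [IsManifold 𝓘(ℂ, C2) ω X]
    {t : Tk} {q : ℂ × ℂ → X} {e : ℂ × ℂ → ℂ × ℂ × ℂ → X} (hn : Nm t) (hd : DirH t)
    (h : Kum (Lat (bs t 0)) q e) (m : ℕ) (K : Set (EuclideanSpace ℂ (Fin m)))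
    (f : EuclideanSpace ℂ (Fin m) → X) (ε R : ℝ) (hne : K.Nonempty) (hK : IsCompact K)
    (hc : Convex ℝ K) (hf : ∀ z ∈ K, Hol f z) (hε : 0 < ε) :
    ∃ F : EuclideanSpace ℂ (Fin m) → X,
      (∀ z ∈ closedBall (0 : EuclideanSpace ℂ (Fin m)) R, Hol F z) ∧
      ∀ z ∈ K, dist (F z) (f z) < ε := by
  obtain ⟨φ, hφ, k1, k2⟩ := exists_phi hK hc hne (U := {z | Hol f z})
    (mem_nhdsSet_iff_forall.2 fun z hz => (hf z hz).ev)
  obtain ⟨B, hB⟩ := ((isCompact_closedBall (0 : EuclideanSpace ℂ (Fin m)) R).image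
    hφ.cont).bddAbove
  obtain ⟨Λ, hΛ, hΛ'⟩ : ∃ Λ : ℝ, 2 ≤ Λ ∧ B ≤ Λ - 1 :=
    ⟨max 2 (B + 1), le_max_left _ _, by linarith [le_max_right 2 (B + 1)]⟩
  have cv : ∀ r, Convex ℝ {y | φ y ≤ r} := fun r => by simpa using hφ.conv.convex_le r
  have s1 : K ⊆ {y | φ y ≤ 2} := fun z hz => (k1 z hz).trans one_le_two
  have s2 : {y | φ y ≤ 2} ⊆ {y | φ y ≤ Λ} := fun z hz => le_trans hz hΛ
  obtain ⟨s₀, ψ, d, p1, p2, p3⟩ := pertB hn h (hφ.cpt 2) (cv 2) (hne.mono s1) (hφ.cpt Λ) (cv Λ) s2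
    k2 hε
  obtain ⟨r, r0, hr⟩ := gd_near hn (hφ.cpt Λ) p1 p2
  have θ0 : 0 ≤ 1 - 1 / (8 * Λ) := by
    have : 1 / (8 * Λ) ≤ 1 := (div_le_one (by linarith)).2 (by linarith)
    linarith
  have θ1 : 1 - 1 / (8 * Λ) < 1 := by
    have : 0 < 1 / (8 * Λ) := by positivity
    linarith
  obtain ⟨N, hN⟩ : ∃ N : ℕ, ‖s₀‖ * (1 - 1 / (8 * Λ)) ^ N ≤ r := by
    have := (tendsto_pow_atTop_nhds_zero_of_lt_one θ0 θ1).const_mul ‖s₀‖
    rw [mul_zero] at this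
    exact (this.eventually_le_const r0).exists
  have hσ : Differentiable ℂ fun ξ : ℂ => s₀ - s₀ * ξ ^ N := by fun_prop
  have pz : ∀ y, φ y ≤ Λ → Pres t ψ d {y} := fun y hy z hz => p1 z (by rwa [hz])
  obtain ⟨δ, δ0, hδ⟩ := tg_open hn h hK (fun z hz => p1 z (s2 (s1 hz)))
    (fun z hz => (hf z hz).continuousAt) (by positivity) (fun z hz => p3 z (s1 hz)) 0
  obtain ⟨H, H1, H2⟩ := core_ext (isOpen_Om hn ψ d hσ) hφ hΛ le_rfl (by norm_num)
    (fun y hy => om_loc hn hd hσ (pz y hy)) (fun x a1 a2 a3 => ⟨pz _ a1, by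
      rw [add_zero]
      rcases a3 with a3 | a3
      · refine (p3 _ a3).1 _ ((norm_sub_le _ _).trans ?_)
        rw [norm_mul, norm_pow]
        nlinarith [pow_le_one₀ (norm_nonneg x.2) a2 (n := N), norm_nonneg s₀]
      · refine hr.self_of_nhdsSet _ a1 _ (le_trans ?_ hN)
        rw [sub_sub_cancel_left, norm_neg, norm_mul, norm_pow]
        gcongr⟩) δ0
  refine ⟨fun z => evd q e t 0 (ψ z) (sh (H (z, 1)) 0 0 (d z)), fun z hz => ?_, fun z hz => ?_⟩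
  · have b1 : φ z ≤ Λ - 1 := (hB (mem_image_of_mem _ hz)).trans hΛ'
    obtain ⟨b2, b3⟩ := H1 z b1 _ rfl
    refine Pres.hol hn h ((pz z (by linarith)).sh (H := fun y => H (y, 1)) (c := fun _ => 0)
      (fun y hy => ?_) analyticOnNhd_const 0) ?_
    · rw [hy]
      exact b2.comp_of_eq (analyticAt_id.prod analyticAt_const) rfl
    · simpa [pv_sh, Prod.mk_zero_zero] using b3.2
  · exact (hδ.self_of_nhdsSet z hz _ 0 (H2 z (k1 z hz)) (by simpa using δ0.le)).2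

theorem Kum.oka {X : Type} [MetricSpace X] [ChartedSpace C2 X] [IsManifold 𝓘(ℂ, C2) ω X]
    {t : Tk} {q : ℂ × ℂ → X} {e : ℂ × ℂ → ℂ × ℂ × ℂ → X} (ht : LinearIndependent ℝ t)
    (h : Kum (Lat t) q e) : IsOka X := by
  obtain ⟨g, hn⟩ := exists_nm ht
  have h' := h.lin g
  rcases dir_or hn with he | hd
  · exact h'.oka_ell hn.1 he
  · have := h.compact (isDisc_lat ht) (lat_fund ht)
    rw [← bs_zero fun i => g (t i)] at h'
    exact oka_of_step fun m K f ε R a1 a2 a3 a4 a5 => kum_step hn hd h' m K f ε R a1 a2 a3 a4 a5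

end Vale.Agent.P290
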